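import Vale.Agent.P197.Union

namespace Vale.Agent.P197

open Equiv TensorProduct

variable {p q : ℕ} {a b c : YoungDiagram}

noncomputable def cat : ((Fin p → ℕ) →₀ ℂ) →ₗ[ℂ] ((Fin q → ℕ) →₀ ℂ) →ₗ[ℂ]
    ((Fin (p + q) → ℕ) →₀ ℂ) :=
  LinearMap.compr₂ (TensorProduct.mk ℂ ((Fin p → ℕ) →₀ ℂ) ((Fin q → ℕ) →₀ ℂ))
    ((Finsupp.lmapDomain ℂ ℂ (fun uv : (Fin p → ℕ) × (Fin q → ℕ) => Fin.append uv.1 uv.2)) ∘ₗ
      (finsuppTensorFinsupp' ℂ (Fin p → ℕ) (Fin q → ℕ)).toLinearMap)

theorem cat_single (u : Fin p → ℕ) (v : Fin q → ℕ) (x y : ℂ) :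
    cat (Finsupp.single u x) (Finsupp.single v y) = Finsupp.single (Fin.append u v) (x * y) := by
  change Finsupp.mapDomain _ (finsuppTensorFinsupp' ℂ (Fin p → ℕ) (Fin q → ℕ)
    (Finsupp.single u x ⊗ₜ[ℂ] Finsupp.single v y)) = _
  rw [finsuppTensorFinsupp'_single_tmul_single, Finsupp.mapDomain_single]

def blockPerm (π : Perm (Fin p)) (σ : Perm (Fin q)) : Perm (Fin (p + q)) :=
  finSumFinEquiv.permCongr (Equiv.sumCongr π σ)

theorem blockPerm_inl (π : Perm (Fin p)) (σ : Perm (Fin q)) (i : Fin p) :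
    blockPerm π σ (finSumFinEquiv (Sum.inl i)) = finSumFinEquiv (Sum.inl (π i)) := by
  simp [blockPerm, Equiv.permCongr_apply]

theorem blockPerm_inr (π : Perm (Fin p)) (σ : Perm (Fin q)) (i : Fin q) :
    blockPerm π σ (finSumFinEquiv (Sum.inr i)) = finSumFinEquiv (Sum.inr (σ i)) := by
  simp [blockPerm, Equiv.permCongr_apply]

theorem sign_blockPerm (π : Perm (Fin p)) (σ : Perm (Fin q)) :
    Perm.sign (blockPerm π σ) = Perm.sign π * Perm.sign σ := by
  unfold blockPerm
  rw [Perm.sign_permCongr]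
  exact Perm.sign_sumCongr π σ

theorem append_comp_blockPerm {α : Type*} (u : Fin p → α) (v : Fin q → α) (π : Perm (Fin p))
    (σ : Perm (Fin q)) :
    Fin.append u v ∘ (blockPerm π σ).symm = Fin.append (u ∘ π.symm) (v ∘ σ.symm) := by
  funext x
  obtain ⟨y, rfl⟩ := (blockPerm π σ).surjective x
  obtain ⟨z, rfl⟩ := finSumFinEquiv.surjective y
  rw [Function.comp_apply, Equiv.symm_apply_apply]
  rcases z with i | i
  · rw [blockPerm_inl]
    simp
  · rw [blockPerm_inr]
    simp

theorem tabloid_unionTab (hrow : ∀ i, c.rowLen i = a.rowLen i + b.rowLen i)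
    (t : Fin p ≃ a.cells) (s : Fin q ≃ b.cells) :
    tabloid (unionTab hrow t s) = Fin.append (tabloid t) (tabloid s) := by
  funext x
  obtain ⟨z, rfl⟩ := finSumFinEquiv.surjective x
  rcases z with i | i
  · simp [tabloid, unionTab, unionCells, unionMap]
  · simp [tabloid, unionTab, unionCells, unionMap]

theorem unionTab_inl (hrow : ∀ i, c.rowLen i = a.rowLen i + b.rowLen i)
    (t : Fin p ≃ a.cells) (s : Fin q ≃ b.cells) (i : Fin p) :
    (unionTab hrow t s (finSumFinEquiv (Sum.inl i))).1.2 = posL a b (t i).1.2 := by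
  simp [unionTab, unionCells, unionMap]

theorem unionTab_inr (hrow : ∀ i, c.rowLen i = a.rowLen i + b.rowLen i)
    (t : Fin p ≃ a.cells) (s : Fin q ≃ b.cells) (i : Fin q) :
    (unionTab hrow t s (finSumFinEquiv (Sum.inr i))).1.2 = posR a b (s i).1.2 := by
  simp [unionTab, unionCells, unionMap]

theorem cat_polytabloid (hrow : ∀ i, c.rowLen i = a.rowLen i + b.rowLen i)
    (t : Fin p ≃ a.cells) (s : Fin q ≃ b.cells) :
    cat (polytabloid t) (polytabloid s) = polytabloid (unionTab hrow t s) := by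
  unfold polytabloid
  simp only [map_sum, LinearMap.sum_apply, map_smul, LinearMap.smul_apply, wordRep_single,
    cat_single, mul_one, Finset.smul_sum, smul_smul]
  rw [Finset.sum_comm, ← Finset.sum_product']
  refine Finset.sum_bij (fun x _ => blockPerm x.1 x.2) ?_ ?_ ?_ ?_
  · rintro ⟨π, σ⟩ hx
    rw [Finset.mem_product, mem_colStab, mem_colStab] at hx
    rw [mem_colStab]
    intro x
    obtain ⟨z, rfl⟩ := finSumFinEquiv.surjective x
    rcases z with i | i
    · rw [blockPerm_inl, unionTab_inl, unionTab_inl, hx.1]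
    · rw [blockPerm_inr, unionTab_inr, unionTab_inr, hx.2]
  · rintro ⟨π, σ⟩ _ ⟨π', σ'⟩ _ heq
    have h1 : π = π' := by
      ext i : 1
      have := congrArg (fun f => f (finSumFinEquiv (Sum.inl i))) heq
      simp only [blockPerm_inl] at this
      exact Sum.inl_injective (finSumFinEquiv.injective this)
    have h2 : σ = σ' := by
      ext i : 1
      have := congrArg (fun f => f (finSumFinEquiv (Sum.inr i))) heq
      simp only [blockPerm_inr] at this
      exact Sum.inr_injective (finSumFinEquiv.injective this)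
    rw [h1, h2]
  · intro ρ hρ
    rw [mem_colStab] at hρ
    let ρ' : Perm (Fin p ⊕ Fin q) := finSumFinEquiv.symm.permCongr ρ
    have hρ' : ∀ z, finSumFinEquiv (ρ' z) = ρ (finSumFinEquiv z) := by
      intro z
      simp [ρ', Equiv.permCongr_apply]
    have hmaps : Set.MapsTo ρ' (Set.range Sum.inl) (Set.range Sum.inl) := by
      rintro _ ⟨i, rfl⟩
      rcases hz : ρ' (Sum.inl i) with j | j
      · exact ⟨j, rfl⟩
      · exfalso
        have h1 := hρ (finSumFinEquiv (Sum.inl i))
        rw [← hρ', hz, unionTab_inl, unionTab_inr] at h1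
        exact posL_ne_posR (t i).2 (s j).2 h1.symm
    obtain ⟨⟨π, σ⟩, hπσ⟩ := Perm.mem_sumCongrHom_range_of_perm_mapsTo_inl hmaps
    have hb : blockPerm π σ = ρ := by
      ext x : 1
      obtain ⟨z, rfl⟩ := finSumFinEquiv.surjective x
      rw [← hρ', ← hπσ]
      rcases z with i | i
      · rw [blockPerm_inl]; simp
      · rw [blockPerm_inr]; simp
    refine ⟨(π, σ), ?_, hb⟩
    rw [Finset.mem_product, mem_colStab, mem_colStab]
    refine ⟨fun i => ?_, fun i => ?_⟩
    · have h1 := hρ (finSumFinEquiv (Sum.inl i))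
      rw [← hb, blockPerm_inl, unionTab_inl, unionTab_inl] at h1
      exact (posL_strictMono a b).injective h1
    · have h1 := hρ (finSumFinEquiv (Sum.inr i))
      rw [← hb, blockPerm_inr, unionTab_inr, unionTab_inr] at h1
      exact (posR_strictMono a b).injective h1
  · rintro ⟨π, σ⟩ _
    rw [tabloid_unionTab, append_comp_blockPerm, sign_blockPerm]
    congr 1
    push_cast
    ring

end Vale.Agent.P197
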