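import Vale.Agent.P197.Defs

namespace Vale.Agent.P197

open Equiv Representation

def SV (n : ℕ) (μ : YoungDiagram) : Type := (specht n μ).toSubmodule

noncomputable instance instSVGroup (n : ℕ) (μ : YoungDiagram) : AddCommGroup (SV n μ) :=
  inferInstanceAs (AddCommGroup (specht n μ).toSubmodule)

noncomputable instance instSVModule (n : ℕ) (μ : YoungDiagram) : Module ℂ (SV n μ) :=
  inferInstanceAs (Module ℂ (specht n μ).toSubmodule)

instance instSVFD (n : ℕ) (μ : YoungDiagram) : FiniteDimensional ℂ (SV n μ) := by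
  have : FiniteDimensional ℂ (specht n μ).toSubmodule := by
    apply FiniteDimensional.span_of_finite
    exact Set.finite_range _
  exact this

noncomputable def rep (n : ℕ) (μ : YoungDiagram) :
    Representation ℂ (Perm (Fin n)) (SV n μ) :=
  (specht n μ).toRepresentation

abbrev TT (n : ℕ) (la mu nu : YoungDiagram) : Type :=
  TensorProduct ℂ (TensorProduct ℂ (SV n la) (SV n mu)) (SV n nu)

noncomputable def rep3 (n : ℕ) (la mu nu : YoungDiagram) :
    Representation ℂ (Perm (Fin n)) (TT n la mu nu) :=
  ((rep n la).tprod (rep n mu)).tprod (rep n nu)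

noncomputable def chi (n : ℕ) (μ : YoungDiagram) : Perm (Fin n) → ℂ := (rep n μ).character

theorem kronecker_def' (n : ℕ) (la mu nu : YoungDiagram) :
    kronecker n la mu nu = Module.finrank ℂ
      (Representation.IntertwiningMap (rep n nu) ((rep n la).tprod (rep n mu))) := rfl

theorem char_inv {n : ℕ} {W : Type*} [AddCommGroup W] [Module ℂ W] [FiniteDimensional ℂ W]
    (ρ : Representation ℂ (Perm (Fin n)) W) (g : Perm (Fin n)) :
    ρ.character g⁻¹ = ρ.character g := by
  have h : IsConj g g⁻¹ := by
    rw [Perm.isConj_iff_cycleType_eq, Perm.cycleType_inv]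
  obtain ⟨c, hc⟩ := isConj_iff.mp h
  rw [← hc, char_conj]

noncomputable instance instInvCard (n : ℕ) : Invertible (Nat.card (Perm (Fin n)) : ℂ) :=
  invertibleOfNonzero (by
    have : 0 < Nat.card (Perm (Fin n)) := Nat.card_pos
    exact_mod_cast this.ne')

theorem kronecker_eq_sum (n : ℕ) (la mu nu : YoungDiagram) :
    (kronecker n la mu nu : ℂ) = (Nat.card (Perm (Fin n)) : ℂ)⁻¹ *
      ∑ g : Perm (Fin n), chi n la g * chi n mu g * chi n nu g := by
  rw [kronecker_def', ← card_inv_mul_sum_char_mul_char_eq_finrank]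
  congr 1
  refine Finset.sum_congr rfl fun g _ => ?_
  rw [char_tensor, Pi.mul_apply, char_inv]
  rfl

theorem rep3_char (n : ℕ) (la mu nu : YoungDiagram) (g : Perm (Fin n)) :
    (rep3 n la mu nu).character g = chi n la g * chi n mu g * chi n nu g := by
  unfold rep3 chi
  rw [char_tensor, Pi.mul_apply, char_tensor, Pi.mul_apply]

theorem kronecker_eq_invariants (n : ℕ) (la mu nu : YoungDiagram) :
    kronecker n la mu nu = Module.finrank ℂ (rep3 n la mu nu).invariants := by
  have h := card_inv_mul_sum_char_eq_finrank (rep3 n la mu nu)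
  have h2 := kronecker_eq_sum n la mu nu
  simp_rw [rep3_char] at h
  rw [← h2] at h
  exact_mod_cast h

theorem kronecker_pos_iff (n : ℕ) (la mu nu : YoungDiagram) :
    0 < kronecker n la mu nu ↔
      ∃ x : TT n la mu nu, x ≠ 0 ∧ ∀ g, rep3 n la mu nu g x = x := by
  rw [kronecker_eq_invariants]
  refine Iff.trans (Module.finrank_pos_iff_exists_ne_zero (R := ℂ)
    (M := (rep3 n la mu nu).invariants)) ?_
  constructor
  · rintro ⟨⟨x, hx⟩, hne⟩
    exact ⟨x, fun h => hne (Subtype.ext h), fun g => hx g⟩
  · rintro ⟨x, hne, hx⟩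
    exact ⟨⟨x, fun g => hx g⟩, fun h => hne (congrArg Subtype.val h)⟩

theorem kronecker_pos_of_form (n : ℕ) (la mu nu : YoungDiagram)
    (T : SV n la →ₗ[ℂ] SV n mu →ₗ[ℂ] SV n nu →ₗ[ℂ] ℂ) (hT : T ≠ 0)
    (hinv : ∀ (σ : Perm (Fin n)) a b c, T (rep n la σ a) (rep n mu σ b) (rep n nu σ c) = T a b c) :
    0 < kronecker n la mu nu := by
  let F : TT n la mu nu →ₗ[ℂ] ℂ := TensorProduct.lift (TensorProduct.lift T)
  have hF : ∀ a b c, F ((a ⊗ₜ b) ⊗ₜ c) = T a b c := fun a b c => by simp [F]
  have hFinv : ∀ σ x, F (rep3 n la mu nu σ x) = F x := by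
    intro σ x
    have : F ∘ₗ rep3 n la mu nu σ = F := by
      apply TensorProduct.ext
      apply TensorProduct.ext
      ext a b c
      have := hinv σ a b c
      rw [← hF, ← hF] at this
      exact this
    exact LinearMap.congr_fun this x
  have hFne : F ≠ 0 := by
    intro h
    apply hT
    ext a b c
    rw [← hF, h]
    simp
  let Φ : IntertwiningMap (rep3 n la mu nu) (Representation.trivial ℂ (Perm (Fin n)) ℂ) :=
    { F with
      isIntertwining' := by
        intro g
        apply LinearMap.ext
        intro x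
        have := hFinv g x
        simpa using this }
  have hΦ : Φ ≠ 0 := by
    intro h
    apply hFne
    have := congrArg IntertwiningMap.toLinearMap h
    exact this
  have hpos : 0 < Module.finrank ℂ
      (IntertwiningMap (rep3 n la mu nu) (Representation.trivial ℂ (Perm (Fin n)) ℂ)) := by
    have : FiniteDimensional ℂ
      (IntertwiningMap (rep3 n la mu nu) (Representation.trivial ℂ (Perm (Fin n)) ℂ)) :=
      Module.Finite.equiv (invariantsEquivIntertwiningMap (rep3 n la mu nu)
        (Representation.trivial ℂ (Perm (Fin n)) ℂ))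
    rw [Module.finrank_pos_iff_exists_ne_zero]
    exact ⟨Φ, hΦ⟩
  have h1 := card_inv_mul_sum_char_mul_char_eq_finrank (rep3 n la mu nu)
    (Representation.trivial ℂ (Perm (Fin n)) ℂ)
  have h2 := kronecker_eq_sum n la mu nu
  have h3 : ∀ g : Perm (Fin n), (Representation.trivial ℂ (Perm (Fin n)) ℂ).character g *
      (rep3 n la mu nu).character g⁻¹ = chi n la g * chi n mu g * chi n nu g := by
    intro g
    rw [char_inv, rep3_char]
    simp [character]
  simp_rw [h3] at h1
  rw [← h2] at h1
  have h4 : kronecker n la mu nu = Module.finrank ℂ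
      (IntertwiningMap (rep3 n la mu nu) (Representation.trivial ℂ (Perm (Fin n)) ℂ)) := by
    exact_mod_cast h1
  omega

end Vale.Agent.P197
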