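import Mathlib

namespace Vale.Agent.P197

open Equiv

noncomputable def wordRep (n : ℕ) : Representation ℂ (Perm (Fin n)) ((Fin n → ℕ) →₀ ℂ) where
  toFun σ := Finsupp.lmapDomain ℂ ℂ (fun w => w ∘ σ.symm)
  map_one' := by
    ext w
    simp [Perm.one_def]
  map_mul' σ τ := by
    ext w
    simp [Perm.mul_def, Function.comp_assoc]

def tabloid {n : ℕ} {μ : YoungDiagram} (t : Fin n ≃ μ.cells) : Fin n → ℕ :=
  fun p => (t p).1.1

def colStab {n : ℕ} {μ : YoungDiagram} (t : Fin n ≃ μ.cells) : Finset (Perm (Fin n)) :=
  Finset.univ.filter fun π => ∀ p, (t (π p)).1.2 = (t p).1.2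

noncomputable def polytabloid {n : ℕ} {μ : YoungDiagram} (t : Fin n ≃ μ.cells) :
    (Fin n → ℕ) →₀ ℂ :=
  ∑ π ∈ colStab t, ((Perm.sign π : ℤ) : ℂ) • wordRep n π (Finsupp.single (tabloid t) 1)

theorem wordRep_single {n : ℕ} (σ : Perm (Fin n)) (w : Fin n → ℕ) (a : ℂ) :
    wordRep n σ (Finsupp.single w a) = Finsupp.single (w ∘ σ.symm) a := by
  simp [wordRep]

theorem wordRep_polytabloid {n : ℕ} {μ : YoungDiagram} (σ : Perm (Fin n)) (t : Fin n ≃ μ.cells) :
    wordRep n σ (polytabloid t) = polytabloid (σ.symm.trans t) := by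
  unfold polytabloid
  rw [map_sum]
  refine Finset.sum_bij (fun π _ => σ * π * σ⁻¹) ?_ ?_ ?_ ?_
  · intro π hπ
    simp only [colStab, Finset.mem_filter, Finset.mem_univ, true_and] at hπ ⊢
    intro p
    have := hπ (σ.symm p)
    simpa [Perm.mul_def, Perm.inv_def] using this
  · intro a _ b _ hab
    simpa using hab
  · intro π hπ
    refine ⟨σ⁻¹ * π * σ, ?_, by group⟩
    simp only [colStab, Finset.mem_filter, Finset.mem_univ, true_and] at hπ ⊢
    intro p
    have := hπ (σ p)
    simpa [Perm.mul_def, Perm.inv_def] using this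
  · intro π _
    rw [map_smul]
    congr 1
    · have h : Perm.sign (σ * π * σ⁻¹) = Perm.sign π := by
        rw [map_mul, map_mul, mul_right_comm, ← map_mul]
        simp
      rw [h]
    · rw [wordRep_single, wordRep_single, wordRep_single]
      congr 1
      funext p
      simp [tabloid, Perm.mul_def, Perm.inv_def]

noncomputable def specht (n : ℕ) (μ : YoungDiagram) : Subrepresentation (wordRep n) where
  toSubmodule := Submodule.span ℂ (Set.range (polytabloid (n := n) (μ := μ)))
  apply_mem_toSubmodule σ v hv := by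
    induction hv using Submodule.span_induction with
    | mem x hx =>
      obtain ⟨t, rfl⟩ := hx
      rw [wordRep_polytabloid]
      exact Submodule.subset_span ⟨_, rfl⟩
    | zero => simp
    | add x y _ _ hx hy => rw [map_add]; exact Submodule.add_mem _ hx hy
    | smul a x _ hx => rw [map_smul]; exact Submodule.smul_mem _ a hx

noncomputable def kronecker (n : ℕ) (la mu nu : YoungDiagram) : ℕ :=
  Module.finrank ℂ (Representation.IntertwiningMap (specht n nu).toRepresentation
    ((specht n la).toRepresentation.tprod (specht n mu).toRepresentation))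

def staircase (m : ℕ) : YoungDiagram where
  cells := (Finset.range m ×ˢ Finset.range m).filter fun c => c.1 + c.2 < m
  isLowerSet := by
    intro a b hab ha
    simp only [Finset.coe_filter, Finset.mem_product, Finset.mem_range] at ha ⊢
    have h1 := hab.1
    have h2 := hab.2
    have h3 := ha.1
    have h4 := ha.2
    refine ⟨⟨?_, ?_⟩, ?_⟩ <;> omega

end Vale.Agent.P197
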