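import Vale.Agent.P197.Defs

namespace Vale.Agent.P197

open Finset

structure PeelClosed (G : ℕ → YoungDiagram → Prop) : Prop where
  dom : ∀ (m : ℕ) (ν : YoungDiagram), ν.card = m * (m + 1) / 2 →
    (∀ r, ∑ i ∈ range r, (m - i) ≤ ∑ i ∈ range r, ν.rowLen i) → G m ν
  trans : ∀ (m : ℕ) (ν : YoungDiagram), G m ν → G m ν.transpose
  step : ∀ (m j : ℕ) (α β ν : YoungDiagram), j ≤ m →
    (∀ i, ν.rowLen i = α.rowLen i + β.rowLen i) → G (m - j) α →
    β.card = ∑ i ∈ range j, (m - i) →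
    (∀ r, ∑ i ∈ range r, (if i < j then m - i else 0) ≤ ∑ i ∈ range r, β.rowLen i) →
    G m ν

end Vale.Agent.P197
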