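import Vale.Agent.P197.Semigroup2
import Vale.Agent.P197.PeelBase

namespace Vale.Agent.P197

open Equiv Finset

theorem rowLen_eq_of {μ : YoungDiagram} {i f : ℕ} (h : ∀ k, (i, k) ∈ μ ↔ k < f) :
    μ.rowLen i = f := by
  apply le_antisymm
  · by_contra hlt
    push Not at hlt
    have := (h f).mp (YoungDiagram.mem_iff_lt_rowLen.mpr hlt)
    omega
  · by_contra hlt
    push Not at hlt
    have := YoungDiagram.mem_iff_lt_rowLen.mp ((h (μ.rowLen i)).mpr hlt)
    omega

theorem mem_staircase {m : ℕ} {c : ℕ × ℕ} : c ∈ staircase m ↔ c.1 + c.2 < m := by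
  change c ∈ (staircase m).cells ↔ _
  simp only [staircase, mem_filter, mem_product, mem_range]
  constructor
  · rintro ⟨_, h⟩; exact h
  · intro h; exact ⟨⟨by omega, by omega⟩, h⟩

theorem rowLen_staircase (m i : ℕ) : (staircase m).rowLen i = m - i := by
  apply rowLen_eq_of
  intro k
  rw [mem_staircase]
  omega

theorem staircase_transpose (m : ℕ) : (staircase m).transpose = staircase m := by
  ext c
  rw [YoungDiagram.mem_cells, YoungDiagram.mem_cells, YoungDiagram.mem_transpose, mem_staircase,
    mem_staircase]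
  simp [add_comm]

def trap (m j : ℕ) : YoungDiagram where
  cells := (range j ×ˢ range m).filter fun c => c.1 + c.2 < m
  isLowerSet := by
    intro a b hab ha
    simp only [coe_filter, mem_product, mem_range] at ha ⊢
    have h1 := hab.1
    have h2 := hab.2
    have h3 := ha.1
    have h4 := ha.2
    refine ⟨⟨?_, ?_⟩, ?_⟩ <;> omega

theorem mem_trap {m j : ℕ} {c : ℕ × ℕ} : c ∈ trap m j ↔ c.1 < j ∧ c.1 + c.2 < m := by
  change c ∈ (trap m j).cells ↔ _
  simp only [trap, mem_filter, mem_product, mem_range]
  constructor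
  · rintro ⟨⟨h, _⟩, h'⟩; exact ⟨h, h'⟩
  · rintro ⟨h, h'⟩; exact ⟨⟨h, by omega⟩, h'⟩

theorem rowLen_trap (m j i : ℕ) : (trap m j).rowLen i = if i < j then m - i else 0 := by
  apply rowLen_eq_of
  intro k
  rw [mem_trap]
  simp only
  split_ifs with h
  · constructor
    · rintro ⟨_, h'⟩; omega
    · intro h'; exact ⟨h, by omega⟩
  · constructor
    · rintro ⟨h', _⟩; exact absurd h' h
    · intro h'; omega

theorem rowLen_trap_transpose (m j i : ℕ) : (trap m j).transpose.rowLen i = min j (m - i) := by
  apply rowLen_eq_of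
  intro k
  rw [YoungDiagram.mem_transpose, mem_trap]
  simp only [Prod.swap]
  omega

theorem sum_range_sub (m r : ℕ) (h : r ≤ m) :
    2 * ∑ i ∈ range r, (m - i) + (m - r) * (m - r + 1) = m * (m + 1) := by
  induction r with
  | zero => simp
  | succ r ih =>
    have := ih (by omega)
    rw [sum_range_succ, mul_add]
    obtain ⟨k, rfl⟩ : ∃ k, m = r + 1 + k := ⟨m - (r + 1), by omega⟩
    have e1 : r + 1 + k - r = k + 1 := by omega
    have e2 : r + 1 + k - (r + 1) = k := by omega
    rw [e1] at this
    rw [e1, e2]
    nlinarith [this]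

theorem card_of_rowLen {μ : YoungDiagram} {B : ℕ} (h : ∀ i, B ≤ i → μ.rowLen i = 0) :
    μ.card = ∑ i ∈ range B, μ.rowLen i := by
  apply card_eq_sum_rowLen
  by_contra hlt
  push Not at hlt
  have h1 := YoungDiagram.mem_iff_lt_colLen.mpr hlt
  rw [YoungDiagram.mem_iff_lt_rowLen, h B le_rfl] at h1
  exact absurd h1 (by omega)

theorem card_staircase (m : ℕ) : (staircase m).card = m * (m + 1) / 2 := by
  rw [card_of_rowLen (B := m) (fun i hi => by rw [rowLen_staircase]; omega)]
  simp_rw [rowLen_staircase]
  have := sum_range_sub m m le_rfl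
  simp only [Nat.sub_self, zero_mul, add_zero] at this
  omega

theorem card_trap (m j : ℕ) : (trap m j).card = ∑ i ∈ range j, (m - i) := by
  rw [card_of_rowLen (B := j) (fun i hi => by rw [rowLen_trap, if_neg (by omega)])]
  refine sum_congr rfl fun i hi => ?_
  rw [rowLen_trap, if_pos (mem_range.mp hi)]

theorem add_card (m j : ℕ) (h : j ≤ m) :
    (m - j) * (m - j + 1) / 2 + ∑ i ∈ range j, (m - i) = m * (m + 1) / 2 := by
  have := sum_range_sub m j h
  omega

def StrictDominance : Prop :=
  ∀ (n : ℕ) (mu nu : YoungDiagram), mu.card = n → nu.card = n →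
    (∀ i, 0 < mu.rowLen (i + 1) → mu.rowLen (i + 1) < mu.rowLen i) →
    (∀ r, ∑ i ∈ range r, mu.rowLen i ≤ ∑ i ∈ range r, nu.rowLen i) →
    0 < kronecker n mu mu nu

def Good (m : ℕ) (ν : YoungDiagram) : Prop :=
  ν.card = m * (m + 1) / 2 ∧ 0 < kronecker (m * (m + 1) / 2) (staircase m) (staircase m) ν

theorem peelClosed_good (hSD : StrictDominance) : PeelClosed Good where
  dom m ν hcard hdom := by
    refine ⟨hcard, ?_⟩
    apply hSD _ _ _ (card_staircase m) hcard
    · intro i hi
      rw [rowLen_staircase] at hi ⊢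
      rw [rowLen_staircase]
      omega
    · intro r
      simp_rw [rowLen_staircase]
      exact hdom r
  trans m ν h := by
    refine ⟨by rw [card_transpose]; exact h.1, ?_⟩
    have := kronecker_transpose (n := m * (m + 1) / 2) (staircase m) (staircase m) ν
      (card_staircase m) h.1
    rw [staircase_transpose] at this
    rw [this]
    exact h.2
  step m j α β ν hj hrow hα hβ hdom := by
    have hcard : ν.card = m * (m + 1) / 2 := by
      rw [card_add hrow, hα.1, hβ, add_card m j hj]
    refine ⟨hcard, ?_⟩
    rw [← add_card m j hj]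
    have h1 : 0 < kronecker (∑ i ∈ range j, (m - i)) (trap m j) (trap m j) β := by
      apply hSD _ _ _ (card_trap m j) hβ
      · intro i hi
        rw [rowLen_trap] at hi ⊢
        rw [rowLen_trap]
        split_ifs at hi ⊢ <;> omega
      · intro r
        simp_rw [rowLen_trap]
        exact hdom r
    have h2 : 0 < kronecker (∑ i ∈ range j, (m - i)) (trap m j).transpose
        (trap m j).transpose β := by
      have e1 := kronecker_transpose (n := ∑ i ∈ range j, (m - i)) β (trap m j) (trap m j)
        (card_trap m j) (card_trap m j)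
      rw [kronecker_rotate _ β (trap m j).transpose, kronecker_rotate _ β (trap m j)] at e1
      rw [e1]
      exact h1
    refine kronecker_pos_add (fun i => ?_) (fun i => ?_) hrow hα.2 h2
    · rw [rowLen_staircase, rowLen_staircase, rowLen_trap_transpose]
      omega
    · rw [rowLen_staircase, rowLen_staircase, rowLen_trap_transpose]
      omega

end Vale.Agent.P197
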