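import Vale.Agent.P197.PeelSS

namespace Vale.Agent.P197

open Multiset

structure PeelGame (k : ℕ) (W : ℕ → Multiset ℕ → Multiset ℕ → Prop) : Prop where
  fin : ∀ m X Y, 2 * (k + Multiset.card Y) ≤ m + 1 → W m X Y
  swap : ∀ m X Y, W m Y X → W m X Y
  mass : ∀ m X Y, ((∀ z ∈ X, 1 ≤ z ∧ z ≤ k) → (∀ z ∈ Y, 1 ≤ z ∧ z ≤ k) → ∀ e, e ≤ k * k →
    2 * (e + X.sum + Y.sum) = m * (m + 1) → W m X Y) → W m X Y
  step : ∀ (m m' K : ℕ) (X Y Z : Multiset ℕ), Z ≤ X → (∀ z ∈ Z, z ≤ K) → m' ≤ m →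
    2 * Z.sum + m' * (m' + 1) = m * (m + 1) → K * m ≤ Z.sum → W m' (X - Z) Y → W m X Y

variable {k : ℕ} {W : ℕ → Multiset ℕ → Multiset ℕ → Prop}

theorem PeelGame.vstep (hW : PeelGame k W) (m m' K : ℕ) (X Y Z : Multiset ℕ) (hZ : Z ≤ Y)
    (hK : ∀ z ∈ Z, z ≤ K) (hm : m' ≤ m) (hs : 2 * Z.sum + m' * (m' + 1) = m * (m + 1))
    (hd : K * m ≤ Z.sum) (h : W m' X (Y - Z)) : W m X Y :=
  hW.swap _ _ _ (hW.step m m' K Y X Z hZ hK hm hs hd (hW.swap _ _ _ h))

theorem PeelGame.vrect (hW : PeelGame k W) (m l s : ℕ) (X U : Multiset ℕ)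
    (hm : 2 * l ≤ m) (hs : 2 * m + 1 ≤ s + 2 * l)
    (h : W (m - 2 * l) X (Multiset.replicate (s - (2 * m + 1 - 2 * l)) l + U)) :
    W m X (Multiset.replicate s l + U) := by
  obtain ⟨q, rfl⟩ : ∃ q, m = q + 2 * l := ⟨m - 2 * l, by omega⟩
  obtain ⟨r, rfl⟩ : ∃ r, s = r + (2 * q + 2 * l + 1) := ⟨s - (2 * q + 2 * l + 1), by omega⟩
  refine hW.vstep (q + 2 * l) q l _ _ (Multiset.replicate (2 * q + 2 * l + 1) l) ?_ ?_ (by omega)
    ?_ ?_ ?_
  · calc Multiset.replicate (2 * q + 2 * l + 1) l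
        ≤ Multiset.replicate (r + (2 * q + 2 * l + 1)) l :=
          Multiset.replicate_le_replicate l |>.mpr (by omega)
      _ ≤ _ := Multiset.le_add_right _ _
  · intro z hz
    exact (Multiset.eq_of_mem_replicate hz).le
  · rw [Multiset.sum_replicate, smul_eq_mul]
    ring
  · rw [Multiset.sum_replicate, smul_eq_mul]
    nlinarith
  · have e1 : q + 2 * l - 2 * l = q := by omega
    have e2 : r + (2 * q + 2 * l + 1) - (2 * (q + 2 * l) + 1 - 2 * l) = r := by omega
    rw [e1, e2] at h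
    have e3 : Multiset.replicate (r + (2 * q + 2 * l + 1)) l + U -
        Multiset.replicate (2 * q + 2 * l + 1) l = Multiset.replicate r l + U := by
      rw [Multiset.replicate_add]
      have : Multiset.replicate r l + Multiset.replicate (2 * q + 2 * l + 1) l + U =
        Multiset.replicate (2 * q + 2 * l + 1) l + (Multiset.replicate r l + U) := by abel
      rw [this, add_tsub_cancel_left]
    rw [e3]
    exact h

theorem exists_mul_between (a d : ℕ) (ha : 1 ≤ a) : ∃ t, d ≤ a * t ∧ a * t < d + a := by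
  refine ⟨(d + a - 1) / a, ?_, ?_⟩
  · have h1 := Nat.div_add_mod (d + a - 1) a
    have h2 := Nat.mod_lt (d + a - 1) (show 0 < a by omega)
    omega
  · have h1 := Nat.mul_div_le (d + a - 1) a
    omega

theorem PeelGame.rect (hW : PeelGame k W) (h l : ℕ) (h1 : 1 ≤ h) (hh : h ≤ k)
    (l1 : 1 ≤ l) (hl : l ≤ k) (X : Multiset ℕ) (hX : k ≤ X.count h)
    (hXs : 10000 * (k * k) ≤ X.sum) :
    ∀ m s U, Multiset.card U ≤ 2 * k → W m X (Multiset.replicate s l + U) := by
  intro m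
  induction m using Nat.strong_induction_on with
  | _ m ih =>
  intro s U hU
  apply hW.mass
  intro bX bY e he heq
  have hkk : k ≤ k * k := Nat.le_mul_self k
  have hm : 140 * k ≤ m := by
    by_contra hcon
    push Not at hcon
    have h3 : m * (m + 1) ≤ (140 * k) * (140 * k) := Nat.mul_le_mul hcon.le hcon
    have h4 : (140 * k) * (140 * k) = 19600 * (k * k) := by ring
    omega
  have hUsum : U.sum ≤ 2 * k * k := by
    refine (sum_le_card_mul (k := k) U ?_).trans (Nat.mul_le_mul_right k hU)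
    intro z hz
    exact (bY z (by simp [hz])).2
  by_cases hfin : 2 * (k + (s + Multiset.card U)) ≤ m + 1
  · apply hW.fin
    simpa using hfin
  by_cases hb : 2 * m + 1 ≤ s + 2 * l
  · apply hW.vrect m l s X U (by omega) hb
    exact ih (m - 2 * l) (by omega) _ _ hU
  have hs1 : 64 * k ≤ s := by omega
  obtain ⟨t, ht1, ht2⟩ := exists_mul_between (4 * h) (2 * m + 4 * k - s) (by omega)
  obtain ⟨p, hp⟩ : ∃ p, p = h * t := ⟨_, rfl⟩
  have ht1' : 2 * m + 4 * k ≤ s + 4 * p := by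
    have : 4 * h * t = 4 * p := by rw [hp]; ring
    omega
  have ht2' : s + 4 * p < 2 * m + 4 * k + 4 * h := by
    have : 4 * h * t = 4 * p := by rw [hp]; ring
    omega
  obtain ⟨q, rfl⟩ : ∃ q, m = q + 2 * p := ⟨m - 2 * p, by omega⟩
  have hq28 : 28 * k ≤ q := by omega
  have hsq : s < 2 * q + 8 * k := by omega
  have hsq2 : 2 * q + 4 * k ≤ s := by omega
  have hpk : k + 1 ≤ p := by omega
  obtain ⟨T, hT⟩ : ∃ T, T = p * (2 * q + 2 * p + 1) := ⟨_, rfl⟩
  have hdT : h ∣ T := by rw [hT, hp, mul_assoc]; exact dvd_mul_right _ _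
  have hYsum : (Multiset.replicate s l + U).sum ≤ s * k + 2 * k * k := by
    rw [Multiset.sum_add, Multiset.sum_replicate, smul_eq_mul]
    have : s * l ≤ s * k := Nat.mul_le_mul_left s hl
    omega
  have hTeq : 2 * T + q * (q + 1) = (q + 2 * p) * (q + 2 * p + 1) := by
    rw [hT]; ring
  have hsk : s * k ≤ (2 * q + 8 * k) * k := Nat.mul_le_mul_right k hsq.le
  have hhk : h * k ≤ k * k := Nat.mul_le_mul_right k hh
  have hTX : T + 2 * h * k + 0 * h ≤ X.sum := by
    have hq2 : 28 * k * q ≤ q * q := Nat.mul_le_mul_right q hq28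
    have hq3 : k * (28 * k) ≤ k * q := Nat.mul_le_mul_left k hq28
    have e1 : 28 * k * q = 28 * (k * q) := by ring
    have e2 : k * (28 * k) = 28 * (k * k) := by ring
    have e3 : (2 * q + 8 * k) * k = 2 * (k * q) + 8 * (k * k) := by ring
    have e4 : 2 * k * k = 2 * (k * k) := by ring
    have e5 : 2 * h * k = 2 * (h * k) := by ring
    have e6 : q * (q + 1) = q * q + q := by ring
    rw [← hTeq] at heq
    omega
  obtain ⟨Z, hZX, hZT, -⟩ := ss_preserve (k := k) (c := 0) h1 X (fun z hz => (bX z hz).1)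
    (fun z hz => (bX z hz).2) T hdT (by omega) hTX
  refine hW.step (q + 2 * p) q k X _ Z hZX
    (fun z hz => (bX z (Multiset.mem_of_le hZX hz)).2) (by omega) ?_ ?_ ?_
  · rw [hZT]; exact hTeq
  · rw [hZT, hT]
    calc k * (q + 2 * p) ≤ p * (q + 2 * p) := Nat.mul_le_mul_right _ (by omega)
      _ ≤ p * (2 * q + 2 * p + 1) := Nat.mul_le_mul_left _ (by omega)
  · apply hW.vrect q l s _ U (by omega) (by omega)
    apply hW.fin
    simp only [Multiset.card_add, Multiset.card_replicate]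
    omega

theorem PeelGame.main (hW : PeelGame k W) (h l L m : ℕ) (h1 : 1 ≤ h) (hh : h ≤ k)
    (l1 : 1 ≤ l) (hl : l ≤ k) (hL : 1 ≤ L) (X Y : Multiset ℕ) (hm : 2000 * (k * k * L) ≤ m)
    (hX : 2 * k ≤ X.count h) (hQP : Y.sum ≤ X.sum) (hR : m ≤ 3 * Multiset.card Y)
    (hY : Multiset.card Y ≤ l * Y.count l * L) : W m X Y := by
  classical
  apply hW.mass
  intro bX bY e he heq
  have hk1 : 1 ≤ k := h1.trans hh
  have hkk : k ≤ k * k := Nat.le_mul_self k
  have hkL : k * k ≤ k * k * L := Nat.le_mul_of_pos_right _ hL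
  have hQR : Y.sum ≤ Multiset.card Y * k := sum_le_card_mul Y (fun z hz => (bY z hz).2)
  have hRQ : Multiset.card Y ≤ Y.sum := card_le_sum_of_pos Y (fun z hz => (bY z hz).1)
  obtain ⟨Q, hQ⟩ : ∃ Q, Q = Y.sum := ⟨_, rfl⟩
  obtain ⟨P, hP⟩ : ∃ P, P = X.sum := ⟨_, rfl⟩
  obtain ⟨R, hRc⟩ : ∃ R, R = Multiset.card Y := ⟨_, rfl⟩
  obtain ⟨cn, hcn⟩ : ∃ cn, cn = Y.count l := ⟨_, rfl⟩
  rw [← hP, ← hQ] at heq
  rw [← hQ, ← hP] at hQP
  rw [← hQ, ← hRc] at hQR hRQ
  rw [← hRc] at hR hY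
  rw [← hcn] at hY
  have hlk : k * l ≤ k * k := Nat.mul_le_mul_left k hl
  have h4Q : 4 * Q ≤ m * m + m := by
    have : m * (m + 1) = m * m + m := by ring
    omega
  have hex : ∃ i, k ≤ l * i ∧ Q < (l * i) * (2 * m + 1 - 2 * (l * i)) + 2 * (k * l) := by
    obtain ⟨i1, hi1, hi2⟩ := exists_mul_between (4 * l) m (by omega)
    obtain ⟨a, ha⟩ : ∃ a, a = l * i1 := ⟨_, rfl⟩
    have hi1' : m ≤ 4 * a := by
      have : 4 * l * i1 = 4 * a := by rw [ha]; ring
      omega
    have hi2' : 4 * a < m + 4 * l := by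
      have : 4 * l * i1 = 4 * a := by rw [ha]; ring
      omega
    refine ⟨i1, ?_, ?_⟩
    · rw [← ha]; omega
    · rw [← ha]
      obtain ⟨c, hc⟩ : ∃ c, c = 2 * m + 1 - 2 * a := ⟨_, rfl⟩
      rw [← hc]
      have hc2 : 2 * m + 2 ≤ 2 * c := by omega
      have h3 : m * (2 * m + 2) ≤ (4 * a) * (2 * c) := Nat.mul_le_mul hi1' hc2
      have h4 : m * (2 * m + 2) = 2 * (m * m) + 2 * m := by ring
      have h5 : (4 * a) * (2 * c) = 8 * (a * c) := by ring
      have h6 : 1 ≤ k * l := Nat.mul_pos hk1 l1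
      omega
  obtain ⟨i0, ⟨hi0k, hi0Q⟩, hmin⟩ : ∃ i, (k ≤ l * i ∧
      Q < (l * i) * (2 * m + 1 - 2 * (l * i)) + 2 * (k * l)) ∧
      ∀ j < i, ¬ (k ≤ l * j ∧ Q < (l * j) * (2 * m + 1 - 2 * (l * j)) + 2 * (k * l)) :=
    ⟨Nat.find hex, Nat.find_spec hex, fun j hj => Nat.find_min hex hj⟩
  have hi01 : 4 * (l * i0) < m + 4 * l := by
    obtain ⟨i1, hi1, hi2⟩ := exists_mul_between (4 * l) m (by omega)
    obtain ⟨a, ha⟩ : ∃ a, a = l * i1 := ⟨_, rfl⟩
    have hi1' : m ≤ 4 * a := by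
      have : 4 * l * i1 = 4 * a := by rw [ha]; ring
      omega
    have hi2' : 4 * a < m + 4 * l := by
      have : 4 * l * i1 = 4 * a := by rw [ha]; ring
      omega
    by_contra hcon
    push Not at hcon
    have hlt : i1 < i0 := by
      by_contra hge
      push Not at hge
      have : l * i0 ≤ l * i1 := Nat.mul_le_mul_left l hge
      omega
    apply hmin i1 hlt
    refine ⟨?_, ?_⟩
    · rw [← ha]; omega
    · rw [← ha]
      obtain ⟨c, hc⟩ : ∃ c, c = 2 * m + 1 - 2 * a := ⟨_, rfl⟩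
      rw [← hc]
      have hc2 : 2 * m + 2 ≤ 2 * c := by omega
      have h3 : m * (2 * m + 2) ≤ (4 * a) * (2 * c) := Nat.mul_le_mul hi1' hc2
      have h4 : m * (2 * m + 2) = 2 * (m * m) + 2 * m := by ring
      have h5 : (4 * a) * (2 * c) = 8 * (a * c) := by ring
      have h6 : 1 ≤ k * l := Nat.mul_pos hk1 l1
      omega
  have hi0pos : 1 ≤ i0 := by
    rcases Nat.eq_zero_or_pos i0 with h0 | h0
    · rw [h0] at hi0k; omega
    · exact h0
  obtain ⟨a, ha⟩ : ∃ a, a = l * i0 := ⟨_, rfl⟩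
  obtain ⟨c, hc⟩ : ∃ c, c = 2 * m + 1 - 2 * a := ⟨_, rfl⟩
  rw [← ha] at hi0k hi0Q hi01
  rw [← hc] at hi0Q
  have hac : 2 * a + c = 2 * m + 1 := by omega
  have hapos : 1 ≤ a := hk1.trans hi0k
  have hstep : a < 2 * k ∨ ∃ b, a = b + l ∧ k ≤ b ∧
      b * (2 * m + 1 - 2 * b) + 2 * (k * l) ≤ Q := by
    by_cases hcase : a < 2 * k
    · exact Or.inl hcase
    · right
      refine ⟨l * (i0 - 1), ?_, ?_, ?_⟩
      · rw [ha]
        obtain ⟨j, rfl⟩ : ∃ j, i0 = j + 1 := ⟨i0 - 1, by omega⟩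
        rw [Nat.add_sub_cancel]; ring
      · have : a = l * (i0 - 1) + l := by
          rw [ha]
          obtain ⟨j, rfl⟩ : ∃ j, i0 = j + 1 := ⟨i0 - 1, by omega⟩
          rw [Nat.add_sub_cancel]; ring
        omega
      · have h2 : a = l * (i0 - 1) + l := by
          rw [ha]
          obtain ⟨j, rfl⟩ : ∃ j, i0 = j + 1 := ⟨i0 - 1, by omega⟩
          rw [Nat.add_sub_cancel]; ring
        have h3 := hmin (i0 - 1) (by omega)
        by_contra hcon
        push Not at hcon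
        exact h3 ⟨by omega, hcon⟩
  obtain ⟨t, ht1, ht2⟩ := exists_mul_between (4 * a * h)
    (a * c + 2 * (k * l) - Q + 4 * (a * k))
    (Nat.mul_pos (Nat.mul_pos (by norm_num) hapos) h1)
  obtain ⟨p, hp⟩ : ∃ p, p = h * t := ⟨_, rfl⟩
  have e4 : 4 * a * h * t = 4 * (a * p) := by rw [hp]; ring
  have e5 : 4 * a * h = 4 * (a * h) := by ring
  have hah : a * h ≤ a * k := Nat.mul_le_mul_left a hh
  have hA : a * c + 2 * (k * l) + 4 * (a * k) ≤ 4 * (a * p) + Q := by omega
  have hB : 4 * (a * p) + Q < a * c + 2 * (k * l) + 8 * (a * k) := by omega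
  have hpk : k < p := by
    have : 4 * (a * k) < 4 * (a * p) := by omega
    have h2 : a * k < a * p := by omega
    exact Nat.lt_of_mul_lt_mul_left h2
  have hE : 2 * (k * l) + 8 * (a * k) ≤ l * cn := by
    have hEL : (2 * (k * l) + 8 * (a * k)) * L ≤ R := by
      rcases hstep with hs | ⟨b, hb1, hb2, hb3⟩
      · have h2 : a * k ≤ 2 * k * k := Nat.mul_le_mul_right k hs.le
        have h3 : 2 * k * k = 2 * (k * k) := by ring
        have h4 : (2 * (k * l) + 8 * (a * k)) * L ≤ (18 * (k * k)) * L :=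
          Nat.mul_le_mul_right L (by omega)
        have h5 : (18 * (k * k)) * L = 18 * (k * k * L) := by ring
        omega
      · have h2 : b * m ≤ b * (2 * m + 1 - 2 * b) := Nat.mul_le_mul_left b (by omega)
        have h3 : b * m ≤ R * k := by omega
        have h4 : b * (2000 * (k * k * L)) ≤ b * m := Nat.mul_le_mul_left b hm
        have h5 : b * (2000 * (k * k * L)) = (2000 * (b * k * L)) * k := by ring
        have h6 : 2000 * (b * k * L) ≤ R := by
          have : (2000 * (b * k * L)) * k ≤ R * k := by omega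
          exact Nat.le_of_mul_le_mul_right this hk1
        have h7 : (2 * (k * l) + 8 * (a * k)) * L =
            10 * (k * l * L) + 8 * (b * k * L) := by rw [hb1]; ring
        have h8 : k * l * L ≤ k * k * L := Nat.mul_le_mul_right L hlk
        omega
    have : (2 * (k * l) + 8 * (a * k)) * L ≤ (l * cn) * L := hEL.trans hY
    exact Nat.le_of_mul_le_mul_right this hL
  obtain ⟨q, hq, hqq⟩ : ∃ q, m = q + 2 * p + 2 * a ∧
      16 * (k * a) + 20006 * (k * k) ≤ q * q := by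
    rcases hstep with hs | ⟨b, hb1, hb2, hb3⟩
    · have hak : a * k ≤ 2 * k * k := Nat.mul_le_mul_right k hs.le
      have h3 : 2 * k * k = 2 * (k * k) := by ring
      have hq142 : 142 * k + 2 * p + 2 * a ≤ m := by
        by_contra hcon
        push Not at hcon
        have hc3 : c ≤ 284 * k + 4 * p + 2 * a := by omega
        have h4 : a * c ≤ a * (284 * k + 4 * p + 2 * a) := Nat.mul_le_mul_left a hc3
        have h5 : a * (284 * k + 4 * p + 2 * a) = 284 * (a * k) + 4 * (a * p) + 2 * (a * a) := by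
          ring
        have h6 : a * a ≤ (2 * k) * (2 * k) := Nat.mul_le_mul hs.le hs.le
        have h7 : (2 * k) * (2 * k) = 4 * (k * k) := by ring
        omega
      refine ⟨m - 2 * p - 2 * a, by omega, ?_⟩
      obtain ⟨q, hq⟩ : ∃ q, q = m - 2 * p - 2 * a := ⟨_, rfl⟩
      rw [← hq]
      have h8 : 142 * k ≤ q := by omega
      have h9 : (142 * k) * (142 * k) ≤ q * q := Nat.mul_le_mul h8 h8
      have h10 : (142 * k) * (142 * k) = 20164 * (k * k) := by ring
      have h11 : k * a = a * k := mul_comm _ _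
      omega
    · have h2 : a * c ≤ (2 * b) * (2 * m + 1 - 2 * b) :=
        Nat.mul_le_mul (by omega) (by omega)
      have h3 : (2 * b) * (2 * m + 1 - 2 * b) = 2 * (b * (2 * m + 1 - 2 * b)) := by ring
      have h4 : 8 * p < c + 16 * k := by
        have : a * (8 * p) < a * (c + 16 * k) := by
          have e1 : a * (8 * p) = 8 * (a * p) := by ring
          have e2 : a * (c + 16 * k) = a * c + 16 * (a * k) := by ring
          rw [e1, e2]
          omega
        exact Nat.lt_of_mul_lt_mul_left this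
      refine ⟨m - 2 * p - 2 * a, by omega, ?_⟩
      obtain ⟨q, hq⟩ : ∃ q, q = m - 2 * p - 2 * a := ⟨_, rfl⟩
      rw [← hq]
      have h5 : m ≤ 9 * q := by omega
      have h6 : m * m ≤ (9 * q) * (9 * q) := Nat.mul_le_mul h5 h5
      have h7 : (9 * q) * (9 * q) = 81 * (q * q) := by ring
      have h8 : 2000 * k ≤ m := by omega
      have h9 : (2000 * k) * m ≤ m * m := Nat.mul_le_mul_right m h8
      have h10 : (2000 * k) * m = 2000 * (k * m) := by ring
      have h11 : k * (2000 * k) ≤ k * m := Nat.mul_le_mul_left k h8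
      have h12 : k * (2000 * k) = 2000 * (k * k) := by ring
      have h13 : k * (4 * a) ≤ k * (m + 4 * k) := Nat.mul_le_mul_left k (by omega)
      have h14 : k * (4 * a) = 4 * (k * a) := by ring
      have h15 : k * (m + 4 * k) = k * m + 4 * (k * k) := by ring
      omega
  obtain ⟨T1, hT1⟩ : ∃ T1, T1 = a * (2 * q + 2 * a + 1) := ⟨_, rfl⟩
  obtain ⟨T', hT'⟩ : ∃ T', T' = p * (2 * q + 4 * a + 2 * p + 1) := ⟨_, rfl⟩
  have hc4 : a * c = T1 + 4 * (a * p) := by
    have : c = 2 * q + 2 * a + 1 + 4 * p := by omega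
    rw [this, hT1]; ring
  have hT1l : l ∣ T1 := by rw [hT1, ha, mul_assoc]; exact dvd_mul_right _ _
  have hT'h : h ∣ T' := by rw [hT', hp, mul_assoc]; exact dvd_mul_right _ _
  have hT'eq : 2 * T' + (q + 2 * a) * (q + 2 * a + 1) = m * (m + 1) := by
    rw [hT', hq]; ring
  have hT1eq : 2 * T1 + q * (q + 1) = (q + 2 * a) * (q + 2 * a + 1) := by
    rw [hT1]; ring
  have hqq1 : q * (q + 1) = q * q + q := by ring
  have hka : k * a = a * k := mul_comm _ _
  have hPT : T' + 10000 * (k * k) ≤ P := by omega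
  have hhk : h * k ≤ k * k := Nat.mul_le_mul_right k hh
  have hhk2 : k * h ≤ k * k := Nat.mul_le_mul_left k hh
  obtain ⟨Z, hZX, hZT, hZc⟩ := ss_preserve (k := k) (c := k) h1 X (fun z hz => (bX z hz).1)
    (fun z hz => (bX z hz).2) T' hT'h (by omega) (by
      rw [← hP]
      have : 2 * h * k = 2 * (h * k) := by ring
      omega)
  refine hW.step m (q + 2 * a) k X Y Z hZX
    (fun z hz => (bX z (Multiset.mem_of_le hZX hz)).2) (by omega) ?_ ?_ ?_
  · rw [hZT]; exact hT'eq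
  · rw [hZT, hT']
    calc k * m ≤ p * m := Nat.mul_le_mul_right _ hpk.le
      _ ≤ p * (2 * q + 4 * a + 2 * p + 1) := Nat.mul_le_mul_left _ (by omega)
  obtain ⟨Z2, hZ2, hZ2T, s, U, hsU, hUc⟩ := ss_leave (k := k) l1 Y (fun z hz => (bY z hz).1)
    (fun z hz => (bY z hz).2) T1 hT1l (by rw [← hQ, ← hcn]; omega) (by
      rw [← hQ]
      have : 2 * l * k = 2 * (k * l) := by ring
      omega)
  refine hW.vstep (q + 2 * a) q k _ Y Z2 hZ2
    (fun z hz => (bY z (Multiset.mem_of_le hZ2 hz)).2) (by omega) ?_ ?_ ?_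
  · rw [hZ2T]; exact hT1eq
  · rw [hZ2T, hT1]
    exact Nat.mul_le_mul hi0k (by omega)
  rw [hsU]
  apply hW.rect h l h1 hh l1 hl _ hZc
  · have := sum_tsub_of_le hZX
    omega
  · omega

theorem harmonic_bound (j : ℕ) : ∀ n : ℕ, n < 2 ^ j → ∑ i ∈ Finset.Icc 1 n, (1 / (i : ℚ)) ≤ j := by
  induction j with
  | zero => intro n hn; simp at hn; simp [hn]
  | succ j ih =>
    intro n hn
    by_cases hn2 : n < 2 ^ j
    · refine (ih n hn2).trans ?_
      push_cast; linarith
    · push Not at hn2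
      have hsplit : Finset.Icc 1 n = Finset.Icc 1 (2 ^ j - 1) ∪ Finset.Icc (2 ^ j) n := by
        ext x
        simp only [Finset.mem_Icc, Finset.mem_union]
        have : 1 ≤ 2 ^ j := Nat.one_le_two_pow
        omega
      have hdisj : Disjoint (Finset.Icc 1 (2 ^ j - 1)) (Finset.Icc (2 ^ j) n) := by
        rw [Finset.disjoint_left]
        intro x hx hx2
        simp only [Finset.mem_Icc] at hx hx2
        have : 1 ≤ 2 ^ j := Nat.one_le_two_pow
        omega
      rw [hsplit, Finset.sum_union hdisj]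
      have h1 := ih (2 ^ j - 1) (by have : 1 ≤ 2 ^ j := Nat.one_le_two_pow; omega)
      have h2 : ∑ i ∈ Finset.Icc (2 ^ j) n, (1 / (i : ℚ)) ≤ 1 := by
        calc ∑ i ∈ Finset.Icc (2 ^ j) n, (1 / (i : ℚ))
            ≤ ∑ _i ∈ Finset.Icc (2 ^ j) n, (1 / ((2 : ℚ) ^ j)) := by
              apply Finset.sum_le_sum
              intro i hi
              simp only [Finset.mem_Icc] at hi
              have : ((2 : ℚ) ^ j) ≤ i := by exact_mod_cast hi.1
              exact one_div_le_one_div_of_le (by positivity) this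
          _ = (n + 1 - 2 ^ j : ℕ) * (1 / ((2 : ℚ) ^ j)) := by
              rw [Finset.sum_const, Nat.card_Icc, nsmul_eq_mul]
          _ ≤ (2 ^ j : ℕ) * (1 / ((2 : ℚ) ^ j)) := by
              gcongr
              rw [pow_succ] at hn
              omega
          _ = 1 := by push_cast; field_simp
      push_cast
      linarith

theorem sum_count_Icc {k : ℕ} (Y : Multiset ℕ) (bY : ∀ z ∈ Y, 1 ≤ z ∧ z ≤ k) :
    ∑ l ∈ Finset.Icc 1 k, Y.count l = Multiset.card Y := by
  classical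
  rw [← Multiset.toFinset_sum_count_eq Y]
  symm
  apply Finset.sum_subset
  · intro x hx
    rw [Finset.mem_Icc]
    exact bY x (by simpa using hx)
  · intro x _ hx
    simpa using hx

theorem exists_weighted {k : ℕ} (hk : 1 ≤ k) (Y : Multiset ℕ) (bY : ∀ z ∈ Y, 1 ≤ z ∧ z ≤ k) :
    ∃ l, 1 ≤ l ∧ l ≤ k ∧ Multiset.card Y ≤ l * Y.count l * (Nat.log 2 k + 1) := by
  by_contra hcon
  push Not at hcon
  have hsum := sum_count_Icc Y bY
  have hR : (0 : ℚ) ≤ (Multiset.card Y : ℚ) := by positivity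
  have hLpos : (0 : ℚ) < ((Nat.log 2 k + 1 : ℕ) : ℚ) := by positivity
  have h1 : ∀ l ∈ Finset.Icc 1 k, (Y.count l : ℚ) * ((Nat.log 2 k + 1 : ℕ) : ℚ) <
      (Multiset.card Y : ℚ) * (1 / (l : ℚ)) := by
    intro l hl
    rw [Finset.mem_Icc] at hl
    have h2 := hcon l hl.1 hl.2
    have h3 : ((l * Y.count l * (Nat.log 2 k + 1) : ℕ) : ℚ) < (Multiset.card Y : ℚ) := by
      exact_mod_cast h2
    have hlpos : (0 : ℚ) < l := by exact_mod_cast hl.1
    rw [mul_one_div, lt_div_iff₀ hlpos]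
    calc (Y.count l : ℚ) * ((Nat.log 2 k + 1 : ℕ) : ℚ) * l
        = ((l * Y.count l * (Nat.log 2 k + 1) : ℕ) : ℚ) := by push_cast; ring
      _ < _ := h3
  have h2 : ∑ l ∈ Finset.Icc 1 k, (Y.count l : ℚ) * ((Nat.log 2 k + 1 : ℕ) : ℚ) <
      ∑ l ∈ Finset.Icc 1 k, (Multiset.card Y : ℚ) * (1 / (l : ℚ)) := by
    apply Finset.sum_lt_sum_of_nonempty
    · exact ⟨1, by simp [hk]⟩
    · exact h1
  rw [← Finset.sum_mul, ← Finset.mul_sum] at h2
  have h3 := harmonic_bound (Nat.log 2 k + 1) k (Nat.lt_pow_succ_log_self (by norm_num) k)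
  have h4 : (∑ l ∈ Finset.Icc 1 k, (Y.count l : ℚ)) = (Multiset.card Y : ℚ) := by
    rw [← hsum]; push_cast; rfl
  rw [h4] at h2
  have h5 : (Multiset.card Y : ℚ) * ∑ i ∈ Finset.Icc 1 k, (1 / (i : ℚ)) ≤
      (Multiset.card Y : ℚ) * ((Nat.log 2 k + 1 : ℕ) : ℚ) :=
    mul_le_mul_of_nonneg_left h3 hR
  linarith

theorem exists_many {k : ℕ} (hk : 1 ≤ k) (X : Multiset ℕ) (bX : ∀ z ∈ X, 1 ≤ z ∧ z ≤ k)
    (hX : 2 * (k * k * k) ≤ X.sum) :
    ∃ h, 1 ≤ h ∧ h ≤ k ∧ 2 * k ≤ X.count h := by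
  by_contra hcon
  push Not at hcon
  have hsum := sum_count_Icc X bX
  have h1 : Multiset.card X < k * (2 * k) := by
    rw [← hsum]
    calc ∑ l ∈ Finset.Icc 1 k, X.count l < ∑ _l ∈ Finset.Icc 1 k, 2 * k := by
          apply Finset.sum_lt_sum_of_nonempty
          · exact ⟨1, by simp [hk]⟩
          · intro l hl
            rw [Finset.mem_Icc] at hl
            exact hcon l hl.1 hl.2
      _ = k * (2 * k) := by simp
  have h2 : X.sum ≤ Multiset.card X * k := sum_le_card_mul X (fun z hz => (bX z hz).2)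
  have h3 : Multiset.card X * k < (k * (2 * k)) * k := Nat.mul_lt_mul_of_pos_right h1 hk
  have h4 : (k * (2 * k)) * k = 2 * (k * k * k) := by ring
  omega

theorem PeelGame.all (hW : PeelGame k W) (hk : 1 ≤ k) (m : ℕ)
    (hm : 2000 * (k * k * (Nat.log 2 k + 1)) ≤ m) (X Y : Multiset ℕ) : W m X Y := by
  have key : ∀ X Y : Multiset ℕ, Y.sum ≤ X.sum → W m X Y := by
    intro X Y hQP
    apply hW.mass
    intro bX bY e he heq
    by_cases hfin : 2 * (k + Multiset.card Y) ≤ m + 1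
    · exact hW.fin _ _ _ hfin
    have hkk : k ≤ k * k := Nat.le_mul_self k
    have hkL : k * k ≤ k * k * (Nat.log 2 k + 1) := Nat.le_mul_of_pos_right _ (by omega)
    obtain ⟨l, l1, hl, hY⟩ := exists_weighted hk Y bY
    obtain ⟨h, h1, hh, hX⟩ : ∃ h, 1 ≤ h ∧ h ≤ k ∧ 2 * k ≤ X.count h := by
      apply exists_many hk X bX
      have h2 : (2000 * (k * k)) * (2000 * (k * k)) ≤ m * m :=
        Nat.mul_le_mul (by omega) (by omega)
      have h3 : (2000 * (k * k)) * (2000 * (k * k)) = 4000000 * (k * (k * k * k)) := by ring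
      have h4 : k * k * k ≤ k * (k * k * k) := Nat.le_mul_of_pos_left _ hk
      have h5 : k * k ≤ k * k * k := Nat.le_mul_of_pos_right _ hk
      have h6 : m * (m + 1) = m * m + m := by ring
      omega
    exact hW.main h l (Nat.log 2 k + 1) m h1 hh l1 hl (by omega) X Y hm hX hQP (by omega) hY
  rcases le_total Y.sum X.sum with h | h
  · exact key X Y h
  · exact hW.swap _ _ _ (key Y X h)

end Vale.Agent.P197
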