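import Vale.Agent.P197.PeelBase
import Vale.Agent.P197.PeelGame

namespace Vale.Agent.P197

open Finset

def ofFun (f : ℕ → ℕ) (N : ℕ) (hf : Antitone f) (hN : ∀ i, N ≤ i → f i = 0) : YoungDiagram where
  cells := ((range N) ×ˢ (range (f 0))).filter fun c => c.2 < f c.1
  isLowerSet := by
    intro a b hab ha
    simp only [Finset.coe_filter, Finset.mem_product, Finset.mem_range, Set.mem_ofPred_eq] at ha ⊢
    have h1 := hab.1
    have h2 := hab.2
    have h3 := hf h1
    have h4 : f a.1 ≤ f b.1 := hf h1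
    have h5 : f b.1 ≤ f 0 := hf (Nat.zero_le _)
    refine ⟨⟨by omega, by omega⟩, by omega⟩

theorem rowLen_ofFun (f : ℕ → ℕ) (N : ℕ) (hf : Antitone f) (hN : ∀ i, N ≤ i → f i = 0) (i : ℕ) :
    (ofFun f N hf hN).rowLen i = f i := by
  apply eq_of_forall_lt_iff
  intro j
  rw [← YoungDiagram.mem_iff_lt_rowLen, ← YoungDiagram.mem_cells]
  simp only [ofFun, Finset.mem_filter, Finset.mem_product, Finset.mem_range]
  constructor
  · rintro ⟨_, h⟩; exact h
  · intro h
    have h5 : f i ≤ f 0 := hf (Nat.zero_le _)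
    refine ⟨⟨?_, by omega⟩, h⟩
    by_contra hcon
    push Not at hcon
    have := hN i hcon
    omega

theorem card_eq_sum_rowLen_of (ν : YoungDiagram) (N : ℕ) (hN : ∀ i, N ≤ i → ν.rowLen i = 0) :
    ν.card = ∑ i ∈ range N, ν.rowLen i := by
  have h : ∀ c ∈ ν.cells, c.1 ∈ range N := by
    intro c hc
    rw [Finset.mem_range]
    by_contra hcon
    push Not at hcon
    have h1 : c.2 < ν.rowLen c.1 := by
      rw [← YoungDiagram.mem_iff_lt_rowLen]; exact hc
    have h2 := hN c.1 hcon
    omega
  have := Finset.card_eq_sum_card_fiberwise h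
  rw [YoungDiagram.card, this]
  apply Finset.sum_congr rfl
  intro i _
  rw [YoungDiagram.rowLen_eq_card]
  rfl

def bb (i : ℕ) (Z : Multiset ℕ) : ℕ := Multiset.card (Z.filter (fun z => i < z))

theorem bb_succ (i : ℕ) (Z : Multiset ℕ) : bb i Z = bb (i + 1) Z + Z.count (i + 1) := by
  induction Z using Multiset.induction_on with
  | empty => simp [bb]
  | cons a Z ih =>
    unfold bb at ih ⊢
    rw [Multiset.filter_cons, Multiset.filter_cons, Multiset.count_cons]
    by_cases h1 : i + 1 < a
    · have h2 : i < a := by omega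
      have h3 : ¬ (i + 1 = a) := by omega
      simp only [h1, h2, h3, if_true, if_false, Multiset.card_add, Multiset.card_singleton]
      omega
    · by_cases h3 : i + 1 = a
      · have h2 : i < a := by omega
        simp only [h2, h3, if_true, if_false, Multiset.card_add, Multiset.card_singleton,
          Multiset.card_zero, lt_irrefl]
        rw [h3] at ih
        omega
      · have h2 : ¬ (i < a) := by omega
        simp only [h1, h2, h3, if_false, Multiset.card_add, Multiset.card_zero]
        omega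

theorem bb_eq_zero {i K : ℕ} {Z : Multiset ℕ} (hZ : ∀ z ∈ Z, z ≤ K) (hi : K ≤ i) : bb i Z = 0 := by
  unfold bb
  rw [Multiset.card_eq_zero, Multiset.filter_eq_nil]
  intro z hz
  have := hZ z hz
  omega

theorem bb_antitone (Z : Multiset ℕ) : Antitone (fun i => bb i Z) :=
  antitone_nat_of_succ_le (fun i => by rw [bb_succ i Z]; omega)

theorem sum_bb {K : ℕ} (Z : Multiset ℕ) (hZ : ∀ z ∈ Z, z ≤ K) :
    ∑ i ∈ range K, bb i Z = Z.sum := by
  induction Z using Multiset.induction_on with
  | empty => simp [bb]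
  | cons a Z ih =>
    have h1 : ∀ i, bb i (a ::ₘ Z) = (if i < a then 1 else 0) + bb i Z := by
      intro i
      unfold bb
      rw [Multiset.filter_cons, Multiset.card_add]
      split_ifs <;> simp
    simp_rw [h1]
    rw [Finset.sum_add_distrib, ih (fun z hz => hZ z (Multiset.mem_cons_of_mem hz)),
      Multiset.sum_cons]
    congr 1
    have ha := hZ a (Multiset.mem_cons_self a Z)
    rw [← Finset.card_filter]
    have : (range K).filter (fun i => i < a) = range a := by
      ext x; simp only [Finset.mem_filter, Finset.mem_range]; omega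
    rw [this, Finset.card_range]

theorem bb_zero_eq (Z : Multiset ℕ) (hZ : ∀ z ∈ Z, 1 ≤ z) : bb 0 Z = Multiset.card Z := by
  unfold bb
  congr 1
  rw [Multiset.filter_eq_self]
  intro z hz
  exact hZ z hz

theorem bb_sub {Z X : Multiset ℕ} (h : Z ≤ X) (i : ℕ) : bb i (X - Z) + bb i Z = bb i X := by
  unfold bb
  rw [← Multiset.card_add, ← Multiset.filter_add, tsub_add_cancel_of_le h]

theorem bb_ext {S S' : Multiset ℕ} (hS : ∀ z ∈ S, 1 ≤ z) (hS' : ∀ z ∈ S', 1 ≤ z)
    (h : ∀ i, bb i S = bb i S') : S = S' := by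
  rw [Multiset.ext]
  intro a
  rcases Nat.eq_zero_or_pos a with rfl | ha
  · rw [Multiset.count_eq_zero_of_notMem, Multiset.count_eq_zero_of_notMem]
    · intro h0; have := hS' 0 h0; omega
    · intro h0; have := hS 0 h0; omega
  · obtain ⟨i, rfl⟩ : ∃ i, a = i + 1 := ⟨a - 1, by omega⟩
    have h1 := bb_succ i S
    have h2 := bb_succ i S'
    have h3 := h i
    have h4 := h (i + 1)
    omega

def xs (k : ℕ) (ν : YoungDiagram) : Multiset ℕ :=
  ∑ t ∈ range k, Multiset.replicate ((ν.rowLen t - k) - (ν.rowLen (t + 1) - k)) (t + 1)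

theorem mem_xs {k : ℕ} {ν : YoungDiagram} : ∀ z ∈ xs k ν, 1 ≤ z ∧ z ≤ k := by
  intro z hz
  unfold xs at hz
  rw [Multiset.mem_sum] at hz
  obtain ⟨t, ht, hz⟩ := hz
  have := Multiset.eq_of_mem_replicate hz
  rw [Finset.mem_range] at ht
  omega

theorem count_xs {k : ℕ} {ν : YoungDiagram} {t : ℕ} (ht : t < k) :
    (xs k ν).count (t + 1) = (ν.rowLen t - k) - (ν.rowLen (t + 1) - k) := by
  unfold xs
  rw [Multiset.count_sum', Finset.sum_eq_single t]
  · rw [Multiset.count_replicate_self]
  · intro b _ hb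
    rw [Multiset.count_replicate]
    rw [if_neg]
    omega
  · intro h
    exact absurd (Finset.mem_range.mpr ht) h

theorem rowLen_le_of_notMem {k : ℕ} {ν : YoungDiagram} (hd : (k, k) ∉ ν) : ν.rowLen k ≤ k := by
  rw [YoungDiagram.mem_iff_lt_rowLen] at hd
  omega

theorem bb_xs {k : ℕ} {ν : YoungDiagram} (hd : (k, k) ∉ ν) (i : ℕ) (hi : i ≤ k) :
    bb i (xs k ν) = ν.rowLen i - k := by
  obtain ⟨d, hd'⟩ : ∃ d, k = i + d := ⟨k - i, by omega⟩
  induction d generalizing i with
  | zero =>
    have h1 : bb i (xs k ν) = 0 := bb_eq_zero (fun z hz => (mem_xs z hz).2) (by omega)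
    have h2 := rowLen_le_of_notMem hd
    have h3 : i = k := by omega
    rw [h1, h3]; omega
  | succ d ih =>
    have h1 := ih (i + 1) (by omega) (by omega)
    rw [bb_succ, h1, count_xs (by omega)]
    have := ν.rowLen_anti i (i + 1) (by omega)
    omega

theorem diag_hstep {k : ℕ} {ν : YoungDiagram} (hd : (k, k) ∉ ν) {Z : Multiset ℕ}
    (hZ : Z ≤ xs k ν) : ∃ α β : YoungDiagram, (k, k) ∉ α ∧ xs k α = xs k ν - Z ∧
      xs k α.transpose = xs k ν.transpose ∧ (∀ i, ν.rowLen i = α.rowLen i + β.rowLen i) ∧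
      (∀ i, β.rowLen i = bb i Z) ∧ α.card + Z.sum = ν.card ∧ β.card = Z.sum := by
  have hZ1 : ∀ z ∈ Z, 1 ≤ z ∧ z ≤ k := fun z hz => mem_xs z (Multiset.mem_of_le hZ hz)
  have hbk : ∀ i, k ≤ i → bb i Z = 0 := fun i hi => bb_eq_zero (fun z hz => (hZ1 z hz).2) hi
  have hb1 : ∀ i, bb i Z ≤ ν.rowLen i - k := by
    intro i
    rcases le_total i k with h | h
    · have h1 := bb_sub hZ i
      rw [bb_xs hd i h] at h1
      omega
    · rw [hbk i h]; omega
  have hrk := rowLen_le_of_notMem hd
  have hanti : Antitone (fun i => ν.rowLen i - bb i Z) := by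
    apply antitone_nat_of_succ_le
    intro i
    have h1 := ν.rowLen_anti i (i + 1) (by omega)
    have h2 := hb1 i
    have h3 := hb1 (i + 1)
    have h4 := bb_succ i Z
    show ν.rowLen (i + 1) - bb (i + 1) Z ≤ ν.rowLen i - bb i Z
    rcases lt_or_ge i k with h | h
    · have h5 := Multiset.count_le_of_le (i + 1) hZ
      rw [count_xs h] at h5
      omega
    · have h6 := hbk i h
      have h7 := hbk (i + 1) (by omega)
      omega
  have hN0 : ∀ i, ν.colLen 0 ≤ i → ν.rowLen i = 0 := by
    intro i hi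
    by_contra hcon
    have : (i, 0) ∈ ν := by
      rw [YoungDiagram.mem_iff_lt_rowLen]; omega
    rw [YoungDiagram.mem_iff_lt_colLen] at this
    omega
  let α := ofFun (fun i => ν.rowLen i - bb i Z) (ν.colLen 0) hanti
    (fun i hi => by simp [hN0 i hi])
  let β := ofFun (fun i => bb i Z) (ν.colLen 0) (bb_antitone Z)
    (fun i hi => by have h1 := hb1 i; have h2 := hN0 i hi; omega)
  have hα : ∀ i, α.rowLen i = ν.rowLen i - bb i Z := fun i => rowLen_ofFun _ _ _ _ i
  have hβ : ∀ i, β.rowLen i = bb i Z := fun i => rowLen_ofFun _ _ _ _ i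
  have hαk : (k, k) ∉ α := by
    rw [YoungDiagram.mem_iff_lt_rowLen, hα]
    omega
  have hcardα : α.card = ∑ i ∈ range (ν.colLen 0), α.rowLen i :=
    card_eq_sum_rowLen_of α _ (fun i hi => by rw [hα, hN0 i hi]; simp)
  have hcardβ : β.card = ∑ i ∈ range (max k (ν.colLen 0)), β.rowLen i :=
    card_eq_sum_rowLen_of β _ (fun i hi => by
      rw [hβ]; exact hbk i (by have := le_max_left k (ν.colLen 0); omega))
  have hcardβ2 : β.card = ∑ i ∈ range (ν.colLen 0), β.rowLen i :=
    card_eq_sum_rowLen_of β _ (fun i hi => by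
      rw [hβ]; have h1 := hb1 i; have h2 := hN0 i hi; omega)
  have hβsum : β.card = Z.sum := by
    rw [hcardβ]
    simp_rw [hβ]
    exact sum_bb Z (fun z hz => (hZ1 z hz).2.trans (le_max_left _ _))
  have hcardν : ν.card = ∑ i ∈ range (ν.colLen 0), ν.rowLen i := card_eq_sum_rowLen_of ν _ hN0
  have hrow : ∀ i, ν.rowLen i = α.rowLen i + β.rowLen i := by
    intro i
    rw [hα, hβ]
    have := hb1 i
    omega
  refine ⟨α, β, hαk, ?_, ?_, hrow, hβ, ?_, hβsum⟩
  · apply bb_ext (fun z hz => (mem_xs z hz).1)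
      (fun z hz => (mem_xs z (Multiset.mem_of_le tsub_le_self hz)).1)
    intro i
    have h1 := bb_sub hZ i
    rcases le_total i k with h | h
    · rw [bb_xs hαk i h, hα]
      rw [bb_xs hd i h] at h1
      omega
    · rw [bb_eq_zero (fun z hz => (mem_xs z hz).2) h]
      rw [bb_eq_zero (Z := xs k ν) (fun z hz => (mem_xs z hz).2) h] at h1
      omega
  · have hdt : (k, k) ∉ ν.transpose := by
      rw [YoungDiagram.mem_transpose]; exact hd
    have hdαt : (k, k) ∉ α.transpose := by
      rw [YoungDiagram.mem_transpose]; exact hαk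
    have hcol : ∀ c, c < k → α.colLen c = ν.colLen c := by
      intro c hc
      apply eq_of_forall_lt_iff
      intro i
      rw [← YoungDiagram.mem_iff_lt_colLen, ← YoungDiagram.mem_iff_lt_colLen,
        YoungDiagram.mem_iff_lt_rowLen, YoungDiagram.mem_iff_lt_rowLen, hα]
      have := hb1 i
      omega
    apply bb_ext (fun z hz => (mem_xs z hz).1) (fun z hz => (mem_xs z hz).1)
    intro i
    rcases lt_or_ge i k with h | h
    · rw [bb_xs hdαt i h.le, bb_xs hdt i h.le, YoungDiagram.rowLen_transpose,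
        YoungDiagram.rowLen_transpose, hcol i h]
    · rw [bb_eq_zero (fun z hz => (mem_xs z hz).2) h, bb_eq_zero (fun z hz => (mem_xs z hz).2) h]
  · rw [← hβsum, hcardα, hcardβ2, hcardν, ← Finset.sum_add_distrib]
    exact Finset.sum_congr rfl (fun i _ => (hrow i).symm)

theorem avg_lemma (f : ℕ → ℕ) (hf : Antitone f) (K m S : ℕ) (hK : ∀ i, K ≤ i → f i = 0)
    (hS : ∑ i ∈ range K, f i = S) (hKm : K * m ≤ S) (r : ℕ) :
    (r ≤ K → r * m ≤ ∑ i ∈ range r, f i) ∧ (K ≤ r → ∑ i ∈ range r, f i = S) := by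
  constructor
  · intro hr
    by_contra hcon
    push Not at hcon
    have h1 : ∑ i ∈ range r, f i < ∑ _i ∈ range r, m := by
      simpa using hcon
    obtain ⟨i, hi, him⟩ := Finset.exists_lt_of_sum_lt h1
    rw [Finset.mem_range] at hi
    have h2 : ∑ j ∈ Ico r K, f j ≤ ∑ _j ∈ Ico r K, m := by
      apply Finset.sum_le_sum
      intro j hj
      rw [Finset.mem_Ico] at hj
      exact (hf (show i ≤ j by omega)).trans him.le
    have h3 : ∑ i ∈ range r, f i + ∑ j ∈ Ico r K, f j = S := by
      rw [← hS]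
      exact Finset.sum_range_add_sum_Ico f hr
    have h4 : ∑ _j ∈ Ico r K, m = (K - r) * m := by simp
    have h5 : r * m + (K - r) * m = K * m := by
      rw [← Nat.add_mul]; congr 1; omega
    omega
  · intro hr
    rw [← hS]
    symm
    apply Finset.sum_subset
    · intro x hx
      rw [Finset.mem_range] at hx ⊢
      omega
    · intro x _ hx
      apply hK
      rw [Finset.mem_range] at hx
      omega

theorem two_sum_sub (m r : ℕ) :
    2 * ∑ i ∈ range r, (m - i) + (m - r) * (m - r + 1) = m * (m + 1) := by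
  induction r with
  | zero => simp
  | succ r ih =>
    rw [Finset.sum_range_succ]
    rcases lt_or_ge r m with h | h
    · obtain ⟨u, hu⟩ : ∃ u, m - r = u + 1 := ⟨m - r - 1, by omega⟩
      have hu2 : m - (r + 1) = u := by omega
      rw [hu] at ih
      rw [hu, hu2]
      rw [← ih]
      ring
    · have h1 : m - r = 0 := by omega
      have h2 : m - (r + 1) = 0 := by omega
      rw [h1] at ih
      rw [h1, h2]
      simpa using ih

theorem sum_sub_le (m r : ℕ) : ∑ i ∈ range r, (m - i) ≤ r * m := by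
  calc ∑ i ∈ range r, (m - i) ≤ ∑ _i ∈ range r, m := Finset.sum_le_sum (fun i _ => by omega)
    _ = r * m := by simp

theorem sum_ite_le (m j r : ℕ) :
    ∑ i ∈ range r, (if i < j then m - i else 0) ≤ ∑ i ∈ range j, (m - i) := by
  rw [← Finset.sum_filter]
  apply Finset.sum_le_sum_of_subset
  intro x hx
  simp only [Finset.mem_filter, Finset.mem_range] at hx ⊢
  exact hx.2

theorem diag_mass {k : ℕ} {ν : YoungDiagram} (hd : (k, k) ∉ ν) :
    ∃ e, e ≤ k * k ∧ e + (xs k ν).sum + (xs k ν.transpose).sum = ν.card := by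
  have hdt : (k, k) ∉ ν.transpose := by
    rw [YoungDiagram.mem_transpose]; exact hd
  have hx : (xs k ν).sum = ∑ i ∈ range k, (ν.rowLen i - k) := by
    rw [← sum_bb (K := k) (xs k ν) (fun z hz => (mem_xs z hz).2)]
    apply Finset.sum_congr rfl
    intro i hi
    rw [Finset.mem_range] at hi
    exact bb_xs hd i hi.le
  have hy : (xs k ν.transpose).sum = ∑ i ∈ range k, (ν.colLen i - k) := by
    rw [← sum_bb (K := k) (xs k ν.transpose) (fun z hz => (mem_xs z hz).2)]
    apply Finset.sum_congr rfl
    intro i hi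
    rw [Finset.mem_range] at hi
    rw [bb_xs hdt i hi.le, YoungDiagram.rowLen_transpose]
  have hboth : ∀ c ∈ ν.cells, ¬ (k ≤ c.1 ∧ k ≤ c.2) := by
    intro c hc h
    apply hd
    exact ν.up_left_mem h.1 h.2 hc
  refine ⟨(ν.cells.filter (fun c => c.1 < k ∧ c.2 < k)).card, ?_, ?_⟩
  · calc (ν.cells.filter (fun c => c.1 < k ∧ c.2 < k)).card ≤ (range k ×ˢ range k).card := by
          apply Finset.card_le_card
          intro c hc
          simp only [Finset.mem_filter, Finset.mem_product, Finset.mem_range] at hc ⊢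
          exact hc.2
      _ = k * k := by simp
  · have hX : (ν.cells.filter (fun c => k ≤ c.2)).card = (xs k ν).sum := by
      rw [hx]
      have hmap : ∀ c ∈ ν.cells.filter (fun c => k ≤ c.2), c.1 ∈ range k := by
        intro c hc
        rw [Finset.mem_filter] at hc
        rw [Finset.mem_range]
        by_contra hcon
        exact hboth c hc.1 ⟨by omega, hc.2⟩
      rw [Finset.card_eq_sum_card_fiberwise hmap]
      apply Finset.sum_congr rfl
      intro i _
      have : (ν.cells.filter (fun c => k ≤ c.2)).filter (fun c => c.1 = i) =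
          {i} ×ˢ (Ico k (ν.rowLen i)) := by
        ext ⟨a, b⟩
        simp only [Finset.mem_filter, Finset.mem_product, Finset.mem_singleton, Finset.mem_Ico,
          YoungDiagram.mem_cells]
        constructor
        · rintro ⟨⟨h1, h2⟩, rfl⟩
          exact ⟨rfl, h2, YoungDiagram.mem_iff_lt_rowLen.mp h1⟩
        · rintro ⟨rfl, h2, h3⟩
          exact ⟨⟨YoungDiagram.mem_iff_lt_rowLen.mpr h3, h2⟩, rfl⟩
      rw [this]; simp
    have hY : (ν.cells.filter (fun c => k ≤ c.1)).card = (xs k ν.transpose).sum := by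
      rw [hy]
      have hmap : ∀ c ∈ ν.cells.filter (fun c => k ≤ c.1), c.2 ∈ range k := by
        intro c hc
        rw [Finset.mem_filter] at hc
        rw [Finset.mem_range]
        by_contra hcon
        exact hboth c hc.1 ⟨hc.2, by omega⟩
      rw [Finset.card_eq_sum_card_fiberwise hmap]
      apply Finset.sum_congr rfl
      intro i _
      have : (ν.cells.filter (fun c => k ≤ c.1)).filter (fun c => c.2 = i) =
          (Ico k (ν.colLen i)) ×ˢ {i} := by
        ext ⟨a, b⟩
        simp only [Finset.mem_filter, Finset.mem_product, Finset.mem_singleton, Finset.mem_Ico,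
          YoungDiagram.mem_cells]
        constructor
        · rintro ⟨⟨h1, h2⟩, rfl⟩
          exact ⟨⟨h2, YoungDiagram.mem_iff_lt_colLen.mp h1⟩, rfl⟩
        · rintro ⟨⟨h2, h3⟩, rfl⟩
          exact ⟨⟨YoungDiagram.mem_iff_lt_colLen.mpr h3, h2⟩, rfl⟩
      rw [this]; simp
    rw [← hX, ← hY, YoungDiagram.card]
    have h1 : ν.cells.card = (ν.cells.filter (fun c => k ≤ c.1)).card +
        (ν.cells.filter (fun c => ¬ (k ≤ c.1))).card :=
      (Finset.card_filter_add_card_filter_not _).symm
    have h2 : (ν.cells.filter (fun c => ¬ (k ≤ c.1))).card =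
        ((ν.cells.filter (fun c => ¬ (k ≤ c.1))).filter (fun c => k ≤ c.2)).card +
        ((ν.cells.filter (fun c => ¬ (k ≤ c.1))).filter (fun c => ¬ (k ≤ c.2))).card :=
      (Finset.card_filter_add_card_filter_not _).symm
    have h3 : (ν.cells.filter (fun c => ¬ (k ≤ c.1))).filter (fun c => k ≤ c.2) =
        ν.cells.filter (fun c => k ≤ c.2) := by
      ext c
      simp only [Finset.mem_filter]
      constructor
      · rintro ⟨⟨h, _⟩, h'⟩; exact ⟨h, h'⟩
      · rintro ⟨h, h'⟩
        exact ⟨⟨h, fun hk => hboth c h ⟨hk, h'⟩⟩, h'⟩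
    have h4 : (ν.cells.filter (fun c => ¬ (k ≤ c.1))).filter (fun c => ¬ (k ≤ c.2)) =
        ν.cells.filter (fun c => c.1 < k ∧ c.2 < k) := by
      ext c
      simp only [Finset.mem_filter, not_le]
      tauto
    rw [h3, h4] at h2
    omega

theorem game_of_closed {G : ℕ → YoungDiagram → Prop} (hG : PeelClosed G) (k : ℕ) :
    PeelGame k (fun m X Y => ∀ ν : YoungDiagram, (k, k) ∉ ν → 2 * ν.card = m * (m + 1) →
      xs k ν = X → xs k ν.transpose = Y → G m ν) where
  fin := by
    intro m X Y hY ν hd hcard hX hY'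
    have hdt : (k, k) ∉ ν.transpose := by
      rw [YoungDiagram.mem_transpose]; exact hd
    have hN : ν.colLen 0 ≤ k + Multiset.card Y := by
      rw [← hY', ← bb_zero_eq _ (fun z hz => (mem_xs z hz).1), bb_xs hdt 0 (Nat.zero_le _),
        YoungDiagram.rowLen_transpose]
      omega
    have hN0 : ∀ i, ν.colLen 0 ≤ i → ν.rowLen i = 0 := by
      intro i hi
      by_contra hcon
      have : (i, 0) ∈ ν := by
        rw [YoungDiagram.mem_iff_lt_rowLen]; omega
      rw [YoungDiagram.mem_iff_lt_colLen] at this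
      omega
    have hcardν : ν.card = ∑ i ∈ range (ν.colLen 0), ν.rowLen i := card_eq_sum_rowLen_of ν _ hN0
    apply hG.dom m ν (by omega)
    intro r
    have hmul : ν.colLen 0 * m ≤ ν.card := by
      have h1 : (2 * ν.colLen 0) * m ≤ (m + 1) * m := Nat.mul_le_mul_right m (by omega)
      have h2 : (2 * ν.colLen 0) * m = 2 * (ν.colLen 0 * m) := by ring
      have h3 : (m + 1) * m = m * (m + 1) := by ring
      omega
    have havg := avg_lemma (fun i => ν.rowLen i) (fun a b h => ν.rowLen_anti a b h) (ν.colLen 0) m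
      ν.card hN0 hcardν.symm hmul r
    rcases le_total r (ν.colLen 0) with h | h
    · exact (sum_sub_le m r).trans (havg.1 h)
    · have h1 : ∑ i ∈ range r, ν.rowLen i = ν.card := havg.2 h
      have h2 := two_sum_sub m r
      rw [h1]
      omega
  swap := by
    intro m X Y h ν hd hcard hX hY
    have h1 := h ν.transpose (by rw [YoungDiagram.mem_transpose]; exact hd)
      (by
        have : ν.transpose.card = ν.card := by
          simp [YoungDiagram.card, YoungDiagram.transpose]
        rw [this]; exact hcard) hY (by rw [YoungDiagram.transpose_transpose]; exact hX)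
    have h2 := hG.trans m _ h1
    rwa [YoungDiagram.transpose_transpose] at h2
  mass := by
    intro m X Y h ν hd hcard hX hY
    obtain ⟨e, he, hsum⟩ := diag_mass hd
    refine h ?_ ?_ e he ?_ ν hd hcard hX hY
    · rw [← hX]; exact mem_xs
    · rw [← hY]; exact mem_xs
    · rw [← hX, ← hY, hsum]; exact hcard
  step := by
    intro m m' K X Y Z hZ hK hm hs hKm h ν hd hcard hX hY
    subst hX
    subst hY
    obtain ⟨α, β, hα, hxα, hyα, hrow, hβ, hcα, hcβ⟩ := diag_hstep hd hZ
    have hGα : G m' α := h α hα (by omega) hxα hyα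
    have h2 := two_sum_sub m (m - m')
    have hmm : m - (m - m') = m' := by omega
    rw [hmm] at h2
    have hZs : Z.sum = ∑ i ∈ range (m - m'), (m - i) := by omega
    refine hG.step m (m - m') α β ν (by omega) hrow (by rw [hmm]; exact hGα)
      (by rw [hcβ, hZs]) ?_
    intro r
    have havg := avg_lemma (fun i => bb i Z) (bb_antitone Z) K m Z.sum
      (fun i hi => bb_eq_zero hK hi) (sum_bb Z hK) hKm r
    simp_rw [hβ]
    rcases le_total r K with hr | hr
    · refine le_trans ?_ (havg.1 hr)
      calc ∑ i ∈ range r, (if i < m - m' then m - i else 0) ≤ ∑ _i ∈ range r, m := by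
            apply Finset.sum_le_sum
            intro i _
            split_ifs <;> omega
        _ = r * m := by simp
    · rw [havg.2 hr, hZs]
      exact sum_ite_le m (m - m') r

theorem peel_main' {G : ℕ → YoungDiagram → Prop} (hG : PeelClosed G) (m k : ℕ) (ν : YoungDiagram)
    (hcard : ν.card = m * (m + 1) / 2) (hdurfee : (k, k) ∉ ν)
    (hm : 2000 * (k ^ 2 * (Nat.log 2 k + 1)) ≤ m) :
    G m ν := by
  have heven : 2 * ν.card = m * (m + 1) := by
    rw [hcard]
    exact Nat.mul_div_cancel' (Nat.even_mul_succ_self m).two_dvd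
  have hgame := game_of_closed hG k
  rcases Nat.eq_zero_or_pos k with h0 | h0
  · subst h0
    exact hgame.fin m (xs 0 ν) (xs 0 ν.transpose) (by simp [xs]) ν hdurfee heven rfl rfl
  · exact hgame.all h0 m (by rw [pow_two] at hm; exact hm) (xs k ν) (xs k ν.transpose)
      ν hdurfee heven rfl rfl

theorem peel_main_cube {G : ℕ → YoungDiagram → Prop} (hG : PeelClosed G) (m k : ℕ)
    (ν : YoungDiagram) (hcard : ν.card = m * (m + 1) / 2) (hdurfee : (k, k) ∉ ν)
    (hm : 2000 * k ^ 3 ≤ m) : G m ν := by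
  apply peel_main' hG m k ν hcard hdurfee
  refine le_trans ?_ hm
  rcases Nat.eq_zero_or_pos k with h0 | h0
  · subst h0; simp
  · apply Nat.mul_le_mul_left
    rw [pow_succ]
    apply Nat.mul_le_mul_left
    exact Nat.log_lt_self 2 (by omega)

end Vale.Agent.P197
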