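import Mathlib

namespace Vale.Agent.P197

open Multiset

theorem egz_nat (D : Multiset ℕ) (h : ℕ) (hD : 2 * h - 1 ≤ D.card) :
    ∃ E ≤ D, E.card = h ∧ h ∣ E.sum := by
  obtain ⟨t, hts, ht, hd⟩ := Int.erdos_ginzburg_ziv (n := h) (s := D.toEnumFinset)
    (fun p => (p.1 : ℤ)) (by simpa using hD)
  refine ⟨t.1.map Prod.fst, Multiset.map_fst_le_of_subset_toEnumFinset hts, by simpa using ht, ?_⟩
  have h2 : ((t.1.map Prod.fst).sum : ℤ) = ∑ i ∈ t, ((i.1 : ℕ) : ℤ) := by
    rw [Finset.sum, Nat.cast_multiset_sum, Multiset.map_map]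
    rfl
  have h3 : (h : ℤ) ∣ ((t.1.map Prod.fst).sum : ℤ) := by
    rw [h2]; exact hd
  exact_mod_cast h3

theorem sum_le_card_mul {k : ℕ} (S : Multiset ℕ) (hS : ∀ z ∈ S, z ≤ k) :
    S.sum ≤ S.card * k := by
  simpa using Multiset.sum_le_card_nsmul S k hS

theorem card_le_sum_of_pos (S : Multiset ℕ) (hS : ∀ z ∈ S, 1 ≤ z) :
    S.card ≤ S.sum := by
  simpa using Multiset.card_nsmul_le_sum hS

theorem sum_tsub_of_le {S Z : Multiset ℕ} (h : Z ≤ S) : (S - Z).sum + Z.sum = S.sum := by
  rw [← Multiset.sum_add, tsub_add_cancel_of_le h]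

theorem ss_core {k h : ℕ} (hh : 1 ≤ h) (O : Multiset ℕ) (hO1 : ∀ z ∈ O, 1 ≤ z)
    (hOk : ∀ z ∈ O, z ≤ k) (T : ℕ) :
    ∃ O' ≤ O, h ∣ O'.sum ∧ O'.sum ≤ T ∧
      (T < O'.sum + h * k ∨ (O - O').card ≤ 2 * h - 2) := by
  classical
  let F : Finset (Multiset ℕ) := (O.powerset.toFinset).filter
    (fun O' => h ∣ O'.sum ∧ O'.sum ≤ T)
  have hF : F.Nonempty := ⟨0, by simp [F]⟩
  obtain ⟨O', hO'F, hmax⟩ := Finset.exists_max_image F (fun O' => O'.sum) hF
  simp only [F, Finset.mem_filter, Multiset.mem_toFinset, Multiset.mem_powerset] at hO'F hmax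
  obtain ⟨hle, hdvd, hT⟩ := hO'F
  refine ⟨O', hle, hdvd, hT, ?_⟩
  by_contra hcon
  push Not at hcon
  obtain ⟨h1, h2⟩ := hcon
  obtain ⟨E, hE, hEc, hEd⟩ := egz_nat (O - O') h (by omega)
  have hEle : E ≤ O := hE.trans tsub_le_self
  have hEk : E.sum ≤ h * k := by
    rw [← hEc]
    exact sum_le_card_mul E (fun z hz => hOk z (Multiset.mem_of_le hEle hz))
  have hE1 : 1 ≤ E.sum := by
    have := card_le_sum_of_pos E (fun z hz => hO1 z (Multiset.mem_of_le hEle hz))
    omega
  have hle2 : O' + E ≤ O := by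
    calc O' + E ≤ O' + (O - O') := by gcongr
      _ = O := add_tsub_cancel_of_le hle
  have := hmax (O' + E) ⟨hle2, by rw [Multiset.sum_add]; exact dvd_add hdvd hEd, by
    rw [Multiset.sum_add]; omega⟩
  rw [Multiset.sum_add] at this
  omega

theorem filter_ne_add (S : Multiset ℕ) (h : ℕ) :
    S.filter (fun z => z ≠ h) + Multiset.replicate (S.count h) h = S := by
  rw [← Multiset.filter_eq' S h, add_comm]
  exact Multiset.filter_add_not _ _

theorem count_filter_ne (S : Multiset ℕ) (h : ℕ) :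
    (S.filter (fun z => z ≠ h)).count h = 0 := by
  rw [Multiset.count_eq_zero]
  simp

theorem ss_preserve {k h c : ℕ} (hh : 1 ≤ h) (S : Multiset ℕ) (hS1 : ∀ z ∈ S, 1 ≤ z)
    (hSk : ∀ z ∈ S, z ≤ k) (T : ℕ) (hT : h ∣ T) (hc : k + c ≤ S.count h)
    (hsum : T + 2 * h * k + c * h ≤ S.sum) :
    ∃ Z ≤ S, Z.sum = T ∧ c ≤ (S - Z).count h := by
  classical
  set n := S.count h with hn
  set O := S.filter (fun z => z ≠ h) with hO
  have hdecomp : O + Multiset.replicate n h = S := filter_ne_add S h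
  have hOle : O ≤ S := Multiset.filter_le _ _
  obtain ⟨O', hle, hdvd, hleT, halt⟩ := ss_core (k := k) hh O
    (fun z hz => hS1 z (Multiset.mem_of_le hOle hz))
    (fun z hz => hSk z (Multiset.mem_of_le hOle hz)) T
  obtain ⟨q, hq⟩ := hT
  obtain ⟨q', hq'⟩ := hdvd
  have hqq : q' ≤ q := by
    have : h * q' ≤ h * q := by rw [← hq, ← hq']; exact hleT
    exact Nat.le_of_mul_le_mul_left this hh
  obtain ⟨t, rfl⟩ := Nat.exists_eq_add_of_le hqq
  have hsumS : O.sum + n * h = S.sum := by
    conv_rhs => rw [← hdecomp]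
    simp [Multiset.sum_add, Multiset.sum_replicate]
  have hcn : t + c ≤ n := by
    rcases halt with h1 | h1
    · have : t < k := by
        rw [hq, hq', mul_add] at h1
        have h2 : h * t < h * k := by omega
        exact Nat.lt_of_mul_lt_mul_left h2
      omega
    · have hD : (O - O').sum ≤ (2 * h - 2) * k := by
        refine (sum_le_card_mul (k := k) _ ?_).trans (Nat.mul_le_mul_right k h1)
        intro z hz
        exact hSk z (Multiset.mem_of_le (tsub_le_self.trans hOle) hz)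
      have hD2 : (O - O').sum ≤ 2 * h * k := hD.trans (Nat.mul_le_mul_right k (by omega))
      have hD3 := sum_tsub_of_le hle
      have : (t + c) * h ≤ n * h := by
        have e1 : (t + c) * h = h * t + c * h := by ring
        rw [e1]
        rw [mul_add] at hq
        omega
      exact Nat.le_of_mul_le_mul_right this hh
  refine ⟨O' + Multiset.replicate t h, ?_, ?_, ?_⟩
  · rw [← hdecomp]
    gcongr
    omega
  · rw [Multiset.sum_add, Multiset.sum_replicate, hq, hq', smul_eq_mul]
    ring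
  · have hO'0 : O'.count h = 0 := by
      have h0 : O.count h = 0 := count_filter_ne S h
      have h1 := Multiset.count_le_of_le h hle
      omega
    rw [Multiset.count_sub, Multiset.count_add, Multiset.count_replicate_self, hO'0, ← hn]
    omega

theorem ss_leave {k l : ℕ} (hl : 1 ≤ l) (S : Multiset ℕ) (hS1 : ∀ z ∈ S, 1 ≤ z)
    (hSk : ∀ z ∈ S, z ≤ k) (T : ℕ) (hT : l ∣ T) (hc : S.sum ≤ T + l * S.count l)
    (hsum : T + 2 * l * k ≤ S.sum) :
    ∃ Z ≤ S, Z.sum = T ∧ ∃ (s : ℕ) (U : Multiset ℕ), S - Z = Multiset.replicate s l + U ∧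
      U.card ≤ 2 * l := by
  classical
  set n := S.count l with hn
  set O := S.filter (fun z => z ≠ l) with hO
  have hdecomp : O + Multiset.replicate n l = S := filter_ne_add S l
  have hOle : O ≤ S := Multiset.filter_le _ _
  have hsumS : O.sum + n * l = S.sum := by
    conv_rhs => rw [← hdecomp]
    simp [Multiset.sum_add, Multiset.sum_replicate]
  obtain ⟨O', hle, hdvd, hleT, halt⟩ := ss_core (k := k) hl O
    (fun z hz => hS1 z (Multiset.mem_of_le hOle hz))
    (fun z hz => hSk z (Multiset.mem_of_le hOle hz)) (O.sum + l * k)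
  have hD3 := sum_tsub_of_le hle
  have hcard : (O - O').card ≤ 2 * l - 2 := by
    rcases halt with h1 | h1
    · exfalso
      omega
    · exact h1
  have hOT : O'.sum ≤ T := by
    have : n * l = l * n := mul_comm _ _
    omega
  obtain ⟨q, hq⟩ := hT
  obtain ⟨q', hq'⟩ := hdvd
  have hqq : q' ≤ q := by
    have : l * q' ≤ l * q := by rw [← hq, ← hq']; exact hOT
    exact Nat.le_of_mul_le_mul_left this hl
  obtain ⟨t, rfl⟩ := Nat.exists_eq_add_of_le hqq
  have hD : (O - O').sum ≤ (2 * l - 2) * k := by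
    refine (sum_le_card_mul (k := k) _ ?_).trans (Nat.mul_le_mul_right k hcard)
    intro z hz
    exact hSk z (Multiset.mem_of_le (tsub_le_self.trans hOle) hz)
  have hD2 : (O - O').sum ≤ 2 * l * k := hD.trans (Nat.mul_le_mul_right k (by omega))
  have htn : t ≤ n := by
    have : t * l ≤ n * l := by
      have e1 : t * l = l * t := by ring
      rw [e1]
      rw [mul_add] at hq
      omega
    exact Nat.le_of_mul_le_mul_right this hl
  refine ⟨O' + Multiset.replicate t l, ?_, ?_, n - t, O - O', ?_, by omega⟩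
  · rw [← hdecomp]
    gcongr
  · rw [Multiset.sum_add, Multiset.sum_replicate, hq, hq', smul_eq_mul]
    ring
  · obtain ⟨u, hu⟩ : ∃ u, n = t + u := ⟨n - t, by omega⟩
    obtain ⟨V, hV⟩ := Multiset.le_iff_exists_add.mp hle
    rw [← hdecomp, hV, hu, Multiset.replicate_add]
    have e1 : O' + V + (Multiset.replicate t l + Multiset.replicate u l) =
      (O' + Multiset.replicate t l) + (Multiset.replicate u l + V) := by abel
    rw [e1, add_tsub_cancel_left, add_tsub_cancel_left]
    simp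

end Vale.Agent.P197
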