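import Vale.Agent.P197.Cat

namespace Vale.Agent.P197

open Equiv TensorProduct

abbrev Wd (n : ℕ) : Type := Fin n → ℕ

abbrev F3 (n : ℕ) : Type := ((Wd n × Wd n) × Wd n) →₀ ℂ

noncomputable def box (n : ℕ) : (Wd n →₀ ℂ) →ₗ[ℂ] (Wd n →₀ ℂ) →ₗ[ℂ] (Wd n →₀ ℂ) →ₗ[ℂ] F3 n :=
  LinearMap.compr₂
    (LinearMap.compr₂ (TensorProduct.mk ℂ (Wd n →₀ ℂ) (Wd n →₀ ℂ))
      (finsuppTensorFinsupp' ℂ (Wd n) (Wd n)).toLinearMap)
    (LinearMap.compr₂ (TensorProduct.mk ℂ ((Wd n × Wd n) →₀ ℂ) (Wd n →₀ ℂ))
      (finsuppTensorFinsupp' ℂ (Wd n × Wd n) (Wd n)).toLinearMap)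

theorem box_single {n : ℕ} (u v w : Wd n) (x y z : ℂ) :
    box n (Finsupp.single u x) (Finsupp.single v y) (Finsupp.single w z) =
      Finsupp.single ((u, v), w) (x * y * z) := by
  change finsuppTensorFinsupp' ℂ (Wd n × Wd n) (Wd n)
    ((finsuppTensorFinsupp' ℂ (Wd n) (Wd n)
      (Finsupp.single u x ⊗ₜ[ℂ] Finsupp.single v y)) ⊗ₜ[ℂ] Finsupp.single w z) = _
  rw [finsuppTensorFinsupp'_single_tmul_single, finsuppTensorFinsupp'_single_tmul_single]

noncomputable def iota (n : ℕ) (μ : YoungDiagram) : SV n μ →ₗ[ℂ] (Wd n →₀ ℂ) :=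
  (specht n μ).toSubmodule.subtype

theorem iota_injective (n : ℕ) (μ : YoungDiagram) : Function.Injective (iota n μ) :=
  Subtype.val_injective

theorem iota_rep (n : ℕ) (μ : YoungDiagram) (σ : Perm (Fin n)) (x : SV n μ) :
    iota n μ (rep n μ σ x) = wordRep n σ (iota n μ x) := rfl

noncomputable def emb (n : ℕ) (la mu nu : YoungDiagram) : TT n la mu nu →ₗ[ℂ] F3 n :=
  (finsuppTensorFinsupp' ℂ (Wd n × Wd n) (Wd n)).toLinearMap ∘ₗ
    TensorProduct.map ((finsuppTensorFinsupp' ℂ (Wd n) (Wd n)).toLinearMap ∘ₗ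
      TensorProduct.map (iota n la) (iota n mu)) (iota n nu)

theorem emb_tmul {n : ℕ} {la mu nu : YoungDiagram} (a : SV n la) (b : SV n mu) (c : SV n nu) :
    emb n la mu nu ((a ⊗ₜ b) ⊗ₜ c) = box n (iota n la a) (iota n mu b) (iota n nu c) := rfl

theorem emb_injective (n : ℕ) (la mu nu : YoungDiagram) :
    Function.Injective (emb n la mu nu) := by
  unfold emb
  rw [LinearMap.coe_comp]
  refine (LinearEquiv.injective _).comp ?_
  apply TensorProduct.map_injective_of_flat_flat
  · rw [LinearMap.coe_comp]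
    refine (LinearEquiv.injective _).comp ?_
    exact TensorProduct.map_injective_of_flat_flat _ _ (iota_injective _ _) (iota_injective _ _)
  · exact iota_injective _ _

noncomputable def act {n : ℕ} (σ : Perm (Fin n)) : F3 n →ₗ[ℂ] F3 n :=
  Finsupp.lmapDomain ℂ ℂ fun x => ((x.1.1 ∘ σ.symm, x.1.2 ∘ σ.symm), x.2 ∘ σ.symm)

theorem act_single {n : ℕ} (σ : Perm (Fin n)) (x : (Wd n × Wd n) × Wd n) (r : ℂ) :
    act σ (Finsupp.single x r) =
      Finsupp.single ((x.1.1 ∘ σ.symm, x.1.2 ∘ σ.symm), x.2 ∘ σ.symm) r := by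
  simp [act]

theorem act_box {n : ℕ} (σ : Perm (Fin n)) (a b c : Wd n →₀ ℂ) :
    act σ (box n a b c) = box n (wordRep n σ a) (wordRep n σ b) (wordRep n σ c) := by
  induction a using Finsupp.induction_linear with
  | zero => simp
  | add x y hx hy => simp only [map_add, LinearMap.add_apply, hx, hy]
  | single u x =>
  induction b using Finsupp.induction_linear with
  | zero => simp
  | add x y hx hy => simp only [map_add, LinearMap.add_apply, hx, hy]
  | single v y =>
  induction c using Finsupp.induction_linear with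
  | zero => simp
  | add x y hx hy => simp only [map_add, hx, hy]
  | single w z =>
  rw [wordRep_single, wordRep_single, wordRep_single, box_single, box_single, act_single]

theorem emb_rep3 {n : ℕ} {la mu nu : YoungDiagram} (σ : Perm (Fin n)) (x : TT n la mu nu) :
    emb n la mu nu (rep3 n la mu nu σ x) = act σ (emb n la mu nu x) := by
  induction x using TensorProduct.induction_on with
  | zero => simp
  | add x y hx hy => simp only [map_add, hx, hy]
  | tmul x c =>
    induction x using TensorProduct.induction_on with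
    | zero => simp
    | add x y hx hy => simp only [TensorProduct.add_tmul, map_add, hx, hy]
    | tmul a b =>
      rw [emb_tmul, act_box, ← iota_rep, ← iota_rep, ← iota_rep, ← emb_tmul]
      rfl

noncomputable def pol (n : ℕ) : F3 n →ₗ[ℂ] MvPolynomial (ℕ × ℕ × ℕ) ℂ :=
  Finsupp.linearCombination ℂ fun x => ∏ p, MvPolynomial.X (x.1.1 p, x.1.2 p, x.2 p)

theorem pol_single {n : ℕ} (x : (Wd n × Wd n) × Wd n) (r : ℂ) :
    pol n (Finsupp.single x r) = r • ∏ p, MvPolynomial.X (x.1.1 p, x.1.2 p, x.2 p) := by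
  simp [pol]

theorem pol_act {n : ℕ} (σ : Perm (Fin n)) (Φ : F3 n) : pol n (act σ Φ) = pol n Φ := by
  induction Φ using Finsupp.induction_linear with
  | zero => simp
  | add x y hx hy => simp only [map_add, hx, hy]
  | single x r =>
    rw [act_single, pol_single, pol_single]
    congr 1
    exact Equiv.prod_comp σ.symm fun p =>
      (MvPolynomial.X (x.1.1 p, x.1.2 p, x.2 p) : MvPolynomial (ℕ × ℕ × ℕ) ℂ)

noncomputable def cat3 (p q : ℕ) : F3 p →ₗ[ℂ] F3 q →ₗ[ℂ] F3 (p + q) :=
  LinearMap.compr₂ (TensorProduct.mk ℂ (F3 p) (F3 q))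
    ((Finsupp.lmapDomain ℂ ℂ (fun xy : ((Wd p × Wd p) × Wd p) × ((Wd q × Wd q) × Wd q) =>
      ((Fin.append xy.1.1.1 xy.2.1.1, Fin.append xy.1.1.2 xy.2.1.2),
        Fin.append xy.1.2 xy.2.2))) ∘ₗ
      (finsuppTensorFinsupp' ℂ ((Wd p × Wd p) × Wd p) ((Wd q × Wd q) × Wd q)).toLinearMap)

theorem cat3_single {p q : ℕ} (x : (Wd p × Wd p) × Wd p) (y : (Wd q × Wd q) × Wd q) (r s : ℂ) :
    cat3 p q (Finsupp.single x r) (Finsupp.single y s) =
      Finsupp.single ((Fin.append x.1.1 y.1.1, Fin.append x.1.2 y.1.2),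
        Fin.append x.2 y.2) (r * s) := by
  change Finsupp.mapDomain _ (finsuppTensorFinsupp' ℂ ((Wd p × Wd p) × Wd p)
    ((Wd q × Wd q) × Wd q) (Finsupp.single x r ⊗ₜ[ℂ] Finsupp.single y s)) = _
  rw [finsuppTensorFinsupp'_single_tmul_single, Finsupp.mapDomain_single]

theorem pol_cat3 {p q : ℕ} (Φ : F3 p) (Ψ : F3 q) :
    pol (p + q) (cat3 p q Φ Ψ) = pol p Φ * pol q Ψ := by
  induction Φ using Finsupp.induction_linear with
  | zero => simp
  | add x y hx hy => simp only [map_add, LinearMap.add_apply, hx, hy, add_mul]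
  | single x r =>
  induction Ψ using Finsupp.induction_linear with
  | zero => simp
  | add x y hx hy => simp only [map_add, hx, hy, mul_add]
  | single y s =>
  rw [cat3_single, pol_single, pol_single, pol_single, Fin.prod_univ_add]
  simp only [Fin.append_left, Fin.append_right]
  rw [smul_mul_smul_comm]

theorem cat3_box {p q : ℕ} (a b c : Wd p →₀ ℂ) (a' b' c' : Wd q →₀ ℂ) :
    cat3 p q (box p a b c) (box q a' b' c') = box (p + q) (cat a a') (cat b b') (cat c c') := by
  induction a using Finsupp.induction_linear with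
  | zero => simp
  | add x y hx hy => simp only [map_add, LinearMap.add_apply, hx, hy]
  | single u1 x1 =>
  induction b using Finsupp.induction_linear with
  | zero => simp
  | add x y hx hy => simp only [map_add, LinearMap.add_apply, hx, hy]
  | single u2 x2 =>
  induction c using Finsupp.induction_linear with
  | zero => simp
  | add x y hx hy => simp only [map_add, LinearMap.add_apply, hx, hy]
  | single u3 x3 =>
  induction a' using Finsupp.induction_linear with
  | zero => simp
  | add x y hx hy => simp only [map_add, LinearMap.add_apply, hx, hy]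
  | single u4 x4 =>
  induction b' using Finsupp.induction_linear with
  | zero => simp
  | add x y hx hy => simp only [map_add, LinearMap.add_apply, hx, hy]
  | single u5 x5 =>
  induction c' using Finsupp.induction_linear with
  | zero => simp
  | add x y hx hy => simp only [map_add, LinearMap.add_apply, hx, hy]
  | single u6 x6 =>
  rw [box_single, box_single, cat_single, cat_single, cat_single, box_single, cat3_single]
  congr 1
  ring

theorem cat_mem {p q : ℕ} {a b c : YoungDiagram}
    (hrow : ∀ i, c.rowLen i = a.rowLen i + b.rowLen i) {x : Wd p →₀ ℂ} {y : Wd q →₀ ℂ}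
    (hx : x ∈ (specht p a).toSubmodule) (hy : y ∈ (specht q b).toSubmodule) :
    cat x y ∈ (specht (p + q) c).toSubmodule := by
  have hx' : x ∈ Submodule.span ℂ (Set.range (polytabloid (n := p) (μ := a))) := hx
  have hy' : y ∈ Submodule.span ℂ (Set.range (polytabloid (n := q) (μ := b))) := hy
  clear hx hy
  induction hx' using Submodule.span_induction with
  | zero => simp
  | add x1 x2 _ _ h1 h2 =>
    rw [map_add, LinearMap.add_apply]
    exact Submodule.add_mem _ h1 h2
  | smul r x1 _ h1 =>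
    rw [map_smul, LinearMap.smul_apply]
    exact Submodule.smul_mem _ r h1
  | mem x1 h1 =>
    obtain ⟨t, rfl⟩ := h1
    induction hy' using Submodule.span_induction with
    | zero => simp
    | add x1 x2 _ _ h1 h2 =>
      rw [map_add]
      exact Submodule.add_mem _ h1 h2
    | smul r x1 _ h1 =>
      rw [map_smul]
      exact Submodule.smul_mem _ r h1
    | mem x1 h1 =>
      obtain ⟨s, rfl⟩ := h1
      rw [cat_polytabloid hrow]
      exact Submodule.subset_span ⟨_, rfl⟩

theorem exists_cat {p q : ℕ} {la mu nu la1 mu1 nu1 la2 mu2 nu2 : YoungDiagram}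
    (hla : ∀ i, la.rowLen i = la1.rowLen i + la2.rowLen i)
    (hmu : ∀ i, mu.rowLen i = mu1.rowLen i + mu2.rowLen i)
    (hnu : ∀ i, nu.rowLen i = nu1.rowLen i + nu2.rowLen i)
    (x : TT p la1 mu1 nu1) (y : TT q la2 mu2 nu2) :
    ∃ z : TT (p + q) la mu nu,
      emb (p + q) la mu nu z = cat3 p q (emb p la1 mu1 nu1 x) (emb q la2 mu2 nu2 y) := by
  induction x using TensorProduct.induction_on with
  | zero => exact ⟨0, by simp⟩
  | add x1 x2 h1 h2 =>
    obtain ⟨z1, h1⟩ := h1
    obtain ⟨z2, h2⟩ := h2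
    exact ⟨z1 + z2, by simp only [map_add, LinearMap.add_apply, h1, h2]⟩
  | tmul x c =>
  induction x using TensorProduct.induction_on with
  | zero => exact ⟨0, by simp⟩
  | add x1 x2 h1 h2 =>
    obtain ⟨z1, h1⟩ := h1
    obtain ⟨z2, h2⟩ := h2
    exact ⟨z1 + z2, by
      simp only [TensorProduct.add_tmul, map_add, LinearMap.add_apply, h1, h2]⟩
  | tmul a b =>
  induction y using TensorProduct.induction_on with
  | zero => exact ⟨0, by simp⟩
  | add x1 x2 h1 h2 =>
    obtain ⟨z1, h1⟩ := h1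
    obtain ⟨z2, h2⟩ := h2
    exact ⟨z1 + z2, by simp only [map_add, h1, h2]⟩
  | tmul y c' =>
  induction y using TensorProduct.induction_on with
  | zero => exact ⟨0, by simp⟩
  | add x1 x2 h1 h2 =>
    obtain ⟨z1, h1⟩ := h1
    obtain ⟨z2, h2⟩ := h2
    exact ⟨z1 + z2, by simp only [TensorProduct.add_tmul, map_add, h1, h2]⟩
  | tmul a' b' =>
  let A : SV (p + q) la := ⟨cat (iota p la1 a) (iota q la2 a'), cat_mem hla a.2 a'.2⟩
  let B : SV (p + q) mu := ⟨cat (iota p mu1 b) (iota q mu2 b'), cat_mem hmu b.2 b'.2⟩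
  let C : SV (p + q) nu := ⟨cat (iota p nu1 c) (iota q nu2 c'), cat_mem hnu c.2 c'.2⟩
  refine ⟨(A ⊗ₜ B) ⊗ₜ C, ?_⟩
  rw [emb_tmul, emb_tmul, emb_tmul, cat3_box]
  rfl

end Vale.Agent.P197
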