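import Vale.Agent.P197.Semigroup

namespace Vale.Agent.P197

open Equiv TensorProduct

def tri {n : ℕ} (x : (Wd n × Wd n) × Wd n) : Fin n → ℕ × ℕ × ℕ :=
  fun p => (x.1.1 p, x.1.2 p, x.2 p)

noncomputable def cnt {n : ℕ} (x : (Wd n × Wd n) × Wd n) : (ℕ × ℕ × ℕ) →₀ ℕ :=
  ∑ p, Finsupp.single (tri x p) 1

theorem prod_X_eq {n : ℕ} (x : (Wd n × Wd n) × Wd n) :
    (∏ p, MvPolynomial.X (x.1.1 p, x.1.2 p, x.2 p) : MvPolynomial (ℕ × ℕ × ℕ) ℂ) =
      MvPolynomial.monomial (cnt x) 1 := by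
  unfold cnt
  rw [MvPolynomial.monomial_sum_one]
  rfl

theorem cnt_apply {n : ℕ} (x : (Wd n × Wd n) × Wd n) (c : ℕ × ℕ × ℕ) :
    cnt x c = Fintype.card {p // tri x p = c} := by
  unfold cnt
  rw [Finsupp.finsetSum_apply]
  simp_rw [Finsupp.single_apply]
  rw [Finset.sum_boole, Fintype.card_subtype]
  simp

theorem exists_perm_of_cnt {n : ℕ} {x y : (Wd n × Wd n) × Wd n} (h : cnt x = cnt y) :
    ∃ σ : Perm (Fin n), ((x.1.1 ∘ σ.symm, x.1.2 ∘ σ.symm), x.2 ∘ σ.symm) = y := by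
  have h1 : ∀ c, Nonempty ({p // tri x p = c} ≃ {p // tri y p = c}) := by
    intro c
    rw [← Fintype.card_eq, ← cnt_apply, ← cnt_apply, h]
  let e : Perm (Fin n) := Equiv.ofFiberEquiv fun c => (h1 c).some
  have he : ∀ p, tri y (e p) = tri x p := fun p => Equiv.ofFiberEquiv_map _ p
  refine ⟨e, ?_⟩
  have he' : ∀ p, tri x (e.symm p) = tri y p := fun p => by
    rw [← he, Equiv.apply_symm_apply]
  refine Prod.ext (Prod.ext ?_ ?_) ?_
  · funext p
    exact congrArg (fun c => c.1) (he' p)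
  · funext p
    exact congrArg (fun c => c.2.1) (he' p)
  · funext p
    exact congrArg (fun c => c.2.2) (he' p)

theorem act_apply {n : ℕ} (σ : Perm (Fin n)) (Φ : F3 n) (x : (Wd n × Wd n) × Wd n) :
    act σ Φ ((x.1.1 ∘ σ.symm, x.1.2 ∘ σ.symm), x.2 ∘ σ.symm) = Φ x := by
  unfold act
  have hinj : Function.Injective (fun x : (Wd n × Wd n) × Wd n =>
      (((x.1.1 ∘ σ.symm, x.1.2 ∘ σ.symm), x.2 ∘ σ.symm) : (Wd n × Wd n) × Wd n)) := by
    intro x y hxy
    simp only [Prod.mk.injEq] at hxy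
    obtain ⟨⟨h1, h2⟩, h3⟩ := hxy
    refine Prod.ext (Prod.ext ?_ ?_) ?_
    · exact σ.symm.surjective.injective_comp_right h1
    · exact σ.symm.surjective.injective_comp_right h2
    · exact σ.symm.surjective.injective_comp_right h3
  exact Finsupp.mapDomain_apply hinj Φ x

theorem pol_coeff {n : ℕ} (Φ : F3 n) (A : (ℕ × ℕ × ℕ) →₀ ℕ) :
    MvPolynomial.coeff A (pol n Φ) = ∑ x ∈ Φ.support with cnt x = A, Φ x := by
  classical
  unfold pol
  rw [Finsupp.linearCombination_apply, Finsupp.sum, MvPolynomial.coeff_sum, Finset.sum_filter]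
  refine Finset.sum_congr rfl fun x _ => ?_
  rw [prod_X_eq, MvPolynomial.coeff_smul, MvPolynomial.coeff_monomial]
  split_ifs <;> simp

theorem pol_ne_zero {n : ℕ} {Φ : F3 n} (hΦ : Φ ≠ 0) (hinv : ∀ σ, act σ Φ = Φ) :
    pol n Φ ≠ 0 := by
  intro h
  obtain ⟨x, hx⟩ := Finsupp.support_nonempty_iff.mpr hΦ
  have h1 := pol_coeff Φ (cnt x)
  rw [h, MvPolynomial.coeff_zero] at h1
  have h2 : ∀ y ∈ Φ.support.filter (fun y => cnt y = cnt x), Φ y = Φ x := by
    intro y hy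
    rw [Finset.mem_filter] at hy
    obtain ⟨σ, rfl⟩ := exists_perm_of_cnt hy.2.symm
    have := act_apply σ Φ x
    rw [hinv] at this
    exact this
  rw [Finset.sum_congr rfl h2, Finset.sum_const, nsmul_eq_mul] at h1
  have h3 : Φ x ≠ 0 := Finsupp.mem_support_iff.mp hx
  rcases mul_eq_zero.mp h1.symm with h4 | h4
  · rw [Nat.cast_eq_zero, Finset.card_eq_zero] at h4
    have : x ∈ Φ.support.filter (fun y => cnt y = cnt x) := Finset.mem_filter.mpr ⟨hx, rfl⟩
    rw [h4] at this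
    simp at this
  · exact h3 h4

theorem kronecker_pos_add {p q : ℕ} {la mu nu la1 mu1 nu1 la2 mu2 nu2 : YoungDiagram}
    (hla : ∀ i, la.rowLen i = la1.rowLen i + la2.rowLen i)
    (hmu : ∀ i, mu.rowLen i = mu1.rowLen i + mu2.rowLen i)
    (hnu : ∀ i, nu.rowLen i = nu1.rowLen i + nu2.rowLen i)
    (h1 : 0 < kronecker p la1 mu1 nu1) (h2 : 0 < kronecker q la2 mu2 nu2) :
    0 < kronecker (p + q) la mu nu := by
  rw [kronecker_pos_iff] at h1 h2 ⊢
  obtain ⟨x, hx0, hx⟩ := h1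
  obtain ⟨y, hy0, hy⟩ := h2
  obtain ⟨z, hz⟩ := exists_cat hla hmu hnu x y
  have hpx : pol p (emb p la1 mu1 nu1 x) ≠ 0 := by
    apply pol_ne_zero
    · intro h
      exact hx0 (emb_injective _ _ _ _ (by rw [h, map_zero]))
    · intro σ
      rw [← emb_rep3, hx]
  have hpy : pol q (emb q la2 mu2 nu2 y) ≠ 0 := by
    apply pol_ne_zero
    · intro h
      exact hy0 (emb_injective _ _ _ _ (by rw [h, map_zero]))
    · intro σ
      rw [← emb_rep3, hy]
  refine ⟨∑ σ : Perm (Fin (p + q)), rep3 (p + q) la mu nu σ z, ?_, ?_⟩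
  · intro h
    have h3 : pol (p + q) (emb (p + q) la mu nu
        (∑ σ : Perm (Fin (p + q)), rep3 (p + q) la mu nu σ z)) =
        (Fintype.card (Perm (Fin (p + q))) : ℂ) •
          (pol p (emb p la1 mu1 nu1 x) * pol q (emb q la2 mu2 nu2 y)) := by
      rw [map_sum, map_sum]
      simp_rw [emb_rep3, pol_act]
      rw [Finset.sum_const, hz, pol_cat3, Finset.card_univ]
      rw [← Nat.cast_smul_eq_nsmul ℂ]
    rw [h, map_zero, map_zero] at h3
    have h4 := (smul_eq_zero.mp h3.symm)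
    rcases h4 with h4 | h4
    · rw [Nat.cast_eq_zero] at h4
      exact Fintype.card_ne_zero h4
    · exact mul_ne_zero hpx hpy h4
  · intro g
    rw [map_sum]
    simp_rw [← Module.End.mul_apply, ← map_mul]
    exact Fintype.sum_bijective (fun σ => g * σ) (Group.mulLeft_bijective g) _ _ (fun σ => rfl)

end Vale.Agent.P197
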