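import Mathlib

namespace Vale.Agent.P197

open Finset

variable {n : ℕ} {L : Type*} [DecidableEq L]

def cntL (i : L) (w : Fin n → L) : ℕ := (univ.filter fun p => w p = i).card

noncomputable def opE (i j : L) : ((Fin n → L) → ℂ) →ₗ[ℂ] ((Fin n → L) → ℂ) where
  toFun φ := fun w => ∑ p ∈ univ.filter (fun p => w p = i), φ (Function.update w p j)
  map_add' φ ψ := by
    funext w
    simp [Finset.sum_add_distrib]
  map_smul' a φ := by
    funext w
    simp [Finset.mul_sum]

theorem opE_apply (i j : L) (φ : (Fin n → L) → ℂ) (w : Fin n → L) :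
    opE i j φ w = ∑ p ∈ univ.filter (fun p => w p = i), φ (Function.update w p j) := rfl

theorem filter_update_ne {i j : L} (_ : i ≠ j) (w : Fin n → L) (p : Fin n) (_ : w p = j) :
    (univ.filter fun q => Function.update w p i q = i) =
      insert p (univ.filter fun q => w q = i) := by
  ext q
  by_cases h : q = p
  · subst h
    simp
  · simp [h]

theorem cntL_update_self {i j : L} (hij : i ≠ j) (w : Fin n → L) (p : Fin n) (hp : w p = j) :
    cntL i (Function.update w p i) = cntL i w + 1 := by
  unfold cntL
  rw [filter_update_ne hij w p hp, Finset.card_insert_of_notMem]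
  simp [hp, hij.symm]

theorem cntL_update_other {i j : L} (hij : i ≠ j) (w : Fin n → L) (p : Fin n) (hp : w p = j) :
    cntL j (Function.update w p i) + 1 = cntL j w := by
  have h := cntL_update_self (i := j) (j := i) hij.symm (Function.update w p i) p (by simp)
  rw [Function.update_idem] at h
  rw [← h]
  congr 1
  rw [← hp, Function.update_eq_self]

theorem cntL_update_ne {i j l : L} (hil : l ≠ i) (hjl : l ≠ j) (w : Fin n → L) (p : Fin n)
    (hp : w p = j) : cntL l (Function.update w p i) = cntL l w := by
  unfold cntL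
  congr 1
  ext q
  by_cases h : q = p
  · subst h
    simp [hil.symm, hp, hjl.symm]
  · simp [Function.update_of_ne h]

theorem opE_comm_aux {i j : L} (hij : i ≠ j) (φ : (Fin n → L) → ℂ) (w : Fin n → L) :
    opE j i (opE i j φ) w = (cntL j w : ℂ) * φ w +
      ∑ p ∈ univ.filter (fun p => w p = j), ∑ q ∈ univ.filter (fun q => w q = i),
        φ (Function.update (Function.update w p i) q j) := by
  rw [opE_apply]
  have : ∀ p ∈ univ.filter (fun p => w p = j), opE i j φ (Function.update w p i) =
      φ w + ∑ q ∈ univ.filter (fun q => w q = i),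
        φ (Function.update (Function.update w p i) q j) := by
    intro p hp
    simp only [mem_filter, mem_univ, true_and] at hp
    rw [opE_apply, filter_update_ne hij w p hp, Finset.sum_insert]
    · congr 2
      rw [Function.update_idem, ← hp, Function.update_eq_self]
    · simp [hp, hij.symm]
  rw [Finset.sum_congr rfl this, Finset.sum_add_distrib, Finset.sum_const, nsmul_eq_mul]
  rfl

theorem opE_comm {i j : L} (hij : i ≠ j) (φ : (Fin n → L) → ℂ) (w : Fin n → L) :
    opE j i (opE i j φ) w = opE i j (opE j i φ) w + ((cntL j w : ℂ) - cntL i w) * φ w := by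
  rw [opE_comm_aux hij, opE_comm_aux hij.symm]
  have : ∑ p ∈ univ.filter (fun p => w p = j), ∑ q ∈ univ.filter (fun q => w q = i),
        φ (Function.update (Function.update w p i) q j) =
      ∑ p ∈ univ.filter (fun p => w p = i), ∑ q ∈ univ.filter (fun q => w q = j),
        φ (Function.update (Function.update w p j) q i) := by
    rw [Finset.sum_comm]
    refine Finset.sum_congr rfl fun p hp => Finset.sum_congr rfl fun q hq => ?_
    simp only [mem_filter, mem_univ, true_and] at hp hq
    rw [Function.update_comm]
    rintro rfl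
    exact hij (hp.symm.trans hq)
  rw [this]
  ring

def SuppOn (i j : L) (a b : ℕ) (φ : (Fin n → L) → ℂ) : Prop :=
  ∀ w, φ w ≠ 0 → cntL i w = a ∧ cntL j w = b

theorem suppOn_opE {i j : L} (hij : i ≠ j) {a b : ℕ} {φ : (Fin n → L) → ℂ}
    (h : SuppOn i j a b φ) (w : Fin n → L) (hw : opE j i φ w ≠ 0) :
    cntL i w + 1 = a ∧ cntL j w = b + 1 := by
  rw [opE_apply] at hw
  obtain ⟨p, hp, hne⟩ := Finset.exists_ne_zero_of_sum_ne_zero hw
  simp only [mem_filter, mem_univ, true_and] at hp
  have := h _ hne
  rw [cntL_update_self hij w p hp] at this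
  have h2 := cntL_update_other hij w p hp
  omega

theorem opE_injective_aux {i j : L} (hij : i ≠ j) {a b : ℕ} {φ : (Fin n → L) → ℂ}
    (h : SuppOn i j a b φ) (hE : opE i j φ = 0) (k : ℕ) :
    (∀ w, ((opE j i)^[k] φ) w ≠ 0 → cntL i w + k = a ∧ cntL j w = b + k) ∧
    opE i j ((opE j i)^[k + 1] φ) =
      (-((k + 1 : ℂ) * ((b : ℂ) - a + k))) • (opE j i)^[k] φ := by
  induction k with
  | zero =>
    refine ⟨fun w hw => by simpa using h w hw, ?_⟩
    funext w
    have h1 := opE_comm hij φ w
    rw [hE] at h1
    simp only [map_zero, Pi.zero_apply] at h1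
    by_cases hw : φ w = 0
    · simp only [hw, mul_zero, add_zero] at h1
      simp [hw, ← h1]
    · obtain ⟨h2, h3⟩ := h w hw
      rw [h2, h3] at h1
      simp only [Function.iterate_succ, Function.iterate_zero, Function.comp_apply, id,
        Pi.smul_apply, smul_eq_mul, Nat.cast_zero]
      linear_combination -h1
  | succ k ih =>
    obtain ⟨ih1, ih2⟩ := ih
    have key : ∀ w, ((opE j i)^[k + 1] φ) w ≠ 0 → cntL i w + (k + 1) = a ∧
        cntL j w = b + (k + 1) := by
      intro w hw
      rw [Function.iterate_succ_apply', opE_apply] at hw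
      obtain ⟨p, hp, hne⟩ := Finset.exists_ne_zero_of_sum_ne_zero hw
      simp only [mem_filter, mem_univ, true_and] at hp
      have := ih1 _ hne
      rw [cntL_update_self hij w p hp] at this
      have h2 := cntL_update_other hij w p hp
      omega
    refine ⟨key, ?_⟩
    funext w
    have h1 := opE_comm hij ((opE j i)^[k + 1] φ) w
    rw [ih2, map_smul] at h1
    rw [Function.iterate_succ_apply' (opE j i) (k + 1)]
    rw [Pi.smul_apply] at h1
    rw [← Function.iterate_succ_apply' (opE j i) k] at h1
    simp only [Pi.smul_apply, smul_eq_mul] at h1 ⊢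
    by_cases hw : ((opE j i)^[k + 1] φ) w = 0
    · rw [hw] at h1 ⊢
      simp only [mul_zero, add_zero] at h1
      rw [← h1]
      simp
    · obtain ⟨h2, h3⟩ := key w hw
      have h2' : (cntL i w : ℂ) + (k + 1) = a := by exact_mod_cast h2
      have h3' : (cntL j w : ℂ) = b + (k + 1) := by exact_mod_cast h3
      push_cast
      linear_combination -h1 - ((opE j i)^[k + 1] φ) w * (h3' - h2')

theorem opE_injective {i j : L} (hij : i ≠ j) {a b : ℕ} {φ : (Fin n → L) → ℂ}
    (h : SuppOn i j a b φ) (hab : a < b) (hE : opE i j φ = 0) : φ = 0 := by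
  have key := opE_injective_aux hij h hE
  have h1 : (opE j i)^[a + 1] φ = 0 := by
    funext w
    by_contra hw
    have := (key (a + 1)).1 w hw
    omega
  have h2 : ∀ k, k ≤ a + 1 → (opE j i)^[a + 1 - k] φ = 0 := by
    intro k
    induction k with
    | zero => intro _; exact h1
    | succ k ih =>
      intro hk
      have h3 := ih (by omega)
      have h4 := (key (a + 1 - (k + 1))).2
      have h5 : a + 1 - (k + 1) + 1 = a + 1 - k := by omega
      rw [h5, h3, map_zero] at h4
      have h6 := (smul_eq_zero.mp h4.symm).resolve_left ?_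
      · exact h6
      · refine neg_ne_zero.mpr (mul_ne_zero ?_ ?_)
        · exact_mod_cast Nat.succ_ne_zero (a + 1 - (k + 1))
        · have : ((b : ℂ) - a + (a + 1 - (k + 1) : ℕ)) = ((b - a + (a + 1 - (k + 1)) : ℕ) : ℂ) := by
            push_cast [Nat.cast_sub hab.le]
            ring
          rw [this]
          exact_mod_cast (by omega : b - a + (a + 1 - (k + 1)) ≠ 0)
  have := h2 (a + 1) le_rfl
  simpa using this

end Vale.Agent.P197
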