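import Vale.Agent.P197.Transpose
import Vale.Agent.P197.Strict1

namespace Vale.Agent.P197

open Finset Equiv

variable {n : ℕ} {μ : YoungDiagram}

noncomputable def liftW (ψ : (Fin n → ℕ) → ℂ) : (Fin n → ℕ ⊕ ℕ) → ℂ := fun w =>
  if (∀ p, (w p).isLeft = true) then ψ (fun p => (w p).elim id id) else 0

def updW (S : Finset (ℕ × ℕ)) (w : Fin n → ℕ ⊕ ℕ) (σ : μ.cells ≃ Fin n) : Fin n → ℕ ⊕ ℕ :=
  fun p => if (σ.symm p).1 ∈ S then Sum.inl (σ.symm p).1.1 else w p

noncomputable def phiW (S : Finset (ℕ × ℕ)) (μ : YoungDiagram) (ψ : (Fin n → ℕ) → ℂ) :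
    (Fin n → ℕ ⊕ ℕ) → ℂ := fun w =>
  ∑ σ : μ.cells ≃ Fin n, if (∀ y : μ.cells, y.1 ∈ S → w (σ y) = Sum.inr y.1.2) then
    liftW ψ (updW S w σ) else 0

theorem phiW_step (S : Finset (ℕ × ℕ)) (ψ : (Fin n → ℕ) → ℂ) (x : μ.cells) (hx : x.1 ∉ S) :
    opE (Sum.inr x.1.2) (Sum.inl x.1.1) (phiW S μ ψ) =
      ((univ.filter fun z : μ.cells => z.1 ∉ S).card : ℂ) • phiW (insert x.1 S) μ ψ := by
  funext w
  rw [opE_apply]
  unfold phiW
  rw [Finset.sum_filter]
  have h1 : ∀ p : Fin n, (if w p = Sum.inr x.1.2 then
      ∑ σ : μ.cells ≃ Fin n, (if (∀ y : μ.cells, y.1 ∈ S →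
        Function.update w p (Sum.inl x.1.1) (σ y) = Sum.inr y.1.2) then
        liftW ψ (updW S (Function.update w p (Sum.inl x.1.1)) σ) else 0) else 0) =
      ∑ σ : μ.cells ≃ Fin n, (if w p = Sum.inr x.1.2 then (if (∀ y : μ.cells, y.1 ∈ S →
        Function.update w p (Sum.inl x.1.1) (σ y) = Sum.inr y.1.2) then
        liftW ψ (updW S (Function.update w p (Sum.inl x.1.1)) σ) else 0) else 0) := by
    intro p
    split_ifs <;> simp
  rw [Finset.sum_congr rfl fun p _ => h1 p, Finset.sum_comm]
  have h2 : ∀ σ : μ.cells ≃ Fin n, ∑ p : Fin n, (if w p = Sum.inr x.1.2 then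
      (if (∀ y : μ.cells, y.1 ∈ S →
        Function.update w p (Sum.inl x.1.1) (σ y) = Sum.inr y.1.2) then
        liftW ψ (updW S (Function.update w p (Sum.inl x.1.1)) σ) else 0) else 0) =
      ∑ z : μ.cells, (if w (σ z) = Sum.inr x.1.2 then
      (if (∀ y : μ.cells, y.1 ∈ S →
        Function.update w (σ z) (Sum.inl x.1.1) (σ y) = Sum.inr y.1.2) then
        liftW ψ (updW S (Function.update w (σ z) (Sum.inl x.1.1)) σ) else 0) else 0) := by
    intro σ
    exact (Equiv.sum_comp σ (fun p => (if w p = Sum.inr x.1.2 then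
      (if (∀ y : μ.cells, y.1 ∈ S →
        Function.update w p (Sum.inl x.1.1) (σ y) = Sum.inr y.1.2) then
        liftW ψ (updW S (Function.update w p (Sum.inl x.1.1)) σ) else 0) else 0))).symm
  rw [Finset.sum_congr rfl fun σ _ => h2 σ, Finset.sum_comm]
  have h3 : ∀ z : μ.cells, ∑ σ : μ.cells ≃ Fin n, (if w (σ z) = Sum.inr x.1.2 then
      (if (∀ y : μ.cells, y.1 ∈ S →
        Function.update w (σ z) (Sum.inl x.1.1) (σ y) = Sum.inr y.1.2) then
        liftW ψ (updW S (Function.update w (σ z) (Sum.inl x.1.1)) σ) else 0) else 0) =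
      if z.1 ∉ S then ∑ σ : μ.cells ≃ Fin n,
        (if (∀ y : μ.cells, y.1 ∈ insert x.1 S → w (σ y) = Sum.inr y.1.2) then
          liftW ψ (updW (insert x.1 S) w σ) else 0) else 0 := by
    intro z
    by_cases hz : z.1 ∈ S
    · rw [if_neg (not_not.mpr hz)]
      refine Finset.sum_eq_zero fun σ _ => ?_
      split_ifs with h4 h5
      · have := h5 z hz
        simp at this
      · rfl
      · rfl
    · rw [if_pos hz]
      have hcomp := Equiv.sum_comp (Equiv.equivCongr (Equiv.swap x z) (Equiv.refl (Fin n)))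
        (fun σ : μ.cells ≃ Fin n => (if w (σ z) = Sum.inr x.1.2 then
      (if (∀ y : μ.cells, y.1 ∈ S →
        Function.update w (σ z) (Sum.inl x.1.1) (σ y) = Sum.inr y.1.2) then
        liftW ψ (updW S (Function.update w (σ z) (Sum.inl x.1.1)) σ) else 0) else 0))
      rw [← hcomp]
      refine Finset.sum_congr rfl fun τ _ => ?_
      have e1 : (Equiv.equivCongr (Equiv.swap x z) (Equiv.refl (Fin n))) τ z = τ x := by
        simp [Equiv.equivCongr]
      have e2 : ∀ y : μ.cells, y.1 ∈ S →
          (Equiv.equivCongr (Equiv.swap x z) (Equiv.refl (Fin n))) τ y = τ y := by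
        intro y hy
        have hyx : y ≠ x := by rintro rfl; exact hx hy
        have hyz : y ≠ z := by rintro rfl; exact hz hy
        simp [Equiv.equivCongr, Equiv.swap_apply_of_ne_of_ne hyx hyz]
      have e3 : updW S (Function.update w (τ x) (Sum.inl x.1.1))
          ((Equiv.equivCongr (Equiv.swap x z) (Equiv.refl (Fin n))) τ) =
          updW (insert x.1 S) w τ := by
        funext p
        unfold updW
        have e4 : ((Equiv.equivCongr (Equiv.swap x z) (Equiv.refl (Fin n))) τ).symm p =
            Equiv.swap x z (τ.symm p) := by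
          simp [Equiv.equivCongr]
        rw [e4]
        by_cases hqx : τ.symm p = x
        · have hp : p = τ x := by rw [← hqx]; simp
          subst hp
          simp [hz]
        · have hpx : p ≠ τ x := by
            rintro rfl
            simp at hqx
          by_cases hqz : τ.symm p = z
          · rw [hqz, Equiv.swap_apply_right, if_neg hx, Function.update_of_ne hpx, if_neg]
            rw [Finset.mem_insert, not_or]
            refine ⟨?_, hz⟩
            intro h
            apply hqx
            rw [hqz]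
            exact Subtype.ext h
          · rw [Equiv.swap_apply_of_ne_of_ne hqx hqz, Function.update_of_ne hpx]
            have : (τ.symm p).1 ∈ insert x.1 S ↔ (τ.symm p).1 ∈ S := by
              rw [Finset.mem_insert]
              constructor
              · rintro (h | h)
                · exact absurd (Subtype.ext h) hqx
                · exact h
              · exact Or.inr
            simp only [this]
      rw [e1, e3]
      by_cases h6 : w (τ x) = Sum.inr x.1.2
      · rw [if_pos h6]
        congr 1
        apply propext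
        constructor
        · intro h y hy
          rw [Finset.mem_insert] at hy
          rcases hy with hy | hy
          · have : y = x := Subtype.ext hy
            rw [this]
            exact h6
          · have h7 := h y hy
            rw [e2 y hy, Function.update_of_ne] at h7
            · exact h7
            · intro h8
              have := τ.injective h8
              rw [this] at hy
              exact hx hy
        · intro h y hy
          rw [e2 y hy, Function.update_of_ne]
          · exact h y (Finset.mem_insert_of_mem hy)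
          · intro h8
            have := τ.injective h8
            rw [this] at hy
            exact hx hy
      · rw [if_neg h6, if_neg]
        intro h
        exact h6 (h x (Finset.mem_insert_self _ _))
  rw [Finset.sum_congr rfl fun z _ => h3 z, ← Finset.sum_filter, Finset.sum_const, nsmul_eq_mul,
    Pi.smul_apply, smul_eq_mul]

theorem liftW_inl (ψ : (Fin n → ℕ) → ℂ) (v : Fin n → ℕ) :
    liftW ψ (fun p => Sum.inl (v p)) = ψ v := by
  simp [liftW]

def permE (t : Fin n ≃ μ.cells) : Perm (Fin n) ≃ (μ.cells ≃ Fin n) where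
  toFun π := (π.trans t).symm
  invFun σ := σ.symm.trans t.symm
  left_inv π := by
    ext p : 1
    simp
  right_inv σ := by
    ext p : 1
    simp

theorem phiW_cells_apply (ψ : (Fin n → ℕ) → ℂ) (t : Fin n ≃ μ.cells) :
    phiW μ.cells μ ψ (fun p => Sum.inr (t p).1.2) = ∑ π ∈ colStab t, ψ (tabloid t ∘ π) := by
  unfold phiW
  have hcomp := Equiv.sum_comp (permE t) (fun σ : μ.cells ≃ Fin n =>
    if (∀ y : μ.cells, y.1 ∈ μ.cells → (Sum.inr (t (σ y)).1.2 : ℕ ⊕ ℕ) = Sum.inr y.1.2) then
    liftW ψ (updW μ.cells (fun p => Sum.inr (t p).1.2) σ) else 0)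
  rw [← hcomp]
  have h2 : ∑ π ∈ colStab t, ψ (tabloid t ∘ π) = ∑ π : Perm (Fin n),
      if π ∈ colStab t then ψ (tabloid t ∘ π) else 0 := by
    rw [Finset.sum_ite_mem, Finset.univ_inter]
  rw [h2]
  refine Finset.sum_congr rfl fun π _ => ?_
  have h3 : updW μ.cells (fun p => Sum.inr (t p).1.2) (permE t π) =
      fun p => Sum.inl ((tabloid t ∘ π) p) := by
    funext p
    unfold updW
    rw [if_pos (Subtype.property _)]
    rfl
  have hE : ∀ y : μ.cells, permE t π y = π.symm (t.symm y) := fun _ => rfl
  rw [h3, liftW_inl]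
  congr 1
  apply propext
  rw [mem_colStab]
  constructor
  · intro h p
    have := h (t (π p)) (Subtype.property _)
    simp only [Sum.inr.injEq] at this
    rw [hE] at this
    simpa using this.symm
  · intro h y _
    have := h (π.symm (t.symm y))
    simp only [Sum.inr.injEq]
    rw [hE]
    simpa using this.symm

theorem phiW_cells_eq_zero (ψ : (Fin n → ℕ) → ℂ)
    (h : ∀ t : Fin n ≃ μ.cells, ∑ π ∈ colStab t, ψ (tabloid t ∘ π) = 0) :
    phiW μ.cells μ ψ = 0 := by
  funext w
  by_contra hne
  have hne' : phiW μ.cells μ ψ w ≠ 0 := hne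
  have := hne'
  unfold phiW at this
  obtain ⟨σ, _, hσ⟩ := Finset.exists_ne_zero_of_sum_ne_zero this
  split_ifs at hσ with h1
  · have hw : w = fun p => Sum.inr (σ.symm p).1.2 := by
      funext p
      have := h1 (σ.symm p) (Subtype.property _)
      simpa using this
    apply hne'
    rw [hw, phiW_cells_apply, h]
  · exact hσ rfl

theorem phiW_empty (ψ : (Fin n → ℕ) → ℂ) (hcard : μ.card = n) (h : phiW ∅ μ ψ = 0) : ψ = 0 := by
  funext v
  have h1 := congrFun h (fun p => Sum.inl (v p))
  unfold phiW at h1
  have h2 : ∀ σ : μ.cells ≃ Fin n, (if (∀ y : μ.cells, y.1 ∈ (∅ : Finset (ℕ × ℕ)) →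
      (Sum.inl (v (σ y)) : ℕ ⊕ ℕ) = Sum.inr y.1.2) then
      liftW ψ (updW ∅ (fun p => Sum.inl (v p)) σ) else 0) = ψ v := by
    intro σ
    rw [if_pos (by simp)]
    have : updW ∅ (fun p => Sum.inl (v p)) σ = fun p => Sum.inl (v p) := by
      funext p
      simp [updW]
    rw [this, liftW_inl]
  rw [Finset.sum_congr rfl fun σ _ => h2 σ, Finset.sum_const, nsmul_eq_mul] at h1
  have h3 : 0 < (univ : Finset (μ.cells ≃ Fin n)).card := by
    rw [Finset.card_pos]
    have : μ.cells.card = n := hcard
    exact ⟨μ.cells.equivFin.trans (finCongr this), Finset.mem_univ _⟩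
  have h4 := mul_eq_zero.mp h1
  rcases h4 with h4 | h4
  · exfalso
    have : (univ : Finset (μ.cells ≃ Fin n)).card = 0 := by exact_mod_cast h4
    omega
  · exact h4

end Vale.Agent.P197
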