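import Vale.Agent.P197.Strict2

namespace Vale.Agent.P197

open Finset Equiv

variable {n : ℕ} {μ : YoungDiagram}

def HasContent (f : ℕ → ℕ) (ψ : (Fin n → ℕ) → ℂ) : Prop :=
  ∀ w, ψ w ≠ 0 → ∀ r, cntL r w = f r

theorem phiW_support {S : Finset (ℕ × ℕ)} (hS : S ⊆ μ.cells) {ψ : (Fin n → ℕ) → ℂ}
    {f : ℕ → ℕ} (hψ : HasContent f ψ) {w : Fin n → ℕ ⊕ ℕ} (hw : phiW S μ ψ w ≠ 0) (r c : ℕ) :
    cntL (Sum.inr c) w = (S.filter fun y => y.2 = c).card ∧
      cntL (Sum.inl r) w + (S.filter fun y => y.1 = r).card = f r := by
  unfold phiW at hw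
  obtain ⟨σ, _, hσ⟩ := Finset.exists_ne_zero_of_sum_ne_zero hw
  split_ifs at hσ with h1
  swap
  · exact absurd rfl hσ
  unfold liftW at hσ
  split_ifs at hσ with h2
  swap
  · exact absurd rfl hσ
  have h3 := hψ _ hσ
  have hout : ∀ p, (σ.symm p).1 ∉ S → (w p).isLeft = true := by
    intro p hp
    have := h2 p
    unfold updW at this
    rwa [if_neg hp] at this
  have hin : ∀ y : μ.cells, y.1 ∈ S → w (σ y) = Sum.inr y.1.2 := h1
  have hin' : ∀ p, (σ.symm p).1 ∈ S → w p = Sum.inr (σ.symm p).1.2 := by
    intro p hp
    have := hin (σ.symm p) hp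
    rwa [Equiv.apply_symm_apply] at this
  constructor
  · unfold cntL
    refine Finset.card_bij (fun p _ => (σ.symm p).1) ?_ ?_ ?_
    · intro p hp
      simp only [mem_filter, mem_univ, true_and] at hp
      have hpS : (σ.symm p).1 ∈ S := by
        by_contra hn
        have := hout p hn
        rw [hp] at this
        simp at this
      rw [mem_filter]
      refine ⟨hpS, ?_⟩
      have := hin' p hpS
      rw [hp] at this
      simpa using this.symm
    · intro a _ b _ hab
      exact σ.symm.injective (Subtype.ext hab)
    · intro y hy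
      rw [mem_filter] at hy
      refine ⟨σ ⟨y, hS hy.1⟩, ?_, by simp⟩
      simp only [mem_filter, mem_univ, true_and]
      rw [hin ⟨y, hS hy.1⟩ hy.1, hy.2]
  · rw [← h3 r]
    unfold cntL
    have h4 : (univ.filter fun p => (updW S w σ p).elim id id = r) =
        (univ.filter fun p => w p = Sum.inl r) ∪
          (univ.filter fun p => (σ.symm p).1 ∈ S ∧ (σ.symm p).1.1 = r) := by
      ext p
      simp only [mem_filter, mem_univ, true_and, mem_union]
      by_cases hp : (σ.symm p).1 ∈ S
      · have := hin' p hp
        simp [updW, hp, this]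
      · have h5 := hout p hp
        obtain ⟨v, hv⟩ := Sum.isLeft_iff.mp h5
        simp [updW, hp, hv]
    rw [h4, Finset.card_union_of_disjoint]
    · congr 1
      symm
      refine Finset.card_bij (fun p _ => (σ.symm p).1) ?_ ?_ ?_
      · intro p hp
        simp only [mem_filter, mem_univ, true_and] at hp
        rw [mem_filter]
        exact hp
      · intro a _ b _ hab
        exact σ.symm.injective (Subtype.ext hab)
      · intro y hy
        rw [mem_filter] at hy
        refine ⟨σ ⟨y, hS hy.1⟩, ?_, by simp⟩
        simp only [mem_filter, mem_univ, true_and, Equiv.symm_apply_apply]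
        exact hy
    · rw [Finset.disjoint_left]
      intro p hp hp'
      simp only [mem_filter, mem_univ, true_and] at hp hp'
      have := hin' p hp'.1
      rw [hp] at this
      simp at this

def Before (y x : ℕ × ℕ) : Prop := y.2 < x.2 ∨ (y.2 = x.2 ∧ x.1 < y.1)

theorem strict_len (hstrict : ∀ i, 0 < μ.rowLen (i + 1) → μ.rowLen (i + 1) < μ.rowLen i)
    (d r c : ℕ) (h : c < μ.rowLen (r + d)) : c + d < μ.rowLen r := by
  induction d generalizing c with
  | zero => simpa using h
  | succ d ih =>
    have h1 := hstrict (r + d) (by rw [add_assoc]; omega)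
    rw [add_assoc] at h1
    have := ih (c + 1) (by omega)
    omega

theorem phiW_injective (hcard : μ.card = n)
    (hstrict : ∀ i, 0 < μ.rowLen (i + 1) → μ.rowLen (i + 1) < μ.rowLen i)
    {ψ : (Fin n → ℕ) → ℂ} (hψ : HasContent μ.rowLen ψ) (N : ℕ) :
    ∀ S : Finset (ℕ × ℕ), S.card = N → S ⊆ μ.cells →
      (∀ x ∈ S, ∀ y ∈ μ.cells, Before y x → y ∈ S) → phiW S μ ψ = 0 → ψ = 0 := by
  induction N with
  | zero =>
    intro S hS _ _ h
    rw [Finset.card_eq_zero] at hS
    subst hS
    exact phiW_empty ψ hcard h
  | succ N ih =>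
    intro S hS hsub hclosed h
    have hne : S.Nonempty := by
      rw [← Finset.card_pos]
      omega
    obtain ⟨x, hxS, hmax⟩ := S.exists_max_image
      (fun y => (toLex (y.2, OrderDual.toDual y.1) : ℕ ×ₗ ℕᵒᵈ)) hne
    have hmax' : ∀ y ∈ S, y ≠ x → Before y x := by
      intro y hy hyx
      have := hmax y hy
      rw [Prod.Lex.toLex_le_toLex] at this
      rcases this with h1 | ⟨h1, h2⟩
      · exact Or.inl h1
      · right
        refine ⟨h1, ?_⟩
        have h3 : x.1 ≤ y.1 := h2
        rcases h3.lt_or_eq with h4 | h4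
        · exact h4
        · exact absurd (Prod.ext h4.symm h1) hyx
    have hxc : x ∈ μ.cells := hsub hxS
    have hnot : x ∉ S.erase x := Finset.notMem_erase x S
    have hbefore : ∀ y, y ∈ S.erase x ↔ y ∈ μ.cells ∧ Before y x := by
      intro y
      rw [Finset.mem_erase]
      constructor
      · rintro ⟨h1, h2⟩
        exact ⟨hsub h2, hmax' y h2 h1⟩
      · rintro ⟨h1, h2⟩
        refine ⟨?_, hclosed x hxS y h1 h2⟩
        rintro rfl
        rcases h2 with h3 | ⟨_, h3⟩ <;> omega
    apply ih (S.erase x)
    · rw [Finset.card_erase_of_mem hxS]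
      omega
    · exact (Finset.erase_subset _ _).trans hsub
    · intro z hz y hy hyz
      rw [hbefore] at hz ⊢
      refine ⟨hy, ?_⟩
      have h1 := hz.2
      unfold Before at h1 hyz ⊢
      omega
    · have hstep := phiW_step (n := n) (S.erase x) ψ ⟨x, hxc⟩ hnot
      rw [Finset.insert_erase hxS, h, smul_zero] at hstep
      have hrow : x.2 < μ.rowLen x.1 := by
        rw [← YoungDiagram.mem_iff_lt_rowLen]
        exact hxc
      refine opE_injective (i := Sum.inr x.2) (j := Sum.inl x.1) (by simp)
        (a := ((S.erase x).filter fun y => y.2 = x.2).card)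
        (b := μ.rowLen x.1 - ((S.erase x).filter fun y => y.1 = x.1).card) ?_ ?_ hstep
      · intro w hw
        have := phiW_support ((Finset.erase_subset _ _).trans hsub) hψ hw x.1 x.2
        omega
      · have h1 : ((S.erase x).filter fun y => y.2 = x.2).card ≤ μ.rowLen x.1 - x.2 - 1 := by
          rw [← Finset.card_range (μ.rowLen x.1 - x.2 - 1)]
          refine Finset.card_le_card_of_injOn (fun y => y.1 - x.1 - 1) ?_ ?_
          · intro y hy
            simp only [Finset.coe_filter, Set.mem_setOf_eq] at hy
            obtain ⟨hy1, hy2⟩ := hy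
            rw [hbefore] at hy1
            obtain ⟨hy3, hy4⟩ := hy1
            have hlt : x.1 < y.1 := by
              rcases hy4 with h5 | ⟨_, h5⟩
              · omega
              · exact h5
            have hy5 : y.2 < μ.rowLen y.1 := by
              rw [← YoungDiagram.mem_iff_lt_rowLen]
              exact hy3
            have h6 := strict_len hstrict (y.1 - x.1) x.1 x.2 (by
              rw [Nat.add_sub_cancel' hlt.le, ← hy2]
              exact hy5)
            simp only [Finset.coe_range, Set.mem_Iio]
            omega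
          · intro y hy z hz hyz
            simp only [Finset.coe_filter, Set.mem_setOf_eq] at hy hz
            obtain ⟨hy1, hy2⟩ := hy
            obtain ⟨hz1, hz2⟩ := hz
            rw [hbefore] at hy1 hz1
            have hlt : x.1 < y.1 := by
              rcases hy1.2 with h5 | ⟨_, h5⟩
              · omega
              · exact h5
            have hlt' : x.1 < z.1 := by
              rcases hz1.2 with h5 | ⟨_, h5⟩
              · omega
              · exact h5
            simp only at hyz
            exact Prod.ext (by omega) (by rw [hy2, hz2])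
        have h2 : ((S.erase x).filter fun y => y.1 = x.1).card ≤ x.2 := by
          rw [← Finset.card_range x.2]
          refine Finset.card_le_card_of_injOn (fun y => y.2) ?_ ?_
          · intro y hy
            simp only [Finset.coe_filter, Set.mem_setOf_eq] at hy
            obtain ⟨hy1, hy2⟩ := hy
            rw [hbefore] at hy1
            simp only [Finset.coe_range, Set.mem_Iio]
            rcases hy1.2 with h5 | ⟨_, h5⟩ <;> omega
          · intro y hy z hz hyz
            simp only [Finset.coe_filter, Set.mem_setOf_eq] at hy hz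
            exact Prod.ext (by rw [hy.2, hz.2]) hyz
        omega

theorem exists_colSum_ne_zero (hcard : μ.card = n)
    (hstrict : ∀ i, 0 < μ.rowLen (i + 1) → μ.rowLen (i + 1) < μ.rowLen i)
    {ψ : (Fin n → ℕ) → ℂ} (hψ : HasContent μ.rowLen ψ) (hne : ψ ≠ 0) :
    ∃ t : Fin n ≃ μ.cells, ∑ π ∈ colStab t, ψ (tabloid t ∘ π) ≠ 0 := by
  by_contra hcon
  push Not at hcon
  apply hne
  exact phiW_injective hcard hstrict hψ _ μ.cells rfl (Finset.Subset.refl _)
    (fun _ _ y hy _ => hy) (phiW_cells_eq_zero ψ hcon)

end Vale.Agent.P197
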