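import Vale.Agent.P197.Strict3

namespace Vale.Agent.P197

open Finset Equiv

variable {n : ℕ}

theorem opE_equivariant {L : Type*} [DecidableEq L] (i j : L) (σ : Perm (Fin n))
    (φ : (Fin n → L) → ℂ) :
    opE i j (fun w => φ (w ∘ σ)) = fun w => opE i j φ (w ∘ σ) := by
  funext w
  rw [opE_apply, opE_apply]
  refine Finset.sum_bij (fun p _ => σ.symm p) ?_ ?_ ?_ ?_
  · intro p hp
    simpa using hp
  · intro a _ b _ hab
    exact σ.symm.injective hab
  · intro q hq
    exact ⟨σ q, by simpa using hq, by simp⟩
  · intro p _
    congr 1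
    funext q
    simp only [Function.comp_apply, Function.update_apply, Equiv.eq_symm_apply]

def IsEmbed (n : ℕ) (f g : ℕ → ℕ)
    (ι : ((Fin n → ℕ) → ℂ) →ₗ[ℂ] ((Fin n → ℕ) → ℂ)) : Prop :=
  (∀ (σ : Perm (Fin n)) φ, ι (fun w => φ (w ∘ σ)) = fun w => ι φ (w ∘ σ)) ∧
    ∀ φ, HasContent f φ → HasContent g (ι φ) ∧ (ι φ = 0 → φ = 0)

theorem hasContent_opE {f : ℕ → ℕ} {i j : ℕ} (hij : i ≠ j) (hi : 0 < f i)
    {φ : (Fin n → ℕ) → ℂ} (h : HasContent f φ) :
    HasContent (fun l => if l = i then f i - 1 else if l = j then f j + 1 else f l)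
      (opE j i φ) := by
  intro w hw l
  rw [opE_apply] at hw
  obtain ⟨p, hp, hne⟩ := Finset.exists_ne_zero_of_sum_ne_zero hw
  simp only [mem_filter, mem_univ, true_and] at hp
  have h1 := h _ hne
  by_cases hl : l = i
  · subst hl
    have h2 := h1 l
    rw [cntL_update_self hij w p hp] at h2
    simp
    omega
  · by_cases hl' : l = j
    · subst hl'
      have h2 := h1 l
      have h3 := cntL_update_other hij w p hp
      simp [hl]
      omega
    · have h2 := h1 l
      rw [cntL_update_ne hl hl' w p hp] at h2
      simp [hl, hl', h2]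

theorem sum_move {f : ℕ → ℕ} {i j : ℕ} (hij : i < j) (hi : 0 < f i) (s : ℕ) :
    ∑ l ∈ range s, (if l = i then f i - 1 else if l = j then f j + 1 else f l) +
      (if i < s then 1 else 0) = ∑ l ∈ range s, f l + (if j < s then 1 else 0) := by
  induction s with
  | zero => simp
  | succ s ih =>
    rw [Finset.sum_range_succ, Finset.sum_range_succ]
    by_cases h1 : s = i
    · subst h1
      have h2 : ¬ j < s + 1 := by omega
      have h3 : ¬ j < s := by omega
      simp only [if_true, lt_irrefl, if_false, if_neg h2, if_neg h3, Nat.lt_succ_self,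
        add_zero] at ih ⊢
      omega
    · by_cases h2 : s = j
      · subst h2
        have h3 : i < s + 1 := by omega
        have h4 : i < s := by omega
        simp only [if_true, lt_irrefl, if_false, if_pos h3, if_pos h4, Nat.lt_succ_self,
          add_zero, if_neg h1] at ih ⊢
        omega
      · have h3 : i < s + 1 ↔ i < s := by omega
        have h4 : j < s + 1 ↔ j < s := by omega
        simp only [h3, h4, if_neg h1, if_neg h2]
        omega

theorem exists_embed {g : ℕ → ℕ} (hg : Antitone g) {N : ℕ} (hgN : ∀ i, N ≤ i → g i = 0)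
    (M : ℕ) : ∀ f : ℕ → ℕ, ∑ s ∈ range (N + 1), ∑ i ∈ range s, f i = M →
      (∀ r, ∑ i ∈ range r, g i ≤ ∑ i ∈ range r, f i) → (∀ i, N ≤ i → f i = 0) →
      ∑ i ∈ range N, f i = ∑ i ∈ range N, g i → ∃ ι, IsEmbed n f g ι := by
  induction M using Nat.strong_induction_on with
  | _ M ih =>
    intro f hM hdom hfN htot
    by_cases hall : ∀ r, ∑ i ∈ range r, f i = ∑ i ∈ range r, g i
    · have hfg : f = g := by
        funext r
        have h1 := hall r
        have h2 := hall (r + 1)
        rw [Finset.sum_range_succ, Finset.sum_range_succ] at h2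
        omega
      subst hfg
      exact ⟨LinearMap.id, fun _ _ => rfl, fun φ hφ => ⟨hφ, fun h => h⟩⟩
    · push Not at hall
      have hex : ∃ r, ∑ i ∈ range r, g i < ∑ i ∈ range r, f i := by
        obtain ⟨r, hr⟩ := hall
        exact ⟨r, lt_of_le_of_ne (hdom r) hr.symm⟩
      classical
      obtain ⟨r0, hr0, hr0min⟩ : ∃ r0, ∑ i ∈ range r0, g i < ∑ i ∈ range r0, f i ∧
          ∀ s < r0, ¬ ∑ i ∈ range s, g i < ∑ i ∈ range s, f i :=
        ⟨Nat.find hex, Nat.find_spec hex, fun s hs => Nat.find_min hex hs⟩
      have hr0pos : r0 ≠ 0 := by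
        rintro rfl
        simp at hr0
      obtain ⟨i, rfl⟩ := Nat.exists_eq_succ_of_ne_zero hr0pos
      have heqN : ∀ s, N ≤ s → ∑ i ∈ range s, f i = ∑ i ∈ range s, g i := by
        intro s hs
        rw [← Finset.sum_range_add_sum_Ico f hs, ← Finset.sum_range_add_sum_Ico g hs, htot]
        congr 1
        rw [Finset.sum_eq_zero, Finset.sum_eq_zero]
        · intro x hx
          exact hgN x (Finset.mem_Ico.mp hx).1
        · intro x hx
          exact hfN x (Finset.mem_Ico.mp hx).1
      have hex2 : ∃ s, i + 1 < s ∧ ∑ l ∈ range s, f l = ∑ l ∈ range s, g l :=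
        ⟨N + i + 2, by omega, heqN _ (by omega)⟩
      obtain ⟨s0, hs0, hs0min⟩ : ∃ s0, (i + 1 < s0 ∧ ∑ l ∈ range s0, f l =
          ∑ l ∈ range s0, g l) ∧ ∀ s < s0, ¬ (i + 1 < s ∧ ∑ l ∈ range s, f l =
          ∑ l ∈ range s, g l) :=
        ⟨Nat.find hex2, Nat.find_spec hex2, fun s hs => Nat.find_min hex2 hs⟩
      obtain ⟨j, rfl⟩ : ∃ j, s0 = j + 1 := ⟨s0 - 1, by omega⟩
      have hij : i < j := by omega
      have hmid : ∀ s, i < s → s ≤ j → ∑ l ∈ range s, g l < ∑ l ∈ range s, f l := by
        intro s h1 h2
        rcases Nat.lt_or_ge (i + 1) s with h3 | h3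
        · have := hs0min s (by omega)
          rw [not_and] at this
          exact lt_of_le_of_ne (hdom s) (fun h => this h3 h.symm)
        · have : s = i + 1 := by omega
          rw [this]
          exact hr0
      have hFi : ∑ l ∈ range i, f l = ∑ l ∈ range i, g l := by
        have := hr0min i (Nat.lt_succ_self i)
        have h2 := hdom i
        omega
      have hfi : g i < f i := by
        have h1 := hmid (i + 1) (by omega) (by omega)
        rw [Finset.sum_range_succ, Finset.sum_range_succ] at h1
        omega
      have hfj : f j < g j := by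
        have h1 := hmid j hij le_rfl
        have h2 := hs0.2
        rw [Finset.sum_range_succ, Finset.sum_range_succ] at h2
        omega
      have hgij : g j ≤ g i := hg hij.le
      have hjN : j < N := by
        by_contra hcon
        have := hgN j (by omega)
        omega
      let f' : ℕ → ℕ := fun l => if l = i then f i - 1 else if l = j then f j + 1 else f l
      have hsum : ∀ s, ∑ l ∈ range s, f' l + (if i < s then 1 else 0) =
          ∑ l ∈ range s, f l + (if j < s then 1 else 0) :=
        fun s => sum_move hij (by omega) s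
      have hle : ∀ s, ∑ l ∈ range s, f' l ≤ ∑ l ∈ range s, f l := by
        intro s
        have := hsum s
        split_ifs at this <;> omega
      have hlt : ∑ s ∈ range (N + 1), ∑ l ∈ range s, f' l < M := by
        rw [← hM]
        refine Finset.sum_lt_sum (fun s _ => hle s) ⟨i + 1, ?_, ?_⟩
        · rw [Finset.mem_range]
          omega
        · have := hsum (i + 1)
          rw [if_pos (by omega), if_neg (by omega)] at this
          omega
      obtain ⟨ι, hι1, hι2⟩ := ih _ hlt f' rfl (by
        intro r
        have h1 := hsum r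
        have h2 := hdom r
        by_cases h3 : i < r
        · by_cases h4 : j < r
          · rw [if_pos h3, if_pos h4] at h1
            omega
          · rw [if_pos h3, if_neg h4] at h1
            have := hmid r h3 (by omega)
            omega
        · rw [if_neg h3] at h1
          omega) (by
        intro l hl
        have h1 : l ≠ i := by omega
        have h2 : l ≠ j := by omega
        simp only [f', if_neg h1, if_neg h2]
        exact hfN l hl) (by
        rw [← htot]
        have := hsum N
        rw [if_pos (by omega), if_pos (by omega)] at this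
        omega)
      refine ⟨ι.comp (opE j i), ?_, ?_⟩
      · intro σ φ
        rw [LinearMap.comp_apply, opE_equivariant, hι1]
        rfl
      · intro φ hφ
        have h1 : HasContent f' (opE j i φ) := hasContent_opE hij.ne (by omega) hφ
        obtain ⟨h2, h3⟩ := hι2 _ h1
        refine ⟨h2, fun h => ?_⟩
        have h4 := h3 h
        exact opE_injective (i := j) (j := i) hij.ne' (a := f j) (b := f i)
          (fun w hw => ⟨hφ w hw j, hφ w hw i⟩) (by omega) h4

end Vale.Agent.P197
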