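import Vale.Agent.P197.Strict4
import Vale.Agent.P197.Glue

namespace Vale.Agent.P197

open Finset Equiv

variable {n : ℕ} {μ ν : YoungDiagram}

theorem cntL_tabloid (t : Fin n ≃ ν.cells) (π : Perm (Fin n)) (r : ℕ) :
    cntL r (tabloid t ∘ π) = ν.rowLen r := by
  rw [YoungDiagram.rowLen_eq_card]
  unfold cntL
  refine Finset.card_bij (fun p _ => (t (π p)).1) ?_ ?_ ?_
  · intro p hp
    rw [Finset.mem_filter] at hp
    rw [YoungDiagram.mem_row_iff]
    exact ⟨(t (π p)).2, hp.2⟩
  · intro a _ b _ hab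
    exact π.injective (t.injective (Subtype.ext hab))
  · intro y hy
    rw [YoungDiagram.mem_row_iff] at hy
    refine ⟨π.symm (t.symm ⟨y, hy.1⟩), ?_, by simp⟩
    rw [Finset.mem_filter]
    refine ⟨Finset.mem_univ _, ?_⟩
    rw [Function.comp_apply, Equiv.apply_symm_apply]
    unfold tabloid
    rw [Equiv.apply_symm_apply]
    exact hy.2

theorem hasContent_specht {x : (Fin n → ℕ) →₀ ℂ} (hx : x ∈ (specht n ν).toSubmodule) :
    HasContent ν.rowLen (x : (Fin n → ℕ) → ℂ) := by
  have hx' : x ∈ Submodule.span ℂ (Set.range (polytabloid (n := n) (μ := ν))) := hx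
  induction hx' using Submodule.span_induction with
  | mem x h =>
    obtain ⟨t, rfl⟩ := h
    intro w hw r
    rw [polytabloid_apply] at hw
    obtain ⟨π, _, hπ⟩ := Finset.exists_ne_zero_of_sum_ne_zero hw
    split_ifs at hπ with h1
    · rw [← h1]
      exact cntL_tabloid t π.symm r
    · exact absurd rfl hπ
  | zero => intro w hw; simp at hw
  | add x y hx1 hy1 hx2 hy2 =>
    intro w hw r
    by_cases h1 : x w = 0
    · have h2 : y w ≠ 0 := by
        intro h2
        apply hw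
        rw [Finsupp.add_apply, h1, h2, add_zero]
      exact hy2 hy1 w h2 r
    · exact hx2 hx1 w h1 r
  | smul a x hx1 hx2 =>
    intro w hw r
    apply hx2 hx1 w
    intro h
    apply hw
    rw [Finsupp.smul_apply, h, smul_zero]

theorem wordRep_apply (σ : Perm (Fin n)) (x : (Fin n → ℕ) →₀ ℂ) (w : Fin n → ℕ) :
    wordRep n σ x w = x (w ∘ σ) := by
  have hinj : Function.Injective (fun w : Fin n → ℕ => w ∘ σ.symm) := by
    intro a b hab
    funext p
    have := congrFun hab (σ p)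
    simpa using this
  have h : w = (fun w : Fin n → ℕ => w ∘ σ.symm) (w ∘ σ) := by
    funext p
    simp
  conv_lhs => rw [h]
  exact Finsupp.mapDomain_apply hinj x (w ∘ σ)

theorem polytabloid_self (t : Fin n ≃ ν.cells) : polytabloid t (tabloid t) = 1 := by
  rw [polytabloid_apply, Finset.sum_eq_single 1]
  · rw [if_pos]
    · simp
    · funext p
      rfl
  · intro π hπ hne
    rw [if_neg]
    intro h
    apply hne
    rw [mem_colStab] at hπ
    ext p : 1
    apply t.injective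
    apply Subtype.ext
    apply Prod.ext
    · have := congrFun h (π p)
      simpa [tabloid] using this.symm
    · exact hπ p
  · intro h
    exfalso
    apply h
    rw [mem_colStab]
    intro p
    rfl

noncomputable def wset (n : ℕ) (μ : YoungDiagram) : Finset (Fin n → ℕ) :=
  Fintype.piFinset fun _ => Finset.range (μ.colLen 0)

theorem mem_wset {w : Fin n → ℕ} : w ∈ wset n μ ↔ ∀ p, w p < μ.colLen 0 := by
  simp [wset]

noncomputable def evW (n : ℕ) (μ : YoungDiagram) (w : Fin n → ℕ) : SV n μ →ₗ[ℂ] ℂ :=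
  (Finsupp.lapply w).comp (specht n μ).toSubmodule.subtype

noncomputable def toFunL (n : ℕ) (ν : YoungDiagram) : SV n ν →ₗ[ℂ] ((Fin n → ℕ) → ℂ) :=
  (Finsupp.lcoeFun).comp (specht n ν).toSubmodule.subtype

noncomputable def formT (n : ℕ) (μ ν : YoungDiagram)
    (ι : ((Fin n → ℕ) → ℂ) →ₗ[ℂ] ((Fin n → ℕ) → ℂ)) :
    SV n μ →ₗ[ℂ] SV n μ →ₗ[ℂ] SV n ν →ₗ[ℂ] ℂ :=
  ∑ w ∈ wset n μ, (evW n μ w).smulRight ((evW n μ w).smulRight
    ((LinearMap.proj w).comp (ι.comp (toFunL n ν))))

theorem formT_apply (ι : ((Fin n → ℕ) → ℂ) →ₗ[ℂ] ((Fin n → ℕ) → ℂ)) (a b : SV n μ)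
    (c : SV n ν) : formT n μ ν ι a b c =
      ∑ w ∈ wset n μ, a.1 w * (b.1 w * ι (c.1 : (Fin n → ℕ) → ℂ) w) := by
  unfold formT
  rw [LinearMap.sum_apply, LinearMap.sum_apply, LinearMap.sum_apply]
  rfl

theorem formT_invariant (ι : ((Fin n → ℕ) → ℂ) →ₗ[ℂ] ((Fin n → ℕ) → ℂ))
    (hι : ∀ (σ : Perm (Fin n)) φ, ι (fun w => φ (w ∘ σ)) = fun w => ι φ (w ∘ σ))
    (σ : Perm (Fin n)) (a b : SV n μ) (c : SV n ν) :
    formT n μ ν ι (rep n μ σ a) (rep n μ σ b) (rep n ν σ c) = formT n μ ν ι a b c := by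
  rw [formT_apply, formT_apply]
  have h1 : ∀ w, (rep n μ σ a).1 w = a.1 (w ∘ σ) := fun w => wordRep_apply σ a.1 w
  have h2 : ∀ w, (rep n μ σ b).1 w = b.1 (w ∘ σ) := fun w => wordRep_apply σ b.1 w
  have h3 : ((rep n ν σ c).1 : (Fin n → ℕ) → ℂ) = fun w => c.1 (w ∘ σ) := by
    funext w
    exact wordRep_apply σ c.1 w
  simp_rw [h1, h2, h3, hι]
  refine Finset.sum_bij (fun w _ => w ∘ σ) ?_ ?_ ?_ ?_
  · intro w hw
    rw [mem_wset] at hw ⊢
    intro p
    exact hw _
  · intro w _ w' _ h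
    funext p
    have := congrFun h (σ.symm p)
    simpa using this
  · intro w hw
    rw [mem_wset] at hw
    refine ⟨w ∘ σ.symm, ?_, ?_⟩
    · rw [mem_wset]
      intro p
      exact hw _
    · funext p
      simp
  · intro w _
    rfl

theorem polytabloid_sq (t : Fin n ≃ μ.cells) (ψ : (Fin n → ℕ) → ℂ) :
    ∑ w ∈ wset n μ, polytabloid t w * (polytabloid t w * ψ w) =
      ∑ π ∈ colStab t, ψ (tabloid t ∘ π) := by
  have hinj : ∀ π ∈ colStab t, ∀ π' ∈ colStab t, tabloid t ∘ π = tabloid t ∘ π' → π = π' := by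
    intro π hπ π' hπ' h
    rw [mem_colStab] at hπ hπ'
    ext p : 1
    apply t.injective
    apply Subtype.ext
    apply Prod.ext
    · exact congrFun h p
    · rw [hπ, hπ']
  have hsub : (colStab t).image (fun π : Perm (Fin n) => tabloid t ∘ π) ⊆ wset n μ := by
    intro w hw
    rw [Finset.mem_image] at hw
    obtain ⟨π, _, rfl⟩ := hw
    rw [mem_wset]
    intro p
    rw [← YoungDiagram.mem_iff_lt_colLen]
    exact μ.up_left_mem le_rfl (Nat.zero_le _) (t (π p)).2
  rw [← Finset.sum_subset hsub, Finset.sum_image]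
  · refine Finset.sum_congr rfl fun π hπ => ?_
    have h1 : polytabloid t (tabloid t ∘ π) = ((Perm.sign π : ℤ) : ℂ) := by
      rw [polytabloid_apply, Finset.sum_eq_single π⁻¹]
      · have h0 : tabloid t ∘ (π⁻¹ : Perm (Fin n)).symm = tabloid t ∘ π := rfl
        rw [if_pos h0, map_inv, Int.units_inv_eq_self]
      · intro π' hπ' hne
        rw [if_neg]
        intro h
        apply hne
        have := hinj _ (inv_mem_colStab hπ') _ hπ h
        rw [← this, inv_inv]
      · intro h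
        exact absurd (inv_mem_colStab hπ) h
    rw [h1, ← mul_assoc, sign_mul_sign, one_mul]
  · intro π hπ π' hπ' h
    exact hinj π hπ π' hπ' h
  · intro w _ hw
    have : polytabloid t w = 0 := by
      rw [polytabloid_apply]
      refine Finset.sum_eq_zero fun π hπ => ?_
      rw [if_neg]
      intro h
      apply hw
      rw [Finset.mem_image]
      exact ⟨π⁻¹, inv_mem_colStab hπ, h⟩
    rw [this, zero_mul]

theorem sum_rowLen_of_le (μ : YoungDiagram) {B : ℕ} (hB : ∀ i, B ≤ i → μ.rowLen i = 0) :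
    ∑ i ∈ range B, μ.rowLen i = μ.card := (card_of_rowLen hB).symm

theorem rowLen_eq_zero (μ : YoungDiagram) {i : ℕ} (hi : μ.colLen 0 ≤ i) : μ.rowLen i = 0 := by
  by_contra h
  have : (i, 0) ∈ μ := by
    rw [YoungDiagram.mem_iff_lt_rowLen]
    omega
  rw [YoungDiagram.mem_iff_lt_colLen] at this
  omega

theorem strictDominance : StrictDominance := by
  intro n μ ν hμ hν hstrict hdom
  let N := max (μ.colLen 0) (ν.colLen 0)
  have hμN : ∀ i, N ≤ i → μ.rowLen i = 0 := fun i hi =>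
    rowLen_eq_zero μ ((le_max_left _ _).trans hi)
  have hνN : ∀ i, N ≤ i → ν.rowLen i = 0 := fun i hi =>
    rowLen_eq_zero ν ((le_max_right _ _).trans hi)
  obtain ⟨ι, hι1, hι2⟩ := exists_embed (n := n) (g := μ.rowLen)
    (fun a b hab => μ.rowLen_anti a b hab) hμN _ ν.rowLen rfl hdom hνN (by
      rw [sum_rowLen_of_le μ hμN, sum_rowLen_of_le ν hνN, hμ, hν])
  apply kronecker_pos_of_form n μ μ ν (formT n μ ν ι)
  · intro hT
    have tν : Fin n ≃ ν.cells := (Fintype.equivFinOfCardEq (by simpa using hν)).symm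
    let c : SV n ν := ⟨polytabloid tν, Submodule.subset_span ⟨tν, rfl⟩⟩
    have hc0 : (c.1 : (Fin n → ℕ) → ℂ) ≠ 0 := by
      intro h
      have h1 := congrFun h (tabloid tν)
      have h2 := polytabloid_self tν
      have h3 : polytabloid tν (tabloid tν) = 0 := h1
      rw [h2] at h3
      exact one_ne_zero h3
    obtain ⟨h1, h2⟩ := hι2 _ (hasContent_specht c.2)
    have h3 : ι (c.1 : (Fin n → ℕ) → ℂ) ≠ 0 := fun h => hc0 (h2 h)
    obtain ⟨t, ht⟩ := exists_colSum_ne_zero hμ hstrict h1 h3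
    apply ht
    let a : SV n μ := ⟨polytabloid t, Submodule.subset_span ⟨t, rfl⟩⟩
    have h4 := formT_apply ι a a c
    rw [hT] at h4
    have h5 := polytabloid_sq t (ι (c.1 : (Fin n → ℕ) → ℂ))
    rw [← h5]
    exact h4.symm
  · intro σ a b c
    exact formT_invariant ι hι1 σ a b c

end Vale.Agent.P197
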