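import Vale.Agent.P197.Char

namespace Vale.Agent.P197

open Equiv Representation

variable {n : ℕ} {μ : YoungDiagram}

theorem polytabloid_apply (t : Fin n ≃ μ.cells) (v : Fin n → ℕ) :
    polytabloid t v = ∑ π ∈ colStab t, if tabloid t ∘ π.symm = v then ((Perm.sign π : ℤ) : ℂ)
      else 0 := by
  unfold polytabloid
  rw [Finsupp.finsetSum_apply]
  refine Finset.sum_congr rfl fun π _ => ?_
  rw [wordRep_single, Finsupp.smul_apply, Finsupp.single_apply]
  split_ifs <;> simp

theorem mem_colStab {t : Fin n ≃ μ.cells} {π : Perm (Fin n)} :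
    π ∈ colStab t ↔ ∀ p, (t (π p)).1.2 = (t p).1.2 := by
  simp [colStab]

theorem mul_mem_colStab {t : Fin n ≃ μ.cells} {π σ : Perm (Fin n)} (h : π ∈ colStab t)
    (h' : σ ∈ colStab t) : π * σ ∈ colStab t := by
  rw [mem_colStab] at *
  intro p
  rw [Perm.mul_apply, h, h']

theorem inv_mem_colStab {t : Fin n ≃ μ.cells} {π : Perm (Fin n)} (h : π ∈ colStab t) :
    π⁻¹ ∈ colStab t := by
  rw [mem_colStab] at *
  intro p
  have := h (π⁻¹ p)
  rw [← Perm.mul_apply, mul_inv_cancel, Perm.one_apply] at this
  exact this.symm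

theorem sign_mul_sign (π : Perm (Fin n)) :
    ((Perm.sign π : ℤ) : ℂ) * ((Perm.sign π : ℤ) : ℂ) = 1 := by
  have : (Perm.sign π : ℤ) * (Perm.sign π : ℤ) = 1 := by
    rcases Int.units_eq_one_or (Perm.sign π) with h | h <;> rw [h] <;> simp
  exact_mod_cast this

theorem wordRep_colStab {t : Fin n ≃ μ.cells} {π : Perm (Fin n)} (h : π ∈ colStab t) :
    wordRep n π (polytabloid t) = ((Perm.sign π : ℤ) : ℂ) • polytabloid t := by
  unfold polytabloid
  rw [map_sum, Finset.smul_sum]
  refine Finset.sum_bij (fun σ _ => π * σ) ?_ ?_ ?_ ?_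
  · intro σ hσ
    exact mul_mem_colStab h hσ
  · intro a _ b _ hab
    simpa using hab
  · intro σ hσ
    exact ⟨π⁻¹ * σ, mul_mem_colStab (inv_mem_colStab h) hσ, by group⟩
  · intro σ _
    rw [map_smul, ← Module.End.mul_apply, ← map_mul, smul_smul, map_mul Perm.sign]
    congr 1
    push_cast
    rw [← mul_assoc, sign_mul_sign, one_mul]

theorem polytabloid_trans {t : Fin n ≃ μ.cells} {π : Perm (Fin n)} (h : π ∈ colStab t) :
    polytabloid (π.trans t) = ((Perm.sign π : ℤ) : ℂ) • polytabloid t := by
  have h1 := wordRep_polytabloid π⁻¹ t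
  rw [wordRep_colStab (inv_mem_colStab h)] at h1
  rw [Perm.inv_def, Equiv.symm_symm] at h1
  rw [← h1]
  simp

noncomputable def cpair (x y : (Fin n → ℕ) →₀ ℂ) : ℂ :=
  y.sum fun v b => (starRingEnd ℂ) (x v) * b

theorem cpair_add_left (x x' y : (Fin n → ℕ) →₀ ℂ) :
    cpair (x + x') y = cpair x y + cpair x' y := by
  unfold cpair Finsupp.sum
  rw [← Finset.sum_add_distrib]
  refine Finset.sum_congr rfl fun v _ => ?_
  simp [add_mul]

theorem cpair_smul_left (a : ℂ) (x y : (Fin n → ℕ) →₀ ℂ) :
    cpair (a • x) y = (starRingEnd ℂ) a * cpair x y := by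
  unfold cpair Finsupp.sum
  rw [Finset.mul_sum]
  refine Finset.sum_congr rfl fun v _ => ?_
  simp [mul_assoc]

theorem cpair_zero_left (y : (Fin n → ℕ) →₀ ℂ) : cpair 0 y = 0 := by
  simp [cpair, Finsupp.sum]

theorem cpair_self (x : (Fin n → ℕ) →₀ ℂ) (h : cpair x x = 0) : x = 0 := by
  unfold cpair Finsupp.sum at h
  have h1 : ∑ v ∈ x.support, Complex.normSq (x v) = 0 := by
    have h2 : ((∑ v ∈ x.support, Complex.normSq (x v) : ℝ) : ℂ) = 0 := by
      rw [← h]
      push_cast
      refine Finset.sum_congr rfl fun v _ => ?_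
      rw [Complex.normSq_eq_conj_mul_self]
    exact_mod_cast h2
  rw [Finset.sum_eq_zero_iff_of_nonneg (fun v _ => Complex.normSq_nonneg _)] at h1
  ext v
  by_cases hv : v ∈ x.support
  · have := h1 v hv
    rw [Complex.normSq_eq_zero] at this
    simpa using this
  · simpa using hv

noncomputable def colSum (t : Fin n ≃ μ.cells) (ψ : (Fin n → ℕ) →₀ ℂ) : ℂ :=
  ∑ π ∈ colStab t, ((Perm.sign π : ℤ) : ℂ) * ψ (tabloid t ∘ π.symm)

theorem cpair_polytabloid (t : Fin n ≃ μ.cells) (ψ : (Fin n → ℕ) →₀ ℂ) :
    cpair (polytabloid t) ψ = colSum t ψ := by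
  unfold cpair colSum Finsupp.sum
  simp_rw [polytabloid_apply, map_sum, Finset.sum_mul]
  rw [Finset.sum_comm]
  refine Finset.sum_congr rfl fun π _ => ?_
  rw [Finset.sum_eq_single (tabloid t ∘ π.symm)]
  · simp
  · intro b _ hb
    rw [if_neg (fun h => hb h.symm)]
    simp
  · intro h
    simp only [Finsupp.mem_support_iff, not_not] at h
    rw [h, mul_zero]

theorem eq_zero_of_colSum {ψ : (Fin n → ℕ) →₀ ℂ} (hψ : ψ ∈ (specht n μ).toSubmodule)
    (h : ∀ t : Fin n ≃ μ.cells, colSum t ψ = 0) : ψ = 0 := by
  apply cpair_self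
  have key : ∀ x ∈ (specht n μ).toSubmodule, cpair x ψ = 0 := by
    intro x hx
    have hx' : x ∈ Submodule.span ℂ (Set.range (polytabloid (n := n) (μ := μ))) := hx
    clear hx
    induction hx' using Submodule.span_induction with
    | mem x hx =>
      obtain ⟨t, rfl⟩ := hx
      rw [cpair_polytabloid, h t]
    | zero => exact cpair_zero_left _
    | add x y _ _ hx hy => rw [cpair_add_left, hx, hy, add_zero]
    | smul a x _ hx => rw [cpair_smul_left, hx, mul_zero]
  exact key ψ hψ

def cellSwap (μ : YoungDiagram) : μ.cells ≃ μ.transpose.cells where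
  toFun c := ⟨c.1.swap, by
    have h : c.1.swap ∈ μ.transpose := by
      rw [YoungDiagram.mem_transpose, Prod.swap_swap]; exact c.2
    exact h⟩
  invFun c := ⟨c.1.swap, by
    have h : c.1 ∈ μ.transpose := c.2
    rw [YoungDiagram.mem_transpose] at h
    exact h⟩
  left_inv c := by simp
  right_inv c := by simp

def colWord (t : Fin n ≃ μ.cells) : Fin n → ℕ := fun p => (t p).1.2

theorem tabloid_swap (t : Fin n ≃ μ.cells) : tabloid (t.trans (cellSwap μ)) = colWord t := rfl

theorem mem_colStab_swap {t : Fin n ≃ μ.cells} {π : Perm (Fin n)} :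
    π ∈ colStab (t.trans (cellSwap μ)) ↔ ∀ p, (t (π p)).1.1 = (t p).1.1 := by
  rw [mem_colStab]
  rfl

noncomputable def tsign (t0 t : Fin n ≃ μ.cells) : ℂ :=
  ((Perm.sign (t.trans t0.symm) : ℤ) : ℂ)

theorem tsign_trans (t0 t : Fin n ≃ μ.cells) (σ : Perm (Fin n)) :
    tsign t0 (σ.trans t) = ((Perm.sign σ : ℤ) : ℂ) * tsign t0 t := by
  unfold tsign
  have : (σ.trans t).trans t0.symm = (t.trans t0.symm : Perm (Fin n)) * σ := rfl
  rw [this, map_mul, mul_comm]
  push_cast
  rfl

theorem tsign_smul_eq (t0 t s : Fin n ≃ μ.cells) (h : colWord t = colWord s) :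
    tsign t0 t • polytabloid t = tsign t0 s • polytabloid s := by
  let π : Perm (Fin n) := s.trans t.symm
  have hs : s = π.trans t := by
    ext p : 1
    simp [π]
  have hπ : π ∈ colStab t := by
    rw [mem_colStab]
    intro p
    have := congrFun h p
    simp only [colWord] at this
    simp [π, this]
  rw [hs, tsign_trans, polytabloid_trans hπ, smul_smul]
  congr 1
  rw [mul_right_comm, sign_mul_sign, one_mul]

open Classical in
noncomputable def theta (t0 : Fin n ≃ μ.cells) :
    ((Fin n → ℕ) →₀ ℂ) →ₗ[ℂ] ((Fin n → ℕ) →₀ ℂ) :=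
  Finsupp.linearCombination ℂ fun v =>
    if h : ∃ t : Fin n ≃ μ.cells, colWord t = v then tsign t0 h.choose • polytabloid h.choose
    else 0

theorem theta_single (t0 t : Fin n ≃ μ.cells) :
    theta t0 (Finsupp.single (colWord t) 1) = tsign t0 t • polytabloid t := by
  unfold theta
  rw [Finsupp.linearCombination_single, one_smul]
  have h : ∃ s : Fin n ≃ μ.cells, colWord s = colWord t := ⟨t, rfl⟩
  rw [dif_pos h]
  exact tsign_smul_eq t0 _ _ h.choose_spec

theorem theta_single_of_not (t0 : Fin n ≃ μ.cells) (v : Fin n → ℕ)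
    (h : ¬ ∃ t : Fin n ≃ μ.cells, colWord t = v) :
    theta t0 (Finsupp.single v 1) = 0 := by
  unfold theta
  rw [Finsupp.linearCombination_single, one_smul, dif_neg h]

theorem theta_mem (t0 : Fin n ≃ μ.cells) (x : (Fin n → ℕ) →₀ ℂ) :
    theta t0 x ∈ (specht n μ).toSubmodule := by
  induction x using Finsupp.induction_linear with
  | zero => simp
  | add x y hx hy => rw [map_add]; exact Submodule.add_mem _ hx hy
  | single v a =>
    rw [← mul_one a, ← smul_eq_mul, ← Finsupp.smul_single, map_smul]
    apply Submodule.smul_mem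
    by_cases h : ∃ t : Fin n ≃ μ.cells, colWord t = v
    · obtain ⟨t, rfl⟩ := h
      rw [theta_single]
      exact Submodule.smul_mem _ _ (Submodule.subset_span ⟨_, rfl⟩)
    · rw [theta_single_of_not t0 v h]
      exact Submodule.zero_mem _

theorem theta_wordRep (t0 : Fin n ≃ μ.cells) (σ : Perm (Fin n)) (x : (Fin n → ℕ) →₀ ℂ) :
    theta t0 (wordRep n σ x) = ((Perm.sign σ : ℤ) : ℂ) • wordRep n σ (theta t0 x) := by
  induction x using Finsupp.induction_linear with
  | zero => simp
  | add x y hx hy => simp only [map_add, hx, hy, smul_add]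
  | single v a =>
    rw [← mul_one a, ← smul_eq_mul, ← Finsupp.smul_single]
    simp only [map_smul]
    rw [smul_comm]
    congr 1
    rw [wordRep_single]
    by_cases h : ∃ t : Fin n ≃ μ.cells, colWord t = v
    · obtain ⟨t, rfl⟩ := h
      have h1 : colWord t ∘ σ.symm = colWord (σ.symm.trans t) := rfl
      rw [h1, theta_single, theta_single, tsign_trans, map_smul, wordRep_polytabloid, smul_smul,
        Perm.sign_symm]
    · have h' : ¬ ∃ t : Fin n ≃ μ.cells, colWord t = v ∘ σ.symm := by
        rintro ⟨t, ht⟩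
        apply h
        refine ⟨σ.trans t, ?_⟩
        funext p
        have := congrFun ht (σ p)
        simpa [colWord] using this
      rw [theta_single_of_not t0 _ h', theta_single_of_not t0 _ h]
      simp

theorem colSum_add (t : Fin n ≃ μ.cells) (x y : (Fin n → ℕ) →₀ ℂ) :
    colSum t (x + y) = colSum t x + colSum t y := by
  unfold colSum
  rw [← Finset.sum_add_distrib]
  refine Finset.sum_congr rfl fun π _ => ?_
  rw [Finsupp.add_apply, mul_add]

theorem colSum_smul (t : Fin n ≃ μ.cells) (a : ℂ) (x : (Fin n → ℕ) →₀ ℂ) :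
    colSum t (a • x) = a * colSum t x := by
  unfold colSum
  rw [Finset.mul_sum]
  refine Finset.sum_congr rfl fun π _ => ?_
  rw [Finsupp.smul_apply, smul_eq_mul]
  ring

theorem theta_apply_tabloid (t0 t : Fin n ≃ μ.cells) (ψ : (Fin n → ℕ) →₀ ℂ) :
    theta t0 ψ (tabloid t) = tsign t0 t * colSum (t.trans (cellSwap μ)) ψ := by
  induction ψ using Finsupp.induction_linear with
  | zero => simp [colSum]
  | add x y hx hy => rw [map_add, Finsupp.add_apply, hx, hy, colSum_add, mul_add]
  | single v a =>
    rw [← mul_one a, ← smul_eq_mul, ← Finsupp.smul_single, map_smul, Finsupp.smul_apply,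
      colSum_smul, smul_eq_mul, mul_left_comm]
    congr 1
    by_cases h : ∃ s : Fin n ≃ μ.cells, colWord s = v
    · obtain ⟨s, rfl⟩ := h
      rw [theta_single, Finsupp.smul_apply, polytabloid_apply, smul_eq_mul]
      unfold colSum
      rw [tabloid_swap]
      simp_rw [Finsupp.single_apply, mul_ite, mul_one, mul_zero]
      rw [← Finset.sum_filter, ← Finset.sum_filter, Finset.mul_sum, Finset.mul_sum]
      let g : Perm (Fin n) := t.trans s.symm
      have hg : tsign t0 t * ((Perm.sign g : ℤ) : ℂ) = tsign t0 s := by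
        have h1 : t = g.trans s := by
          ext p : 1
          simp [g]
        rw [h1, tsign_trans, mul_right_comm, sign_mul_sign, one_mul]
      refine Finset.sum_bij (fun π _ => π * g) ?_ ?_ ?_ ?_
      · intro π hπ
        rw [Finset.mem_filter, mem_colStab] at hπ
        rw [Finset.mem_filter, mem_colStab_swap]
        obtain ⟨h1, h2⟩ := hπ
        refine ⟨?_, ?_⟩
        · intro p
          have := congrFun h2 ((π * g) p)
          simp only [tabloid, Function.comp_apply, Perm.mul_apply, Equiv.symm_apply_apply] at this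
          rw [Perm.mul_apply, ← this]
          simp [g]
        · funext q
          obtain ⟨p, rfl⟩ := (π * g).surjective q
          have := h1 (g p)
          simp only [colWord, Function.comp_apply, Perm.mul_apply]
          have h3 : (π * g).symm (π (g p)) = p := by
            rw [Equiv.symm_apply_eq, Perm.mul_apply]
          rw [h3, this]
          simp [g]
      · intro a _ b _ hab
        simpa using hab
      · intro ρ hρ
        rw [Finset.mem_filter, mem_colStab_swap] at hρ
        obtain ⟨h1, h2⟩ := hρ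
        refine ⟨ρ * g⁻¹, ?_, by group⟩
        rw [Finset.mem_filter, mem_colStab]
        refine ⟨?_, ?_⟩
        · intro p
          obtain ⟨q, rfl⟩ := g.surjective p
          have := congrFun h2 (ρ q)
          simp only [colWord, Function.comp_apply, Equiv.symm_apply_apply] at this
          have h3 : (ρ * g⁻¹) (g q) = ρ q := by
            rw [Perm.mul_apply, Perm.inv_def, Equiv.symm_apply_apply]
          rw [h3, this]
          simp [g]
        · funext q
          obtain ⟨p, rfl⟩ := ρ.surjective q
          have := h1 p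
          have h3 : (ρ * g⁻¹).symm (ρ p) = g p := by
            rw [Equiv.symm_apply_eq, Perm.mul_apply, Perm.inv_def, Equiv.symm_apply_apply]
          simp only [tabloid, Function.comp_apply]
          rw [h3, this]
          simp [g]
      · intro π _
        rw [map_mul, ← hg]
        push_cast
        ring
    · rw [theta_single_of_not t0 _ h]
      unfold colSum
      rw [Finset.sum_eq_zero]
      · simp
      · intro π _
        rw [Finsupp.single_apply, if_neg, mul_zero]
        intro hv
        apply h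
        exact ⟨π.symm.trans t, hv.symm⟩

theorem theta_injOn (t0 : Fin n ≃ μ.cells) {ψ : (Fin n → ℕ) →₀ ℂ}
    (hψ : ψ ∈ (specht n μ.transpose).toSubmodule) (h : theta t0 ψ = 0) : ψ = 0 := by
  apply eq_zero_of_colSum hψ
  intro t
  have h1 := theta_apply_tabloid t0 (t.trans (cellSwap μ).symm) ψ
  rw [h, Finsupp.zero_apply] at h1
  have h2 : (t.trans (cellSwap μ).symm).trans (cellSwap μ) = t := by
    ext p : 1
    simp
  rw [h2] at h1
  have h3 : tsign t0 (t.trans (cellSwap μ).symm) ≠ 0 := by
    intro h4
    have := sign_mul_sign ((t.trans (cellSwap μ).symm).trans t0.symm)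
    unfold tsign at h4
    rw [h4, mul_zero] at this
    exact zero_ne_one this
  rcases mul_eq_zero.mp h1.symm with h4 | h4
  · exact absurd h4 h3
  · exact h4

noncomputable def thetaS (t0 : Fin n ≃ μ.cells) : SV n μ.transpose →ₗ[ℂ] SV n μ :=
  ((theta t0).comp (specht n μ.transpose).toSubmodule.subtype).codRestrict
    (specht n μ).toSubmodule (fun x => theta_mem t0 _)

theorem thetaS_injective (t0 : Fin n ≃ μ.cells) : Function.Injective (thetaS t0) := by
  rw [← LinearMap.ker_eq_bot, LinearMap.ker_eq_bot']
  intro x hx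
  have h1 : theta t0 x.1 = 0 := congrArg Subtype.val hx
  exact Subtype.ext (theta_injOn t0 x.2 h1)

theorem finrank_transpose_le (hμ : μ.card = n) :
    Module.finrank ℂ (SV n μ.transpose) ≤ Module.finrank ℂ (SV n μ) := by
  have t0 : Fin n ≃ μ.cells := (Fintype.equivFinOfCardEq (by simpa using hμ)).symm
  exact LinearMap.finrank_le_finrank_of_injective (thetaS_injective t0)

theorem card_transpose (μ : YoungDiagram) : μ.transpose.card = μ.card := by
  have := Fintype.card_congr (cellSwap μ)
  simpa using this.symm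

theorem finrank_transpose (hμ : μ.card = n) :
    Module.finrank ℂ (SV n μ.transpose) = Module.finrank ℂ (SV n μ) := by
  apply le_antisymm (finrank_transpose_le hμ)
  have h := finrank_transpose_le (n := n) (μ := μ.transpose) (by rw [card_transpose, hμ])
  rwa [YoungDiagram.transpose_transpose] at h

theorem chi_transpose (hμ : μ.card = n) (σ : Perm (Fin n)) :
    chi n μ.transpose σ = ((Perm.sign σ : ℤ) : ℂ) * chi n μ σ := by
  have t0 : Fin n ≃ μ.cells := (Fintype.equivFinOfCardEq (by simpa using hμ)).symm
  let e : SV n μ.transpose ≃ₗ[ℂ] SV n μ :=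
    LinearEquiv.ofInjectiveOfFinrankEq (thetaS t0) (thetaS_injective t0) (finrank_transpose hμ)
  have he : ∀ x, e (rep n μ.transpose σ x) = ((Perm.sign σ : ℤ) : ℂ) • rep n μ σ (e x) := by
    intro x
    apply Subtype.ext
    exact theta_wordRep t0 σ x.1
  have h1 : rep n μ.transpose σ =
      (e.symm.conj) (((Perm.sign σ : ℤ) : ℂ) • rep n μ σ) := by
    apply LinearMap.ext
    intro x
    apply e.injective
    rw [he]
    simp [LinearEquiv.conj_apply]
  unfold chi character
  rw [h1, LinearMap.trace_conj', map_smul, smul_eq_mul]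

theorem kronecker_transpose (la mu nu : YoungDiagram) (hmu : mu.card = n) (hnu : nu.card = n) :
    kronecker n la mu.transpose nu.transpose = kronecker n la mu nu := by
  have h1 := kronecker_eq_sum n la mu.transpose nu.transpose
  have h2 := kronecker_eq_sum n la mu nu
  have h3 : (kronecker n la mu.transpose nu.transpose : ℂ) = kronecker n la mu nu := by
    rw [h1, h2]
    congr 1
    refine Finset.sum_congr rfl fun σ _ => ?_
    rw [chi_transpose hmu, chi_transpose hnu]
    have := sign_mul_sign σ
    calc chi n la σ * (((Perm.sign σ : ℤ) : ℂ) * chi n mu σ) *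
        (((Perm.sign σ : ℤ) : ℂ) * chi n nu σ)
        = (((Perm.sign σ : ℤ) : ℂ) * ((Perm.sign σ : ℤ) : ℂ)) *
          (chi n la σ * chi n mu σ * chi n nu σ) := by ring
      _ = _ := by rw [this, one_mul]
  exact_mod_cast h3

theorem kronecker_swap (n : ℕ) (la mu nu : YoungDiagram) :
    kronecker n la mu nu = kronecker n mu la nu := by
  have h1 := kronecker_eq_sum n la mu nu
  have h2 := kronecker_eq_sum n mu la nu
  have h3 : (kronecker n la mu nu : ℂ) = kronecker n mu la nu := by
    rw [h1, h2]
    congr 1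
    refine Finset.sum_congr rfl fun σ _ => ?_
    ring
  exact_mod_cast h3

theorem kronecker_rotate (n : ℕ) (la mu nu : YoungDiagram) :
    kronecker n la mu nu = kronecker n mu nu la := by
  have h1 := kronecker_eq_sum n la mu nu
  have h2 := kronecker_eq_sum n mu nu la
  have h3 : (kronecker n la mu nu : ℂ) = kronecker n mu nu la := by
    rw [h1, h2]
    congr 1
    refine Finset.sum_congr rfl fun σ _ => ?_
    ring
  exact_mod_cast h3

end Vale.Agent.P197
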