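import Vale.Agent.P197.Transpose

namespace Vale.Agent.P197

open Equiv

section cells

variable {a b c : YoungDiagram}

def posL (a b : YoungDiagram) (j : ℕ) : ℕ := j + b.rowLen (a.colLen j - 1)

def posR (a b : YoungDiagram) (j : ℕ) : ℕ := j + a.rowLen (b.colLen j)

theorem posL_strictMono (a b : YoungDiagram) : StrictMono (posL a b) := by
  intro j k hjk
  unfold posL
  have h1 := a.colLen_anti j k hjk.le
  have h2 := b.rowLen_anti (a.colLen k - 1) (a.colLen j - 1) (by omega)
  omega

theorem posR_strictMono (a b : YoungDiagram) : StrictMono (posR a b) := by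
  intro j k hjk
  unfold posR
  have h1 := b.colLen_anti j k hjk.le
  have h2 := a.rowLen_anti _ _ h1
  omega

theorem posL_ne_posR {i j i' j' : ℕ} (h : (i, j) ∈ a) (h' : (i', j') ∈ b) :
    posL a b j ≠ posR a b j' := by
  unfold posL posR
  have h1 : 0 < a.colLen j := by
    rw [YoungDiagram.mem_iff_lt_colLen] at h; omega
  rcases lt_or_ge (b.colLen j') (a.colLen j) with hlt | hge
  · have h2 : (b.colLen j', j) ∈ a := YoungDiagram.mem_iff_lt_colLen.mpr hlt
    have h3 : ¬ (b.colLen j', j') ∈ b := by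
      rw [YoungDiagram.mem_iff_lt_colLen]; omega
    rw [YoungDiagram.mem_iff_lt_rowLen] at h2 h3
    have h4 := b.rowLen_anti (b.colLen j') (a.colLen j - 1) (by omega)
    omega
  · have h2 : ¬ (a.colLen j, j) ∈ a := by
      rw [YoungDiagram.mem_iff_lt_colLen]; omega
    have h3 : (a.colLen j - 1, j') ∈ b := by
      rw [YoungDiagram.mem_iff_lt_colLen]; omega
    rw [YoungDiagram.mem_iff_lt_rowLen] at h2 h3
    have h4 := a.rowLen_anti _ _ hge
    omega

theorem mem_of_posL (hrow : ∀ i, c.rowLen i = a.rowLen i + b.rowLen i) {i j : ℕ}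
    (h : (i, j) ∈ a) : (i, posL a b j) ∈ c := by
  rw [YoungDiagram.mem_iff_lt_rowLen, hrow]
  have h1 := YoungDiagram.mem_iff_lt_rowLen.mp h
  have h2 := YoungDiagram.mem_iff_lt_colLen.mp h
  have h3 := b.rowLen_anti i (a.colLen j - 1) (by omega)
  unfold posL
  omega

theorem mem_of_posR (hrow : ∀ i, c.rowLen i = a.rowLen i + b.rowLen i) {i j : ℕ}
    (h : (i, j) ∈ b) : (i, posR a b j) ∈ c := by
  rw [YoungDiagram.mem_iff_lt_rowLen, hrow]
  have h1 := YoungDiagram.mem_iff_lt_rowLen.mp h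
  have h2 := YoungDiagram.mem_iff_lt_colLen.mp h
  have h3 := a.rowLen_anti i (b.colLen j) h2.le
  unfold posR
  omega

theorem card_eq_sum_rowLen (c : YoungDiagram) (B : ℕ) (hB : c.colLen 0 ≤ B) :
    c.card = ∑ i ∈ Finset.range B, c.rowLen i := by
  have h : ∀ x ∈ c.cells, x.1 ∈ Finset.range B := by
    intro x hx
    have h1 : (x.1, x.2) ∈ c := hx
    have h2 : (x.1, 0) ∈ c := c.up_left_mem le_rfl (Nat.zero_le _) h1
    rw [YoungDiagram.mem_iff_lt_colLen] at h2
    rw [Finset.mem_range]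
    omega
  rw [YoungDiagram.card, Finset.card_eq_sum_card_fiberwise h]
  refine Finset.sum_congr rfl fun i _ => ?_
  rw [YoungDiagram.rowLen_eq_card]
  rfl

theorem card_add (hrow : ∀ i, c.rowLen i = a.rowLen i + b.rowLen i) :
    c.card = a.card + b.card := by
  set B := max (c.colLen 0) (max (a.colLen 0) (b.colLen 0)) with hB
  rw [card_eq_sum_rowLen c B (by omega), card_eq_sum_rowLen a B (by omega),
    card_eq_sum_rowLen b B (by omega), ← Finset.sum_add_distrib]
  exact Finset.sum_congr rfl fun i _ => hrow i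

def unionMap (hrow : ∀ i, c.rowLen i = a.rowLen i + b.rowLen i) :
    a.cells ⊕ b.cells → c.cells :=
  Sum.elim (fun x => ⟨(x.1.1, posL a b x.1.2), mem_of_posL hrow x.2⟩)
    (fun x => ⟨(x.1.1, posR a b x.1.2), mem_of_posR hrow x.2⟩)

theorem unionMap_injective (hrow : ∀ i, c.rowLen i = a.rowLen i + b.rowLen i) :
    Function.Injective (unionMap hrow) := by
  rintro (⟨⟨i, j⟩, h⟩ | ⟨⟨i, j⟩, h⟩) (⟨⟨i', j'⟩, h'⟩ | ⟨⟨i', j'⟩, h'⟩) heq
  · simp only [unionMap, Sum.elim_inl, Subtype.mk.injEq, Prod.mk.injEq] at heq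
    obtain ⟨rfl, h2⟩ := heq
    have := (posL_strictMono a b).injective h2
    subst this
    rfl
  · simp only [unionMap, Sum.elim_inl, Sum.elim_inr, Subtype.mk.injEq, Prod.mk.injEq] at heq
    exact absurd heq.2 (posL_ne_posR h h')
  · simp only [unionMap, Sum.elim_inl, Sum.elim_inr, Subtype.mk.injEq, Prod.mk.injEq] at heq
    exact absurd heq.2.symm (posL_ne_posR h' h)
  · simp only [unionMap, Sum.elim_inr, Subtype.mk.injEq, Prod.mk.injEq] at heq
    obtain ⟨rfl, h2⟩ := heq
    have := (posR_strictMono a b).injective h2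
    subst this
    rfl

noncomputable def unionCells (hrow : ∀ i, c.rowLen i = a.rowLen i + b.rowLen i) :
    a.cells ⊕ b.cells ≃ c.cells :=
  Equiv.ofBijective (unionMap hrow) (by
    rw [Fintype.bijective_iff_injective_and_card]
    refine ⟨unionMap_injective hrow, ?_⟩
    rw [Fintype.card_sum]
    have := card_add hrow
    simpa using this.symm)

noncomputable def unionTab {p q : ℕ} (hrow : ∀ i, c.rowLen i = a.rowLen i + b.rowLen i)
    (t : Fin p ≃ a.cells) (s : Fin q ≃ b.cells) : Fin (p + q) ≃ c.cells :=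
  finSumFinEquiv.symm.trans ((Equiv.sumCongr t s).trans (unionCells hrow))

end cells

end Vale.Agent.P197
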